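import Vale.Agent.P310.WL

/-!
# P310, package P2: a good family gives Weisfeiler–Leman equivalence
-/

namespace Vale.Agent.P310

open Finset

namespace ASys

namespace P2

variable {S : ASys}

/-- The flip of the slots of `x`. -/
def flp (S : ASys) (β : S.Var → ZMod 2) (x : S.X) (b : Fin S.σ) : ZMod 2 :=
  (S.slot x b).elim 0 β

theorem good_add_iff (tw : S.X → ZMod 2) (x : S.X) (φ : Fin S.σ → ZMod 2)
    (h0 : ∀ b, S.slot x b = none → φ b = 0) (hs : ∑ b, φ b = tw x) (τ : Fin S.σ → ZMod 2) :
    S.good tw x (τ + φ) ↔ S.good 0 x τ := by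
  unfold good
  refine and_congr Iff.rfl (and_congr ?_ ?_)
  · refine forall_congr' fun b => ?_
    refine imp_congr_right fun hb => ?_
    rw [Pi.add_apply, h0 b hb, add_zero]
  · have h1 : ∑ b, (τ + φ) b = ∑ b, τ b + ∑ b, φ b := Finset.sum_add_distrib
    rw [h1, hs]
    exact add_eq_right

theorem flp_none (β : S.Var → ZMod 2) (x : S.X) (b : Fin S.σ) (hb : S.slot x b = none) :
    flp S β x b = 0 := by
  unfold flp
  rw [hb]
  rfl

open Classical in
/-- The map on the fibre of `x`. -/
noncomputable def fib (S : ASys) (φ : S.X → Fin S.σ → ZMod 2) (β : S.Var → ZMod 2) (x : S.X)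
    (τ : Fin S.σ → ZMod 2) : Fin S.σ → ZMod 2 :=
  if S.good 0 x τ then τ + flp S β x else τ + φ x

theorem good_fib (tw : S.X → ZMod 2) (φ : S.X → Fin S.σ → ZMod 2)
    (hφ : ∀ x, S.valid x → (∀ b, S.slot x b = none → φ x b = 0) ∧ ∑ b, φ x b = tw x)
    (β : S.Var → ZMod 2) (x : S.X) (τ : Fin S.σ → ZMod 2)
    (hx : S.good 0 x τ → ∑ b, flp S β x b = tw x) :
    S.good tw x (fib S φ β x τ) ↔ S.good 0 x τ := by
  unfold fib
  by_cases h : S.good 0 x τ
  · rw [if_pos h]
    exact good_add_iff tw x _ (flp_none β x) (hx h) τ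
  · rw [if_neg h]
    by_cases hv : S.valid x
    · exact good_add_iff tw x _ (hφ x hv).1 (hφ x hv).2 τ
    · exact ⟨fun h' => absurd h'.1 hv, fun h' => absurd h'.1 hv⟩

theorem fib_inj (tw : S.X → ZMod 2) (φ : S.X → Fin S.σ → ZMod 2)
    (hφ : ∀ x, S.valid x → (∀ b, S.slot x b = none → φ x b = 0) ∧ ∑ b, φ x b = tw x)
    (β : S.Var → ZMod 2) (x : S.X) (τ τ' : Fin S.σ → ZMod 2)
    (hx : S.good 0 x τ ∨ S.good 0 x τ' → ∑ b, flp S β x b = tw x)
    (h : fib S φ β x τ = fib S φ β x τ') : τ = τ' := by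
  have h1 := good_fib tw φ hφ β x τ (fun g => hx (Or.inl g))
  have h2 := good_fib tw φ hφ β x τ' (fun g => hx (Or.inr g))
  rw [h] at h1
  have h3 : S.good 0 x τ ↔ S.good 0 x τ' := h1.symm.trans h2
  unfold fib at h
  by_cases g : S.good 0 x τ
  · rw [if_pos g, if_pos (h3.mp g)] at h
    exact add_right_cancel h
  · rw [if_neg g, if_neg (fun g' => g (h3.mpr g'))] at h
    exact add_right_cancel h

/-- The map on the vertices. -/
noncomputable def Fm (S : ASys) (φ : S.X → Fin S.σ → ZMod 2) (β : S.Var → ZMod 2) (u : S.V) : S.V :=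
  (u.1, fib S φ β u.1 u.2.1, u.2.2)

theorem Fm_eq_iff (tw : S.X → ZMod 2) (φ : S.X → Fin S.σ → ZMod 2)
    (hφ : ∀ x, S.valid x → (∀ b, S.slot x b = none → φ x b = 0) ∧ ∑ b, φ x b = tw x)
    (β : S.Var → ZMod 2) (u v : S.V) (hu : S.good 0 u.1 u.2.1 → ∑ b, flp S β u.1 b = tw u.1)
    (hv : S.good 0 v.1 v.2.1 → ∑ b, flp S β v.1 b = tw v.1) :
    Fm S φ β u = Fm S φ β v ↔ u = v := by
  constructor
  · intro h
    obtain ⟨x, τ, m⟩ := u
    obtain ⟨y, τ', m'⟩ := v
    unfold Fm at h
    simp only [Prod.mk.injEq] at h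
    obtain ⟨h1, h2, h3⟩ := h
    subst h1
    subst h3
    have h4 := fib_inj tw φ hφ β x τ τ' (fun g => by
      rcases g with g | g
      · exact hu g
      · exact hv g) h2
    rw [h4]
  · intro h
    rw [h]

theorem Fm_adj_iff (tw : S.X → ZMod 2) (φ : S.X → Fin S.σ → ZMod 2)
    (hφ : ∀ x, S.valid x → (∀ b, S.slot x b = none → φ x b = 0) ∧ ∑ b, φ x b = tw x)
    (β : S.Var → ZMod 2) (u v : S.V) (hu : S.good 0 u.1 u.2.1 → ∑ b, flp S β u.1 b = tw u.1)
    (hv : S.good 0 v.1 v.2.1 → ∑ b, flp S β v.1 b = tw v.1) :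
    (S.graph 0).Adj u v ↔ (S.graph tw).Adj (Fm S φ β u) (Fm S φ β v) := by
  obtain ⟨x, τ, m⟩ := u
  obtain ⟨y, τ', m'⟩ := v
  have g1 := good_fib tw φ hφ β x τ hu
  have g2 := good_fib tw φ hφ β y τ' hv
  cases m with
  | none =>
    cases m' with
    | none =>
      change (S.good 0 x τ ∧ S.good 0 y τ' ∧ x ≠ y ∧ S.share x y ∧ S.agree x τ y τ') ↔
        (S.good tw x (fib S φ β x τ) ∧ S.good tw y (fib S φ β y τ') ∧ x ≠ y ∧ S.share x y ∧
          S.agree x (fib S φ β x τ) y (fib S φ β y τ'))
      rw [g1, g2]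
      refine and_congr_right fun a1 => and_congr_right fun a2 => and_congr_right fun _ =>
        and_congr_right fun _ => ?_
      unfold agree
      refine forall_congr' fun b => forall_congr' fun b' => forall_congr' fun w =>
        imp_congr_right fun e1 => imp_congr_right fun e2 => ?_
      unfold fib flp
      rw [if_pos a1, if_pos a2, Pi.add_apply, Pi.add_apply, e1, e2]
      exact (add_left_inj _).symm
    | some m' =>
      change (S.good 0 x τ ∧ x = y ∧ τ = τ' ∧ (m' : ℕ) < S.idx x + 2) ↔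
        (S.good tw x (fib S φ β x τ) ∧ x = y ∧ fib S φ β x τ = fib S φ β y τ' ∧
          (m' : ℕ) < S.idx x + 2)
      rw [g1]
      refine and_congr_right fun a1 => and_congr_right fun e => and_congr ?_ Iff.rfl
      subst e
      exact ⟨fun h => by rw [h], fun h => fib_inj tw φ hφ β x τ τ' (fun _ => hu a1) h⟩
  | some m =>
    cases m' with
    | none =>
      change (S.good 0 x τ ∧ x = y ∧ τ = τ' ∧ (m : ℕ) < S.idx x + 2) ↔
        (S.good tw x (fib S φ β x τ) ∧ x = y ∧ fib S φ β x τ = fib S φ β y τ' ∧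
          (m : ℕ) < S.idx x + 2)
      rw [g1]
      refine and_congr_right fun a1 => and_congr_right fun e => and_congr ?_ Iff.rfl
      subst e
      exact ⟨fun h => by rw [h], fun h => fib_inj tw φ hφ β x τ τ' (fun _ => hu a1) h⟩
    | some m' => exact Iff.rfl

open Classical in
/-- The axioms of the good pebbled vertices. -/
noncomputable def Wp {k : ℕ} (p : Fin k → S.V) : Finset S.X :=
  (univ.filter fun i => S.good 0 (p i).1 (p i).2.1).image fun i => (p i).1

theorem mem_Wp {k : ℕ} (p : Fin k → S.V) (y : S.X) :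
    y ∈ Wp p ↔ ∃ i, S.good 0 (p i).1 (p i).2.1 ∧ (p i).1 = y := by
  unfold Wp
  simp only [mem_image, mem_filter, mem_univ, true_and]

theorem card_Wp {k : ℕ} (p : Fin k → S.V) : (Wp p).card ≤ k := by
  classical
  unfold Wp
  refine card_image_le.trans ((card_filter_le _ _).trans ?_)
  rw [card_univ, Fintype.card_fin]

theorem valid_Wp {k : ℕ} (p : Fin k → S.V) : ∀ y ∈ Wp p, S.valid y := by
  intro y hy
  obtain ⟨i, hi, rfl⟩ := (mem_Wp p y).mp hy
  exact hi.1

end P2

open P2 in
theorem GoodFam.wlEquiv {S : ASys} [Fintype S.X] [DecidableEq S.X] {k : ℕ} (hk : 1 ≤ k)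
    {tw : S.X → ZMod 2} {Good : Finset S.X → (S.Var → ZMod 2) → Prop}
    (h : S.GoodFam k tw Good) : WLEquiv k (S.graph 0) (S.graph tw) := by
  -- flips for all valid axioms
  obtain ⟨β₀, hβ₀⟩ := h.empty
  have hone : ∀ x, S.valid x → ∃ β, Good {x} β ∧ ∑ b, flp S β x b = tw x := by
    intro x hx
    obtain ⟨β, h1, -⟩ := h.ext ∅ β₀ (fun y hy => absurd hy (notMem_empty y)) (by simp) hβ₀ x hx
    have h2 := h1 {x} (fun y => by simp)
    refine ⟨β, h2, ?_⟩
    exact h.ax {x} β (fun y hy => by rw [mem_singleton.mp hy]; exact hx)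
      (by rw [card_singleton]; omega) h2 x (mem_singleton_self x)
  have hφ' : ∀ x, ∃ φ : Fin S.σ → ZMod 2, S.valid x →
      (∀ b, S.slot x b = none → φ b = 0) ∧ ∑ b, φ b = tw x := by
    intro x
    by_cases hx : S.valid x
    · obtain ⟨β, -, h2⟩ := hone x hx
      exact ⟨flp S β x, fun _ => ⟨flp_none β x, h2⟩⟩
    · exact ⟨0, fun h => absurd h hx⟩
  choose φ hφ using hφ'
  -- the relation
  let R : (Fin k → S.V) → (Fin k → S.V) → Prop := fun p q =>
    ∃ β, Good (Wp p) β ∧ ∀ i, q i = Fm S φ β (p i)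
  have hsum : ∀ (p : Fin k → S.V) β, Good (Wp p) β → ∀ i, S.good 0 (p i).1 (p i).2.1 →
      ∑ b, flp S β (p i).1 b = tw (p i).1 := by
    intro p β hβ i hi
    exact h.ax (Wp p) β (valid_Wp p) (by have := card_Wp p; omega) hβ (p i).1
      ((mem_Wp p _).mpr ⟨i, hi, rfl⟩)
  have hBF : BF k (S.graph 0) (S.graph tw) R := by
    refine ⟨?_, ?_, ?_⟩
    · rintro p q ⟨β, hβ, hq⟩ i j
      rw [hq i, hq j]
      exact (Fm_eq_iff tw φ hφ β (p i) (p j) (hsum p β hβ i) (hsum p β hβ j)).symm
    · rintro p q ⟨β, hβ, hq⟩ i j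
      rw [hq i, hq j]
      exact Fm_adj_iff tw φ hφ β (p i) (p j) (hsum p β hβ i) (hsum p β hβ j)
    · rintro p q ⟨β, hβ, hq⟩
      classical
      have hcard := card_Wp p
      have hB : ∀ x, ∃ β' : S.Var → ZMod 2, S.valid x →
          (∀ W', (∀ y, y ∈ W' ↔ y = x ∨ y ∈ Wp p) → Good W' β') ∧
            ∀ y ∈ Wp p, ∀ b v, S.slot y b = some v → β' v = β v := by
        intro x
        by_cases hx : S.valid x
        · obtain ⟨β', h1⟩ := h.ext (Wp p) β (valid_Wp p) hcard hβ x hx
          exact ⟨β', fun _ => h1⟩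
        · exact ⟨β, fun h => absurd h hx⟩
      choose B hB using hB
      have hins : ∀ x, S.valid x → Good (insert x (Wp p)) (B x) := fun x hx =>
        (hB x hx).1 _ (fun y => mem_insert)
      have hinsv : ∀ x, S.valid x → ∀ y ∈ insert x (Wp p), S.valid y := by
        intro x hx y hy
        rcases mem_insert.mp hy with h1 | h1
        · rw [h1]; exact hx
        · exact valid_Wp p y h1
      have hinsc : ∀ x, (insert x (Wp p)).card ≤ k + 1 := fun x =>
        (card_insert_le _ _).trans (by omega)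
      have hBs : ∀ x, S.valid x → ∑ b, flp S (B x) x b = tw x := by
        intro x hx
        exact h.ax _ (B x) (hinsv x hx) (hinsc x) (hins x hx) x (mem_insert_self _ _)
      -- the bijection
      have hinj : Function.Injective (fun u : S.V => Fm S φ (B u.1) u) := by
        intro u v huv
        replace huv : Fm S φ (B u.1) u = Fm S φ (B v.1) v := huv
        have h1' : (Fm S φ (B u.1) u).1 = (Fm S φ (B v.1) v).1 := congrArg Prod.fst huv
        have h1 : u.1 = v.1 := h1'
        rw [h1] at huv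
        refine (Fm_eq_iff tw φ hφ (B v.1) u v (fun g => ?_) (fun g => hBs _ g.1)).mp huv
        rw [h1]
        rw [h1] at g
        exact hBs _ g.1
      let f : S.V ≃ S.V := Equiv.ofBijective _ ((Finite.injective_iff_bijective).mp hinj)
      refine ⟨f, fun u i => ?_⟩
      have hf : f u = Fm S φ (B u.1) u := rfl
      by_cases hu : S.good 0 u.1 u.2.1
      · have hx : S.valid u.1 := hu.1
        refine ⟨B u.1, ?_, fun j => ?_⟩
        · refine h.mono (insert u.1 (Wp p)) _ (B u.1) (hinsv _ hx) (hinsc _) ?_ (hins _ hx)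
          intro y hy
          obtain ⟨j, hj, rfl⟩ := (mem_Wp _ y).mp hy
          by_cases hji : j = i
          · subst hji
            rw [Function.update_self]
            exact mem_insert_self _ _
          · rw [Function.update_of_ne hji] at hj ⊢
            exact mem_insert_of_mem ((mem_Wp p _).mpr ⟨j, hj, rfl⟩)
        · by_cases hji : j = i
          · subst hji
            rw [Function.update_self, Function.update_self]
            exact hf
          · rw [Function.update_of_ne hji, Function.update_of_ne hji, hq j]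
            unfold Fm fib
            by_cases hg : S.good 0 (p j).1 (p j).2.1
            · rw [if_pos hg, if_pos hg]
              have e : flp S β (p j).1 = flp S (B u.1) (p j).1 := by
                funext b
                unfold flp
                cases hs : S.slot (p j).1 b with
                | none => rfl
                | some v =>
                  exact ((hB _ hx).2 (p j).1 ((mem_Wp p _).mpr ⟨j, hg, rfl⟩) b v hs).symm
              rw [e]
            · rw [if_neg hg, if_neg hg]
      · refine ⟨β, ?_, fun j => ?_⟩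
        · refine h.mono (Wp p) _ β (valid_Wp p) (by omega) ?_ hβ
          intro y hy
          obtain ⟨j, hj, rfl⟩ := (mem_Wp _ y).mp hy
          by_cases hji : j = i
          · subst hji
            rw [Function.update_self] at hj
            exact absurd hj hu
          · rw [Function.update_of_ne hji] at hj ⊢
            exact (mem_Wp p _).mpr ⟨j, hj, rfl⟩
        · by_cases hji : j = i
          · subst hji
            rw [Function.update_self, Function.update_self, hf]
            unfold Fm fib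
            rw [if_neg hu, if_neg hu]
          · rw [Function.update_of_ne hji, Function.update_of_ne hji]
            exact hq j
  -- a starting position
  by_cases hne : Nonempty S.V
  · obtain ⟨u⟩ := hne
    have hstart : ∃ β, Good (Wp (fun _ : Fin k => u)) β := by
      by_cases hu : S.good 0 u.1 u.2.1
      · obtain ⟨β, h1, -⟩ := hone u.1 hu.1
        refine ⟨β, h.mono {u.1} _ β (fun y hy => by rw [mem_singleton.mp hy]; exact hu.1)
          (by rw [card_singleton]; omega) ?_ h1⟩
        intro y hy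
        obtain ⟨j, hj, rfl⟩ := (mem_Wp _ y).mp hy
        exact mem_singleton_self _
      · refine ⟨β₀, h.mono ∅ _ β₀ (fun y hy => absurd hy (notMem_empty y)) (by simp) ?_ hβ₀⟩
        intro y hy
        obtain ⟨j, hj, rfl⟩ := (mem_Wp _ y).mp hy
        exact absurd hj hu
    obtain ⟨β, hβ⟩ := hstart
    exact WLEquiv.of_BF hk hBF (x := fun _ => u) (y := fun _ => Fm S φ β u) ⟨β, hβ, fun _ => rfl⟩
  · intro r
    have h1 : IsEmpty (Fin k → S.V) := by
      refine ⟨fun g => hne ⟨g ⟨0, by omega⟩⟩⟩
    have h2 : (univ : Finset (Fin k → S.V)) = ∅ := univ_eq_empty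
    rw [h2]
    rfl

end ASys

end Vale.Agent.P310
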