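import Vale.Agent.P310.Sys

/-!
# P310, P4: if the goal is derivable, Duplicator has no winning strategy
-/

namespace Vale.Agent.P310

open Finset

namespace Net

variable {k : ℕ} (N : Net k) {ℓ : ℕ}

/-! ### Slots -/

/-- The horizontal slot `t`. -/
def P4_hs (k t : ℕ) (ht : t < 7) : Fin (k + 7) := ⟨k + t, by omega⟩

theorem P4_slot_vert (c : N.C) (p : Fin 7 × Fin (ℓ + 1)) (i : Fin k) (a : Fin k → N.Λ) (j : Fin k) :
    N.axSlot ℓ (c, p, i, a) ⟨j, by omega⟩ =
      if j = i then none else some (.vert c p.1 p.2 s(i, j) (a j)) := by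
  unfold axSlot
  have hj := j.2
  simp only [hj, dite_true]

theorem P4_slot_centre (c : N.C) (l : Fin 7) (s : Fin (ℓ + 1)) (hs : (s : ℕ) = 0) (i : Fin k)
    (a : Fin k → N.Λ) (t : ℕ) (ht : t < 7) :
    N.axSlot ℓ (c, (l, s), i, a) (P4_hs k t ht) =
      if t ≤ 2 * N.nb c then some (.inner c ⟨t, ht⟩ 0 i a) else none := by
  unfold axSlot P4_hs
  have h1 : ¬ k + t < k := by omega
  simp only [h1, dite_false, hs, if_true, Nat.add_sub_cancel_left]

theorem P4_slot_in (c : N.C) (l : Fin 7) (s : ℕ) (hs : s < ℓ) (i : Fin k)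
    (a : Fin k → N.Λ) :
    N.axSlot ℓ (c, (l, ⟨s + 1, by omega⟩), i, a) (P4_hs k 0 (by omega)) =
      some (.inner c l ⟨s, by omega⟩ i a) := by
  unfold axSlot P4_hs
  have h1 : ¬ k + 0 < k := by omega
  simp

theorem P4_slot_out (c : N.C) (l : Fin 7) (s : ℕ) (hs0 : 0 < s) (hs : s < ℓ) (i : Fin k)
    (a : Fin k → N.Λ) :
    N.axSlot ℓ (c, (l, ⟨s, by omega⟩), i, a) (P4_hs k 1 (by omega)) =
      some (.inner c l ⟨s, by omega⟩ i a) := by
  unfold axSlot P4_hs
  have h1 : ¬ k + 1 < k := by omega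
  have h2 : ¬ s = 0 := by omega
  simp [h2, hs]

theorem P4_slot_main (c : N.C) (l : Fin 7) (hℓ : 1 ≤ ℓ) (i : Fin k) (a : Fin k → N.Λ) :
    N.axSlot ℓ (c, (l, ⟨ℓ, by omega⟩), i, a) (P4_hs k 1 (by omega)) =
      some (.main (N.stmt c ((l : ℕ) / 2)) i (a + N.sh c ((l : ℕ) / 2) i)) := by
  unfold axSlot P4_hs
  have h1 : ¬ k + 1 < k := by omega
  have h2 : ¬ ℓ = 0 := by omega
  simp [h2]

theorem P4_slot_none (c : N.C) (l : Fin 7) (s : Fin (ℓ + 1)) (hs : (s : ℕ) ≠ 0) (i : Fin k)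
    (a : Fin k → N.Λ) (t : ℕ) (ht : t < 7) (h2 : 2 ≤ t) :
    N.axSlot ℓ (c, (l, s), i, a) (P4_hs k t ht) = none := by
  unfold axSlot P4_hs
  have h1 : ¬ k + t < k := by omega
  have e0 : ¬ t = 0 := by omega
  have e1 : ¬ t = 1 := by omega
  simp only [h1, dite_false, hs, if_false, Nat.add_sub_cancel_left, e0, e1]

/-- The position at a node. -/
def P4_pos (c : N.C) (p : Fin 7 × Fin (ℓ + 1)) (F : Fin k → Fin k → N.Λ) (i : Fin k) : N.Ax ℓ :=
  (c, p, i, F i)

variable {N}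
variable {ix : N.Ax ℓ → ℕ} {hix : Function.Injective ix} {M : ℕ} {hM : ∀ x, ix x + 2 ≤ M}
variable {P : (Fin k → N.Ax ℓ) → (Fin k → Fin (k + 7) → ZMod 2) → Prop}

theorem P4_move (hP : (N.sys ℓ ix hix M hM).Play k (N.tw ℓ) P) {x : Fin k → N.Ax ℓ}
    {φ : Fin k → Fin (k + 7) → ZMod 2} (h : P x φ) {u : N.Ax ℓ} (hu : N.AxValid ℓ u) :
    ∃ ψ : Fin (k + 7) → ZMod 2, ∀ i, P (Function.update x i u) (Function.update φ i ψ) :=
  hP.move x φ h u hu

theorem P4_pair (hP : (N.sys ℓ ix hix M hM).Play k (N.tw ℓ) P) {x : Fin k → N.Ax ℓ}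
    {φ : Fin k → Fin (k + 7) → ZMod 2} (h : P x φ) {i j : Fin k} {b b' : Fin (k + 7)}
    {v : N.Vr ℓ} (h1 : N.axSlot ℓ (x i) b = some v) (h2 : N.axSlot ℓ (x j) b' = some v) :
    φ i b = φ j b' :=
  hP.pair x φ h i j b b' v h1 h2

theorem P4_slide (hk : 2 ≤ k) (hP : (N.sys ℓ ix hix M hM).Play k (N.tw ℓ) P) {x x' : Fin k → N.Ax ℓ}
    {b b' : Fin (k + 7)}
    (hv : ∀ i, N.AxValid ℓ (x' i))
    (hs : ∀ i, ∃ v, N.axSlot ℓ (x i) b = some v ∧ N.axSlot ℓ (x' i) b' = some v)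
    {φ : Fin k → Fin (k + 7) → ZMod 2} (h : P x φ) :
    ∃ φ', P x' φ' ∧ ∀ i, φ' i b' = φ i b := by
  classical
  have key : ∀ s : Finset (Fin k), ∃ φ', P (fun i => if i ∈ s then x' i else x i) φ' ∧
      ∀ i, φ' i (if i ∈ s then b' else b) = φ i b := by
    intro s
    induction s using Finset.induction_on with
    | empty => exact ⟨φ, by simpa using h, fun i => by simp⟩
    | insert t s hts ih =>
      obtain ⟨φ', h1, h2⟩ := ih
      obtain ⟨ψ, hψ⟩ := P4_move hP h1 (hv t)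
      refine ⟨Function.update φ' t ψ, ?_, ?_⟩
      · have := hψ t
        convert this using 1
        funext i
        by_cases hi : i = t
        · subst hi; simp
        · rw [Function.update_of_ne hi]
          simp only [Finset.mem_insert, hi, false_or]
      · intro i
        by_cases hi : i = t
        · subst hi
          simp only [Function.update_self, Finset.mem_insert, true_or, if_true]
          obtain ⟨i', hi'⟩ : ∃ i' : Fin k, i' ≠ i := by
            by_cases h0 : i = ⟨0, by omega⟩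
            · exact ⟨⟨1, by omega⟩, by rw [h0]; simp⟩
            · exact ⟨⟨0, by omega⟩, fun e => h0 e.symm⟩
          have h3 := hψ i'
          obtain ⟨v, hv1, hv2⟩ := hs i
          have h4 := P4_pair hP h3 (i := i') (j := i) (b := b') (b' := b) (v := v)
            (by
              rw [Function.update_self]
              exact hv2)
            (by
              rw [Function.update_of_ne (Ne.symm hi')]
              simp only [hts, if_false]
              exact hv1)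
          rw [Function.update_self, Function.update_of_ne (Ne.symm hi')] at h4
          rw [h4]
          have := h2 i
          simpa [hts] using this
        · rw [Function.update_of_ne hi]
          simp only [Finset.mem_insert, hi, false_or]
          exact h2 i
  obtain ⟨φ', h1, h2⟩ := key univ
  exact ⟨φ', by simpa using h1, fun i => by simpa using h2 i⟩

/-- The cut at the slot `t` of the node `p`, context `F`, is always even. -/
def P4_Ev (P : (Fin k → N.Ax ℓ) → (Fin k → Fin (k + 7) → ZMod 2) → Prop) (c : N.C)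
    (p : Fin 7 × Fin (ℓ + 1)) (F : Fin k → Fin k → N.Λ) (b : Fin (k + 7)) : Prop :=
  ∀ φ, P (N.P4_pos c p F) φ → ∑ i, φ i b = 0

theorem P4_Ev.transfer (hk : 2 ≤ k) (hP : (N.sys ℓ ix hix M hM).Play k (N.tw ℓ) P) {c c' : N.C}
    {p p' : Fin 7 × Fin (ℓ + 1)} {F F' : Fin k → Fin k → N.Λ} {b b' : Fin (k + 7)}
    (h : P4_Ev P c' p' F' b')
    (hv : ∀ i, N.AxValid ℓ (N.P4_pos c' p' F' i))
    (hs : ∀ i, ∃ v, N.axSlot ℓ (N.P4_pos c p F i) b = some v ∧
      N.axSlot ℓ (N.P4_pos c' p' F' i) b' = some v) : P4_Ev P c p F b := by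
  intro φ hφ
  obtain ⟨φ', h1, h2⟩ := P4_slide hk hP hv hs hφ
  rw [← h φ' h1]
  exact Finset.sum_congr rfl (fun i _ => (h2 i).symm)

theorem P4_sum_symm (φ : Fin k → Fin k → ZMod 2) (hs : ∀ i j, φ i j = φ j i) (hd : ∀ i, φ i i = 0) :
    ∑ i, ∑ j, φ i j = 0 := by
  have h2 : ∀ x : ZMod 2, x + x = 0 := fun x => CharTwo.add_self_eq_zero x
  rw [← Finset.sum_product']
  have : ∑ x ∈ (univ : Finset (Fin k)) ×ˢ (univ : Finset (Fin k)), φ x.1 x.2 =
      ∑ x ∈ (univ : Finset (Fin k × Fin k)), φ x.1 x.2 := rfl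
  rw [this]
  refine Finset.sum_involution (fun x _ => (x.2, x.1)) ?_ ?_ ?_ ?_
  · intro x _
    simp only
    rw [hs x.2 x.1]
    exact h2 _
  · intro x _ hne he
    have : x.1 = x.2 := by
      have := congrArg Prod.fst he
      exact this.symm
    apply hne
    rw [this]; exact hd _
  · intro x _; simp
  · intro x _; rfl

theorem P4_node (hP : (N.sys ℓ ix hix M hM).Play k (N.tw ℓ) P) {c : N.C}
    {p : Fin 7 × Fin (ℓ + 1)} {F : Fin k → Fin k → N.Λ} (hF : N.IsCtx F)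
    {φ : Fin k → Fin (k + 7) → ZMod 2} (h : P (N.P4_pos c p F) φ) :
    ∑ t : Fin 7, ∑ i, φ i (P4_hs k t t.2) = ∑ i, N.tw ℓ (N.P4_pos c p F i) := by
  have h1 : ∀ i, ∑ b, φ i b = N.tw ℓ (N.P4_pos c p F i) := hP.sum _ _ h
  have h2 : ∀ i, (∑ j : Fin k, φ i ⟨j, by omega⟩) + ∑ t : Fin 7, φ i (P4_hs k t t.2) =
      N.tw ℓ (N.P4_pos c p F i) := by
    intro i
    rw [← h1 i, Fin.sum_univ_add]
    rfl
  have h3 : ∑ i, ∑ j : Fin k, φ i ⟨j, by omega⟩ = 0 := by
    apply P4_sum_symm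
    · intro i j
      by_cases hij : i = j
      · subst hij; rfl
      · refine hP.pair _ _ h i j _ _ (.vert c p.1 p.2 s(i, j) (F i j)) ?_ ?_
        · exact (N.P4_slot_vert c p i (F i) j).trans (if_neg (Ne.symm hij))
        · refine (N.P4_slot_vert c p j (F j) i).trans ((if_neg hij).trans ?_)
          rw [Sym2.eq_swap, hF.1 j i]
          rfl
    · intro i
      refine hP.zero _ _ h i _ ?_
      exact (N.P4_slot_vert c p i (F i) i).trans (if_pos rfl)
  calc ∑ t : Fin 7, ∑ i, φ i (P4_hs k t t.2) = ∑ i, ∑ t : Fin 7, φ i (P4_hs k t t.2) :=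
        Finset.sum_comm
    _ = ∑ i, ((∑ j : Fin k, φ i ⟨j, by omega⟩) + ∑ t : Fin 7, φ i (P4_hs k t t.2)) := by
        rw [Finset.sum_add_distrib, h3, zero_add]
    _ = _ := Finset.sum_congr rfl (fun i _ => h2 i)

/-- The node rule. -/
theorem P4_Ev.node (hP : (N.sys ℓ ix hix M hM).Play k (N.tw ℓ) P) {c : N.C}
    {p : Fin 7 × Fin (ℓ + 1)} {F : Fin k → Fin k → N.Λ} (hF : N.IsCtx F)
    (htw : ∀ i, N.tw ℓ (N.P4_pos c p F i) = 0) (t₀ : Fin 7)
    (h : ∀ t : Fin 7, t ≠ t₀ → P4_Ev P c p F (P4_hs k t t.2) ∨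
      ∀ i, N.axSlot ℓ (N.P4_pos c p F i) (P4_hs k t t.2) = none) :
    P4_Ev P c p F (P4_hs k t₀ t₀.2) := by
  intro φ hφ
  have h1 := P4_node hP hF hφ
  rw [Finset.sum_eq_zero (fun i _ => htw i)] at h1
  rw [← h1]
  symm
  apply Finset.sum_eq_single_of_mem _ (mem_univ _)
  intro t _ ht
  rcases h t ht with h | h
  · exact h φ hφ
  · exact Finset.sum_eq_zero (fun i _ => hP.zero _ _ hφ i _ (h i))

theorem P4_tw_leg {c : N.C} {l : Fin 7} {s : Fin (ℓ + 1)} (hs : (s : ℕ) ≠ 0)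
    {F : Fin k → Fin k → N.Λ} (i : Fin k) : N.tw ℓ (N.P4_pos c (l, s) F i) = 0 := by
  unfold tw P4_pos
  rw [if_neg]
  rintro ⟨-, h, -⟩
  have := congrArg Prod.snd h
  simp only at this
  exact hs (by rw [this]; rfl)

theorem P4_tw_ne {c : N.C} (hc : c ≠ N.goal) {p : Fin 7 × Fin (ℓ + 1)}
    {F : Fin k → Fin k → N.Λ} (i : Fin k) : N.tw ℓ (N.P4_pos c p F i) = 0 := by
  unfold tw P4_pos
  rw [if_neg]
  rintro ⟨h, -, -⟩
  exact hc h

theorem P4_valid {c : N.C} {F : Fin k → Fin k → N.Λ} (hF : N.IsCtx F) (hA : N.Allowed c F)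
    {l : Fin 7} {s : Fin (ℓ + 1)} (hl : (l : ℕ) ≤ 2 * N.nb c) (hs : s = 0 → l = 0) (i : Fin k) :
    N.AxValid ℓ (N.P4_pos c (l, s) F i) :=
  ⟨hs, hl, hF.2 i, fun j hj => hA i j (Ne.symm hj)⟩

/-- Node rule at a leg node, from out to in. -/
theorem P4_leg_in (hP : (N.sys ℓ ix hix M hM).Play k (N.tw ℓ) P) {c : N.C} {l : Fin 7}
    {s : Fin (ℓ + 1)} (hs : (s : ℕ) ≠ 0) {F : Fin k → Fin k → N.Λ} (hF : N.IsCtx F)
    (h : P4_Ev P c (l, s) F (P4_hs k 1 (by omega))) :
    P4_Ev P c (l, s) F (P4_hs k 0 (by omega)) := by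
  refine P4_Ev.node hP hF (P4_tw_leg hs) (0 : Fin 7) ?_
  intro t ht
  by_cases h1 : (t : ℕ) = 1
  · left
    have : P4_hs k t t.2 = P4_hs k 1 (by omega) := by
      unfold P4_hs; simp [h1]
    rw [this]; exact h
  · right
    intro i
    have h0 : (t : ℕ) ≠ 0 := fun e => ht (Fin.ext e)
    exact N.P4_slot_none c l s hs i (F i) t t.2 (by omega)

theorem P4_leg_out (hP : (N.sys ℓ ix hix M hM).Play k (N.tw ℓ) P) {c : N.C} {l : Fin 7}
    {s : Fin (ℓ + 1)} (hs : (s : ℕ) ≠ 0) {F : Fin k → Fin k → N.Λ} (hF : N.IsCtx F)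
    (h : P4_Ev P c (l, s) F (P4_hs k 0 (by omega))) :
    P4_Ev P c (l, s) F (P4_hs k 1 (by omega)) := by
  refine P4_Ev.node hP hF (P4_tw_leg hs) (1 : Fin 7) ?_
  intro t ht
  by_cases h1 : (t : ℕ) = 0
  · left
    have : P4_hs k t t.2 = P4_hs k 0 (by omega) := by
      unfold P4_hs; simp [h1]
    rw [this]; exact h
  · right
    intro i
    have h0 : (t : ℕ) ≠ 1 := fun e => ht (Fin.ext e)
    exact N.P4_slot_none c l s hs i (F i) t t.2 (by omega)

/-- Inward propagation along a leg. -/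
theorem P4_inward (hk : 2 ≤ k) (hℓ : 1 ≤ ℓ) (hP : (N.sys ℓ ix hix M hM).Play k (N.tw ℓ) P) {c : N.C}
    {l : Fin 7} (hl : (l : ℕ) ≤ 2 * N.nb c) {F : Fin k → Fin k → N.Λ} (hF : N.IsCtx F)
    (hA : N.Allowed c F)
    (h : P4_Ev P c (l, ⟨ℓ, by omega⟩) F (P4_hs k 1 (by omega))) :
    P4_Ev P c (0, 0) F (P4_hs k l l.2) := by
  have key : ∀ d s : ℕ, ∀ hd : s + d + 1 = ℓ,
      P4_Ev P c (l, ⟨s + 1, by omega⟩) F (P4_hs k 0 (by omega)) := by
    intro d
    induction d with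
    | zero =>
      intro s hd
      have : (⟨s + 1, by omega⟩ : Fin (ℓ + 1)) = ⟨ℓ, by omega⟩ := Fin.ext (by simp; omega)
      rw [this]
      exact P4_leg_in hP (by simp; omega) hF h
    | succ d ih =>
      intro s hd
      have h1 := ih (s + 1) (by omega)
      apply P4_leg_in hP (by simp) hF
      refine P4_Ev.transfer hk hP h1
        (P4_valid hF hA hl (fun e => by
          have := congrArg Fin.val e
          simp at this)) ?_
      intro i
      refine ⟨_, N.P4_slot_out c l (s + 1) (by omega) (by omega) i (F i), ?_⟩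
      exact N.P4_slot_in c l (s + 1) (by omega) i (F i)
  have h0 := key (ℓ - 1) 0 (by omega)
  refine P4_Ev.transfer hk hP h0
    (P4_valid hF hA hl (fun e => by
      have := congrArg Fin.val e
      simp at this)) ?_
  intro i
  refine ⟨_, (N.P4_slot_centre c 0 0 rfl i (F i) l l.2).trans (if_pos hl), ?_⟩
  exact N.P4_slot_in c l 0 (by omega) i (F i)

/-- Outward propagation along a leg. -/
theorem P4_outward (hk : 2 ≤ k) (hℓ : 1 ≤ ℓ) (hP : (N.sys ℓ ix hix M hM).Play k (N.tw ℓ) P)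
    {c : N.C} {l : Fin 7} (hl : (l : ℕ) ≤ 2 * N.nb c) {F : Fin k → Fin k → N.Λ} (hF : N.IsCtx F)
    (hA : N.Allowed c F)
    (h : P4_Ev P c (0, 0) F (P4_hs k l l.2)) :
    P4_Ev P c (l, ⟨ℓ, by omega⟩) F (P4_hs k 1 (by omega)) := by
  have key : ∀ s : ℕ, ∀ hs : s < ℓ,
      P4_Ev P c (l, ⟨s + 1, by omega⟩) F (P4_hs k 1 (by omega)) := by
    intro s
    induction s with
    | zero =>
      intro hs
      apply P4_leg_out hP (by simp) hF
      refine P4_Ev.transfer hk hP h (P4_valid hF hA (by simp) (fun _ => rfl)) ?_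
      intro i
      refine ⟨_, N.P4_slot_in c l 0 (by omega) i (F i), ?_⟩
      exact (N.P4_slot_centre c 0 0 rfl i (F i) l l.2).trans (if_pos hl)
    | succ s ih =>
      intro hs
      have h1 := ih (by omega)
      apply P4_leg_out hP (by simp) hF
      refine P4_Ev.transfer hk hP h1
        (P4_valid hF hA hl (fun e => by
          have := congrArg Fin.val e
          simp at this)) ?_
      intro i
      refine ⟨_, N.P4_slot_in c l (s + 1) (by omega) i (F i), ?_⟩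
      exact N.P4_slot_out c l (s + 1) (by omega) (by omega) i (F i)
  have h0 := key (ℓ - 1) (by omega)
  have : (⟨ℓ - 1 + 1, by omega⟩ : Fin (ℓ + 1)) = ⟨ℓ, by omega⟩ := Fin.ext (by simp; omega)
  rw [this] at h0
  exact h0

/-- The statement `st` at the context `G` has only even cuts. -/
def P4_EvM (P : (Fin k → N.Ax ℓ) → (Fin k → Fin (k + 7) → ZMod 2) → Prop) (st : N.St)
    (G : Fin k → Fin k → N.Λ) : Prop :=
  ∀ (c : N.C) (l : Fin 7) (F : Fin k → Fin k → N.Λ), N.IsCtx F → N.Allowed c F →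
    (l : ℕ) ≤ 2 * N.nb c → N.stmt c ((l : ℕ) / 2) = st → F + N.sh c ((l : ℕ) / 2) = G →
    P4_Ev P c (l, ⟨ℓ, by omega⟩) F (P4_hs k 1 (by omega))

theorem P4_evM_of_Der (hk : 2 ≤ k) (hℓ : 1 ≤ ℓ) (hP : (N.sys ℓ ix hix M hM).Play k (N.tw ℓ) P)
    {st : N.St} {G : Fin k → Fin k → N.Λ} (h : N.Der st G) : P4_EvM P st G := by
  induction h with
  | intro c hc F hF hA hb ih =>
    have hnb := N.nb_le c
    have hbody : ∀ l : Fin 7, (l : ℕ) < 2 * N.nb c → P4_Ev P c (0, 0) F (P4_hs k l l.2) := by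
      intro l hl
      apply P4_inward hk hℓ hP (by omega) hF hA
      exact ih ((l : ℕ) / 2) (by omega) c l F hF hA (by omega) rfl rfl
    have hhead : P4_Ev P c (0, 0) F (P4_hs k (2 * N.nb c) (by omega)) := by
      refine P4_Ev.node hP hF (P4_tw_ne hc) (⟨2 * N.nb c, by omega⟩ : Fin 7) ?_
      intro t ht
      by_cases h1 : (t : ℕ) < 2 * N.nb c
      · exact Or.inl (hbody t h1)
      · right
        intro i
        have h2 : (t : ℕ) ≠ 2 * N.nb c := fun e => ht (Fin.ext e)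
        exact (N.P4_slot_centre c 0 0 rfl i (F i) t t.2).trans (if_neg (by omega))
    have hout := P4_outward (l := ⟨2 * N.nb c, by omega⟩) hk hℓ hP (le_refl _) hF hA hhead
    intro c' l' F' hF' hA' hl' hst hG
    refine P4_Ev.transfer hk hP hout
      (P4_valid hF hA (by simp) (fun e => by
        have := congrArg Fin.val e
        simp at this; omega)) ?_
    intro i
    refine ⟨_, N.P4_slot_main c' l' hℓ i (F' i), ?_⟩
    refine (N.P4_slot_main c _ hℓ i (F i)).trans ?_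
    have e1 : 2 * N.nb c / 2 = N.nb c := by omega
    simp only [e1]
    rw [hst]
    congr 2
    exact (congrFun hG i).symm

variable (N)

theorem no_play (hk : 2 ≤ k) (hℓ : 1 ≤ ℓ) (ix : N.Ax ℓ → ℕ) (hix : Function.Injective ix) (M : ℕ)
    (hM : ∀ x, ix x + 2 ≤ M) (hD : N.DerGoal)
    (P : (Fin k → N.Ax ℓ) → (Fin k → Fin (k + 7) → ZMod 2) → Prop)
    (hP : (N.sys ℓ ix hix M hM).Play k (N.tw ℓ) P) : False := by
  have hF : N.IsCtx N.gctx := ⟨N.gctx_symm, N.gctx_diag⟩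
  have hA : N.Allowed N.goal N.gctx := fun i j hij => N.gctx_cond i j hij
  have h1 := P4_evM_of_Der hk hℓ hP hD N.goal 0 N.gctx hF hA (by simp) rfl rfl
  have h2 := P4_inward hk hℓ hP (l := 0) (by simp) hF hA h1
  have hv : ∀ i, N.AxValid ℓ (N.P4_pos N.goal (0, 0) N.gctx i) :=
    P4_valid hF hA (by simp) (fun _ => rfl)
  obtain ⟨φ, hφ⟩ := hP.start _ hv
  have h3 := P4_node hP hF hφ
  have h4 : ∑ t : Fin 7, ∑ i, φ i (P4_hs k t t.2) = 0 := by
    apply Finset.sum_eq_zero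
    intro t _
    by_cases ht : t = 0
    · subst ht; exact h2 φ hφ
    · apply Finset.sum_eq_zero
      intro i _
      refine hP.zero _ _ hφ i _ ?_
      refine (N.P4_slot_centre N.goal 0 0 rfl i (N.gctx i) t t.2).trans (if_neg ?_)
      rw [N.nb_goal]
      have : (t : ℕ) ≠ 0 := fun e => ht (Fin.ext e)
      omega
  have h5 : ∑ i, N.tw ℓ (N.P4_pos N.goal (0, 0) N.gctx i) = 1 := by
    rw [Finset.sum_eq_single_of_mem (⟨0, by omega⟩ : Fin k) (mem_univ _)]
    · unfold tw P4_pos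
      rw [if_pos ⟨rfl, rfl, rfl⟩]
    · intro i _ hi
      unfold tw P4_pos
      rw [if_neg]
      rintro ⟨-, -, h⟩
      exact hi (Fin.ext h)
  rw [h4, h5] at h3
  exact zero_ne_one h3

end Net

end Vale.Agent.P310
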