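import Vale.Agent.P310.WL

/-!
# P310, package P3: Duplicator's strategy gives a play on the axiom system
-/

namespace Vale.Agent.P310

open Finset

/-- Having exactly one neighbour. -/
def P3_one {V : Type} (G : SimpleGraph V) (u : V) : Prop := ∃! v, G.Adj u v

/-- The number of leaves hanging at a vertex. -/
noncomputable def P3_cnt {V : Type} (G : SimpleGraph V) (p : V) : ℕ :=
  Nat.card {u : V // G.Adj p u ∧ P3_one G u}

theorem P3_adj_iff {k : ℕ} {V W : Type} {G : SimpleGraph V} {H : SimpleGraph W}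
    {R : (Fin k → V) → (Fin k → W) → Prop} (hR : BF k G H R) {p : Fin k → V} {q : Fin k → W}
    (i j : Fin k) (hij : i ≠ j) {u : V} {w : W}
    (h : R (Function.update p j u) (Function.update q j w)) :
    G.Adj (p i) u ↔ H.Adj (q i) w := by
  have h1 := hR.adj_iff _ _ h i j
  rwa [Function.update_self, Function.update_self, Function.update_of_ne hij,
    Function.update_of_ne hij] at h1

theorem P3_one_iff {k : ℕ} {V W : Type} {G : SimpleGraph V} {H : SimpleGraph W}
    {R : (Fin k → V) → (Fin k → W) → Prop} (hR : BF k G H R) {p : Fin k → V} {q : Fin k → W}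
    (h : R p q) (i j : Fin k) (hij : i ≠ j) :
    P3_one G (p i) ↔ P3_one H (q i) := by
  obtain ⟨f, hf⟩ := hR.ext p q h
  have key : ∀ u, G.Adj (p i) u ↔ H.Adj (q i) (f u) := fun u => P3_adj_iff hR i j hij (hf u j)
  constructor
  · rintro ⟨v, hv, hv'⟩
    refine ⟨f v, (key v).mp hv, fun w hw => ?_⟩
    have h1 : G.Adj (p i) (f.symm w) := (key _).mpr (by rwa [f.apply_symm_apply])
    rw [← hv' _ h1, f.apply_symm_apply]
  · rintro ⟨w, hw, hw'⟩
    refine ⟨f.symm w, (key _).mpr (by rwa [f.apply_symm_apply]), fun v hv => ?_⟩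
    have h1 := hw' _ ((key v).mp hv)
    rw [← h1, f.symm_apply_apply]

theorem P3_cnt_eq {k : ℕ} {V W : Type} {G : SimpleGraph V} {H : SimpleGraph W}
    {R : (Fin k → V) → (Fin k → W) → Prop} (hR : BF k G H R) {p : Fin k → V} {q : Fin k → W}
    (h : R p q) (i j : Fin k) (hij : i ≠ j) :
    P3_cnt G (p i) = P3_cnt H (q i) := by
  obtain ⟨f, hf⟩ := hR.ext p q h
  have key : ∀ u, G.Adj (p i) u ↔ H.Adj (q i) (f u) := fun u => P3_adj_iff hR i j hij (hf u j)
  have key2 : ∀ u, P3_one G u ↔ P3_one H (f u) := by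
    intro u
    have h1 := P3_one_iff hR (hf u j) j i hij.symm
    rwa [Function.update_self, Function.update_self] at h1
  refine Nat.card_congr (f.subtypeEquiv (fun u => ?_))
  rw [key u, key2 u]

namespace ASys

variable (S : ASys) (tw : S.X → ZMod 2)

theorem P3_adj_leaf (x : S.X) (τ : Fin S.σ → ZMod 2) (h : S.good tw x τ) (m : ℕ)
    (hm : m < S.idx x + 2) :
    (S.graph tw).Adj (x, τ, none)
      (x, τ, some ⟨m, lt_of_lt_of_le hm (S.idx_lt x)⟩) := ⟨h, rfl, rfl, hm⟩

/-- A good vertex has two different neighbours. -/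
theorem P3_not_one (x : S.X) (τ : Fin S.σ → ZMod 2) (h : S.good tw x τ) :
    ¬ P3_one (S.graph tw) (x, τ, none) := by
  rintro ⟨v, _, hv⟩
  have h0 := hv _ (S.P3_adj_leaf tw x τ h 0 (by omega))
  have h1 := hv _ (S.P3_adj_leaf tw x τ h 1 (by omega))
  rw [← h1] at h0
  simp at h0

theorem P3_cnt_none (x : S.X) (τ : Fin S.σ → ZMod 2) (h : S.good tw x τ) :
    P3_cnt (S.graph tw) (x, τ, none) = S.idx x + 2 := by
  have hcard : Nat.card (Fin (S.idx x + 2)) = S.idx x + 2 := by simp
  rw [← hcard]
  symm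
  refine Nat.card_eq_of_bijective
    (fun m : Fin (S.idx x + 2) =>
      (⟨(x, τ, some ⟨m, lt_of_lt_of_le m.2 (S.idx_lt x)⟩), S.P3_adj_leaf tw x τ h m m.2,
        ⟨(x, τ, none), (S.P3_adj_leaf tw x τ h m m.2).symm, ?_⟩⟩ :
      {u : S.V // (S.graph tw).Adj (x, τ, none) u ∧ P3_one (S.graph tw) u})) ?_
  · rintro ⟨y, τ', m'⟩ hy
    cases m' with
    | none =>
      obtain ⟨_, h2, h3, _⟩ := hy
      rw [h2, h3]
    | some m' => exact absurd hy (fun h => h)
  · constructor
    · intro m m' hmm
      have h1 := congrArg (fun u : {u : S.V // (S.graph tw).Adj (x, τ, none) u ∧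
        P3_one (S.graph tw) u} => u.1.2.2) hmm
      simp only [Option.some.injEq, Fin.mk.injEq] at h1
      exact Fin.ext h1
    · rintro ⟨⟨y, τ', m'⟩, hu, hu1⟩
      cases m' with
      | none =>
        exact absurd hu1 (S.P3_not_one tw y τ' hu.2.1)
      | some m' =>
        obtain ⟨_, h2, h3, h4⟩ := hu
        subst h2
        subst h3
        exact ⟨⟨m', h4⟩, rfl⟩

/-- A vertex with leaves is a good vertex. -/
theorem P3_of_cnt (p : S.V) (h : P3_cnt (S.graph tw) p ≠ 0) :
    ∃ x τ, p = (x, τ, none) ∧ S.good tw x τ := by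
  have hne : Nonempty {u : S.V // (S.graph tw).Adj p u ∧ P3_one (S.graph tw) u} := by
    by_contra hcon
    rw [not_nonempty_iff] at hcon
    exact h Nat.card_of_isEmpty
  obtain ⟨⟨u, hu, hu1⟩⟩ := hne
  obtain ⟨x, τ, m⟩ := p
  obtain ⟨y, τ', m'⟩ := u
  cases m with
  | none =>
    refine ⟨x, τ, rfl, ?_⟩
    cases m' with
    | none => exact hu.1
    | some m' => exact hu.1
  | some m =>
    exfalso
    cases m' with
    | none =>
      obtain ⟨h1, h2, h3, _⟩ := hu
      subst h2
      subst h3
      exact S.P3_not_one tw _ _ h1 hu1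
    | some m' => exact hu

theorem P3_good_zero (x : S.X) (hx : S.valid x) : S.good 0 x 0 :=
  ⟨hx, fun _ _ => rfl, by simp⟩

/-- The image of the zero solution of a pebbled axiom. -/
theorem P3_image {k : ℕ} (hk : 2 ≤ k) {R : (Fin k → S.V) → (Fin k → S.V) → Prop}
    (hR : BF k (S.graph 0) (S.graph tw) R) {p : Fin k → S.V} {q : Fin k → S.V} (h : R p q)
    (i : Fin k) (x : S.X) (hx : S.valid x) (hp : p i = (x, 0, none)) :
    ∃ φ, q i = (x, φ, none) ∧ S.good tw x φ := by
  have hj : ∃ j : Fin k, i ≠ j := by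
    by_cases h0 : (i : ℕ) = 0
    · refine ⟨⟨1, by omega⟩, fun h => ?_⟩
      have := congrArg Fin.val h
      simp only at this
      omega
    · refine ⟨⟨0, by omega⟩, fun h => ?_⟩
      have := congrArg Fin.val h
      simp only at this
      omega
  obtain ⟨j, hij⟩ := hj
  have h1 := P3_cnt_eq hR h i j hij
  rw [hp, S.P3_cnt_none 0 x 0 (S.P3_good_zero x hx)] at h1
  obtain ⟨y, τ, hy, hg⟩ := S.P3_of_cnt tw (q i) (by omega)
  rw [hy, S.P3_cnt_none tw y τ hg] at h1
  have h2 : x = y := S.idx_inj (by omega)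
  subst h2
  exact ⟨τ, hy, hg⟩

theorem exists_play (S : ASys) [Fintype S.X] [DecidableEq S.X] {k : ℕ} (hk : 2 ≤ k)
    {tw : S.X → ZMod 2} (h : WLEquiv k (S.graph 0) (S.graph tw)) : ∃ P, S.Play k tw P := by
  obtain ⟨R, hR, hRx⟩ := h.exists_BF
  refine ⟨fun x φ => (∀ i, S.valid (x i)) ∧
    R (fun i => (x i, 0, none)) (fun i => (x i, φ i, none)), ?_, ?_, ?_, ?_, ?_⟩
  · -- start
    intro x hx
    obtain ⟨q, hq⟩ := hRx (fun i => (x i, 0, none))
    have h1 : ∀ i, ∃ φ, q i = (x i, φ, none) ∧ S.good tw (x i) φ := fun i =>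
      S.P3_image tw hk hR hq i (x i) (hx i) rfl
    choose φ hφ _ using h1
    refine ⟨φ, hx, ?_⟩
    have h2 : q = fun i => (x i, φ i, none) := funext hφ
    rwa [h2] at hq
  · -- sum
    intro x φ hP i
    obtain ⟨hx, hP⟩ := hP
    obtain ⟨ψ, hψ, hg⟩ := S.P3_image tw hk hR hP i (x i) (hx i) rfl
    have h1 : φ i = ψ := by
      have := congrArg (fun u : S.V => u.2.1) hψ
      exact this
    rw [h1]
    exact hg.2.2
  · -- zero
    intro x φ hP i b hb
    obtain ⟨hx, hP⟩ := hP
    obtain ⟨ψ, hψ, hg⟩ := S.P3_image tw hk hR hP i (x i) (hx i) rfl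
    have h1 : φ i = ψ := by
      have := congrArg (fun u : S.V => u.2.1) hψ
      exact this
    rw [h1]
    exact hg.2.1 b hb
  · -- move
    intro x φ hP u hu
    obtain ⟨hx, hP⟩ := hP
    obtain ⟨f, hf⟩ := hR.ext _ _ hP
    have h0 := hf ((u, 0, none) : S.V) ⟨0, by omega⟩
    obtain ⟨ψ, hψ, _⟩ := S.P3_image tw hk hR h0 ⟨0, by omega⟩ u hu
      (by rw [Function.update_self])
    rw [Function.update_self] at hψ
    refine ⟨ψ, fun i => ⟨fun i' => ?_, ?_⟩⟩
    · by_cases hi : i' = i
      · subst hi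
        rw [Function.update_self]
        exact hu
      · rw [Function.update_of_ne hi]
        exact hx i'
    · have h1 := hf ((u, 0, none) : S.V) i
      rw [hψ] at h1
      have e1 : Function.update (fun i => ((x i, 0, none) : S.V)) i (u, 0, none) =
          fun i' => (Function.update x i u i', 0, none) := by
        funext i'
        by_cases hi : i' = i
        · subst hi
          rw [Function.update_self, Function.update_self]
        · rw [Function.update_of_ne hi, Function.update_of_ne hi]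
      have e2 : Function.update (fun i => ((x i, φ i, none) : S.V)) i (u, ψ, none) =
          fun i' => (Function.update x i u i', Function.update φ i ψ i', none) := by
        funext i'
        by_cases hi : i' = i
        · subst hi
          rw [Function.update_self, Function.update_self, Function.update_self]
        · rw [Function.update_of_ne hi, Function.update_of_ne hi, Function.update_of_ne hi]
      rw [e1, e2] at h1
      exact h1
  · -- pair
    intro x φ hP i j b b' v hb hb'
    obtain ⟨hx, hP⟩ := hP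
    by_cases hij : x i = x j
    · have h1 := (hR.eq_iff _ _ hP i j).mp (by simp only [hij])
      have h2 : φ i = φ j := by
        have := congrArg (fun u : S.V => u.2.1) h1
        exact this
      have h3 : b = b' := by
        refine S.slot_inj (x i) b b' ?_ ?_
        · rw [hb, hij, hb']
        · rw [hb]
          exact Option.some_ne_none v
      rw [h2, h3]
    · have h1 : (S.graph 0).Adj ((x i, 0, none) : S.V) (x j, 0, none) :=
        ⟨S.P3_good_zero _ (hx i), S.P3_good_zero _ (hx j), hij, ⟨b, b', v, hb, hb'⟩,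
          fun _ _ _ _ _ => rfl⟩
      have h2 := (hR.adj_iff _ _ hP i j).mp h1
      exact h2.2.2.2.2 b b' v hb hb'

end ASys

end Vale.Agent.P310
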