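import Vale.Agent.P310.GoodFam2
import Vale.Agent.P310.WLPlay
import Vale.Agent.P310.NoPlay
import Vale.Agent.P310.GoodWL

/-!
# P310: the combinatorial main theorem
-/

namespace Vale.Agent.P310

namespace Net

variable {k : ℕ} (N : Net k) {ℓ : ℕ}

/-- The two graphs of a network are `k`-WL equivalent iff the goal is not derivable. -/
theorem wlEquiv_iff (hk : 2 ≤ k) (hℓ : k + 2 ≤ ℓ) (ix : N.Ax ℓ → ℕ)
    (hix : Function.Injective ix) (M : ℕ) (hM : ∀ x, ix x + 2 ≤ M)
    [Fintype (N.sys ℓ ix hix M hM).X] [DecidableEq (N.sys ℓ ix hix M hM).X] :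
    WLEquiv k ((N.sys ℓ ix hix M hM).graph 0) ((N.sys ℓ ix hix M hM).graph (N.tw ℓ)) ↔
      ¬ N.DerGoal := by
  constructor
  · intro h hD
    obtain ⟨P, hP⟩ := (N.sys ℓ ix hix M hM).exists_play hk h
    exact N.no_play hk (by omega) ix hix M hM hD P hP
  · intro hD
    exact (N.goodFam hk hℓ ix hix M hM hD).wlEquiv (by omega)

end Net

end Vale.Agent.P310
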