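import Vale.Agent.P310.Sys

/-!
# P310: linear algebra over the axiom system of a network (definitions for P5 and P6)
-/

namespace Vale.Agent.P310

namespace Net

open Finset

variable {k : ℕ} (N : Net k) (ℓ : ℕ)

instance finite_Vr : Finite (N.Vr ℓ) := by
  let g : N.Vr ℓ → (N.C × Fin 7 × Fin (ℓ + 1) × Sym2 (Fin k) × N.Λ) ⊕
      (N.C × Fin 7 × Fin (ℓ + 1) × Fin k × (Fin k → N.Λ)) ⊕ (N.St × Fin k × (Fin k → N.Λ)) :=
    fun v => match v with
      | .vert c l s e d => Sum.inl (c, l, s, e, d)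
      | .inner c l s i a => Sum.inr (Sum.inl (c, l, s, i, a))
      | .main st i a => Sum.inr (Sum.inr (st, i, a))
  refine Finite.of_injective g ?_
  intro v w h
  cases v <;> cases w <;> simp_all [g]

noncomputable instance fintype_Vr : Fintype (N.Vr ℓ) := Fintype.ofFinite _

noncomputable instance decEq_Vr : DecidableEq (N.Vr ℓ) := Classical.decEq _

noncomputable instance fintype_Λ : Fintype N.Λ := Fintype.ofFinite _

noncomputable instance decEq_Λ : DecidableEq N.Λ := Classical.decEq _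

noncomputable instance fintype_C : Fintype N.C := Fintype.ofFinite _

noncomputable instance decEq_C : DecidableEq N.C := Classical.decEq _

noncomputable instance decEq_St : DecidableEq N.St := Classical.decEq _

/-- Linear forms: functions on the variables and the constant `none`. -/
abbrev Form : Type := Option (N.Vr ℓ) → ZMod 2

variable {N} {ℓ}

/-- The row of an axiom. -/
def row (x : N.Ax ℓ) : Fin k := x.2.2.1

variable (N) (ℓ)

open Classical in
/-- The linear form of an axiom (with its twist as constant term). -/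
noncomputable def vec (x : N.Ax ℓ) : N.Form ℓ
  | none => N.tw ℓ x
  | some v => if ∃ b, N.axSlot ℓ x b = some v then 1 else 0

/-- The forms supported on the variables of the axioms in `W` and the constant. -/
def VW (W : Finset (N.Ax ℓ)) : Submodule (ZMod 2) (N.Form ℓ) where
  carrier := {f | ∀ v, (¬ ∃ x ∈ W, ∃ b, N.axSlot ℓ x b = some v) → f (some v) = 0}
  add_mem' := by
    intro f g hf hg v hv
    rw [Pi.add_apply, hf v hv, hg v hv, add_zero]
  zero_mem' := fun v _ => rfl
  smul_mem' := by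
    intro c f hf v hv
    rw [Pi.smul_apply, hf v hv, smul_zero]

/-- Edges: the inner edges of the legs and the statements. -/
inductive Ed : Type where
  | inner (c : N.C) (l : Fin 7) (s : Fin (ℓ + 1))
  | main (st : N.St)

instance finite_Ed : Finite (N.Ed ℓ) := by
  let g : N.Ed ℓ → (N.C × Fin 7 × Fin (ℓ + 1)) ⊕ N.St :=
    fun v => match v with
      | .inner c l s => Sum.inl (c, l, s)
      | .main st => Sum.inr st
  refine Finite.of_injective g ?_
  intro v w h
  cases v <;> cases w <;> simp_all [g]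

noncomputable instance fintype_Ed : Fintype (N.Ed ℓ) := Fintype.ofFinite _

noncomputable instance decEq_Ed : DecidableEq (N.Ed ℓ) := Classical.decEq _

/-- The horizontal variable of the edge `E`, row `i`, content `a`. -/
def hvar : N.Ed ℓ → Fin k → (Fin k → N.Λ) → N.Vr ℓ
  | .inner c l s, i, a => .inner c l s i a
  | .main st, i, a => .main st i a

open Classical in
/-- The form `∑ z i a • hvar E i a`. -/
noncomputable def horVec (E : N.Ed ℓ) (z : Fin k → (Fin k → N.Λ) → ZMod 2) : N.Form ℓ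
  | none => 0
  | some v => if h : ∃ p : Fin k × (Fin k → N.Λ), N.hvar ℓ E p.1 p.2 = v
      then z h.choose.1 h.choose.2 else 0

/-- The column of a context as a chain. -/
noncomputable def colChain (F : Fin k → Fin k → N.Λ) (i : Fin k) (a : Fin k → N.Λ) : ZMod 2 :=
  if a = F i then 1 else 0

/-- Vertically closed chains. -/
def IsZ (z : Fin k → (Fin k → N.Λ) → ZMod 2) : Prop :=
  (∀ i a, a i ≠ 0 → z i a = 0) ∧
  ∀ i j, i ≠ j → ∀ d : N.Λ,
    (∑ a : Fin k → N.Λ, if a j = d then z i a else 0) +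
      (∑ a : Fin k → N.Λ, if a i = d then z j a else 0) = 0

/-- The space `A_j`: generated by the axioms of the rows `≠ j` and all `e_{E,z}`, `z` vertically
closed with empty row `j`. -/
noncomputable def Aj (j : Fin k) : Submodule (ZMod 2) (N.Form ℓ) :=
  Submodule.span (ZMod 2)
    ({f | ∃ x : N.Ax ℓ, N.AxValid ℓ x ∧ row x ≠ j ∧ f = N.vec ℓ x} ∪
      {f | ∃ (E : N.Ed ℓ) (z : Fin k → (Fin k → N.Λ) → ZMod 2),
        N.IsZ z ∧ (∀ a, z j a = 0) ∧ f = N.horVec ℓ E z})

/-- The constant form `1`. -/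
def one : N.Form ℓ
  | none => 1
  | some _ => 0

/-- The row `j` is free in `W`. -/
def FreeRow (W : Finset (N.Ax ℓ)) (j : Fin k) : Prop := ∀ x ∈ W, row x ≠ j

/-- `W` covers the column `F` at the edge `E`. -/
def Visible (W : Finset (N.Ax ℓ)) (E : N.Ed ℓ) (F : Fin k → Fin k → N.Λ) : Prop :=
  ∀ i, ∃ x ∈ W, row x = i ∧ ∃ b, N.axSlot ℓ x b = some (N.hvar ℓ E i (F i))

/-! ### Known edges (P6) -/

/-- The goal instance. -/
def IsGoal (st : N.St) (F : Fin k → Fin k → N.Λ) : Prop :=
  st = N.stmt N.goal 0 ∧ F = N.gctx + N.sh N.goal 0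

/-- Derivable, or the goal instance. -/
def DG (st : N.St) (F : Fin k → Fin k → N.Λ) : Prop := N.Der st F ∨ N.IsGoal st F

/-- The edge `E` is known at the (local) context `F`. -/
def Known : N.Ed ℓ → (Fin k → Fin k → N.Λ) → Prop
  | .inner c l _, F => N.IsCtx F ∧ N.DG (N.stmt c ((l : ℕ) / 2)) (F + N.sh c ((l : ℕ) / 2))
  | .main st, F => N.IsCtx F ∧ N.DG st F

open Classical in
/-- The parity of a known edge: `1` for the goal instance. -/
noncomputable def val : N.Ed ℓ → (Fin k → Fin k → N.Λ) → ZMod 2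
  | .inner c l _, F => if N.IsGoal (N.stmt c ((l : ℕ) / 2)) (F + N.sh c ((l : ℕ) / 2)) then 1 else 0
  | .main st, F => if N.IsGoal st F then 1 else 0

/-- The span for critical positions. -/
noncomputable def Lc (W : Finset (N.Ax ℓ)) : Submodule (ZMod 2) (N.Form ℓ) :=
  Submodule.span (ZMod 2)
    ({f | ∃ x ∈ W, f = N.vec ℓ x} ∪
      {f | ∃ (E : N.Ed ℓ) (F : Fin k → Fin k → N.Λ), N.Known ℓ E F ∧ N.Visible ℓ W E F ∧
        f = N.horVec ℓ E (N.colChain F) + N.val ℓ E F • N.one ℓ})

/-- The functional of a flip pattern. -/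
noncomputable def evalF (β : N.Vr ℓ → ZMod 2) (f : N.Form ℓ) : ZMod 2 :=
  f none + ∑ v, f (some v) * β v

/-- The family for `GoodFam`: `β` kills all of `L(W)`. -/
def Good (W : Finset (N.Ax ℓ)) (β : N.Vr ℓ → ZMod 2) : Prop :=
  (∀ j, N.FreeRow ℓ W j → ∀ f ∈ N.VW ℓ W, f ∈ N.Aj ℓ j → N.evalF ℓ β f = 0) ∧
  ((¬ ∃ j, N.FreeRow ℓ W j) → ∀ f ∈ N.Lc ℓ W, N.evalF ℓ β f = 0)

end Net

end Vale.Agent.P310
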