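import Vale.Agent.P310.WLDef

/-!
# P310: Weisfeiler–Leman equivalence, axiom systems, networks

Basic definitions used by all packages.
-/

namespace Vale.Agent.P310

open Finset

/-- Back-and-forth systems for the bijective game (with `k` pebbles resting on the board). -/
structure BF (k : ℕ) {V W : Type} (G : SimpleGraph V) (H : SimpleGraph W)
    (R : (Fin k → V) → (Fin k → W) → Prop) : Prop where
  eq_iff : ∀ x y, R x y → ∀ i j, x i = x j ↔ y i = y j
  adj_iff : ∀ x y, R x y → ∀ i j, G.Adj (x i) (x j) ↔ H.Adj (y i) (y j)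
  ext : ∀ x y, R x y → ∃ f : V ≃ W, ∀ u i, R (Function.update x i u) (Function.update y i (f u))

/-! ## Axiom systems over `ZMod 2` and their graphs -/

/-- A system of axioms: every axiom `x` has `σ` slots, some of which hold a variable; the axiom says
that the sum of its variables is `0` (or `tw x` in the twisted version). -/
structure ASys where
  X : Type
  Var : Type
  σ : ℕ
  valid : X → Prop
  slot : X → Fin σ → Option Var
  slot_inj : ∀ x b b', slot x b = slot x b' → slot x b ≠ none → b = b'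
  idx : X → ℕ
  idx_inj : Function.Injective idx
  M : ℕ
  idx_lt : ∀ x, idx x + 2 ≤ M

namespace ASys

/-- Vertices: `(x, τ, none)` is the vertex local assignment `τ` of axiom `x`,
`(x, τ, some m)` is the `m`-th potential leaf hanging at it. -/
abbrev V (S : ASys) : Type := S.X × (Fin S.σ → ZMod 2) × Option (Fin S.M)

/-- `τ` is a solution of the (twisted) axiom `x`. -/
def good (S : ASys) (tw : S.X → ZMod 2) (x : S.X) (τ : Fin S.σ → ZMod 2) : Prop :=
  S.valid x ∧ (∀ b, S.slot x b = none → τ b = 0) ∧ ∑ b, τ b = tw x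

/-- Two axioms share a variable. -/
def share (S : ASys) (x x' : S.X) : Prop :=
  ∃ b b' v, S.slot x b = some v ∧ S.slot x' b' = some v

/-- Two local assignments agree on all shared variables. -/
def agree (S : ASys) (x : S.X) (τ : Fin S.σ → ZMod 2) (x' : S.X) (τ' : Fin S.σ → ZMod 2) : Prop :=
  ∀ b b' v, S.slot x b = some v → S.slot x' b' = some v → τ b = τ' b'

/-- Adjacency. -/
def adj (S : ASys) (tw : S.X → ZMod 2) : S.V → S.V → Prop
  | (x, τ, none), (x', τ', none) =>
      S.good tw x τ ∧ S.good tw x' τ' ∧ x ≠ x' ∧ S.share x x' ∧ S.agree x τ x' τ'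
  | (x, τ, none), (x', τ', some m) => S.good tw x τ ∧ x = x' ∧ τ = τ' ∧ (m : ℕ) < S.idx x + 2
  | (x, τ, some m), (x', τ', none) => S.good tw x τ ∧ x = x' ∧ τ = τ' ∧ (m : ℕ) < S.idx x + 2
  | (_, _, some _), (_, _, some _) => False

theorem share_symm {S : ASys} {x x' : S.X} (h : S.share x x') : S.share x' x := by
  obtain ⟨b, b', v, h1, h2⟩ := h
  exact ⟨b', b, v, h2, h1⟩

theorem agree_symm {S : ASys} {x x' : S.X} {τ τ' : Fin S.σ → ZMod 2} (h : S.agree x τ x' τ') :
    S.agree x' τ' x τ := fun b b' v h1 h2 => (h b' b v h2 h1).symm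

theorem adj_symm (S : ASys) (tw : S.X → ZMod 2) : ∀ p p', S.adj tw p p' → S.adj tw p' p
  | (x, τ, none), (x', τ', none), h =>
      ⟨h.2.1, h.1, fun e => h.2.2.1 e.symm, share_symm h.2.2.2.1, agree_symm h.2.2.2.2⟩
  | (x, τ, none), (x', τ', some m), h => by
      obtain ⟨h1, h2, h3, h4⟩ := h
      subst h2; subst h3
      exact ⟨h1, rfl, rfl, h4⟩
  | (x, τ, some m), (x', τ', none), h => by
      obtain ⟨h1, h2, h3, h4⟩ := h
      subst h2; subst h3
      exact ⟨h1, rfl, rfl, h4⟩
  | (_, _, some _), (_, _, some _), h => h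

/-- The graph of the system with twist `tw`. -/
def graph (S : ASys) (tw : S.X → ZMod 2) : SimpleGraph S.V where
  Adj := S.adj tw
  symm := ⟨fun p p' h => S.adj_symm tw p p' h⟩
  loopless := ⟨fun p h => by
    obtain ⟨x, τ, m⟩ := p
    cases m with
    | none => exact h.2.2.1 rfl
    | some m => exact h⟩

/-- What a winning strategy of Duplicator gives, seen from the all-zero solutions on the untwisted
side: `P x φ` says that the position `(x i, 0) ↦ (x i, φ i)` is one of her positions. -/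
structure Play (S : ASys) (k : ℕ) (tw : S.X → ZMod 2)
    (P : (Fin k → S.X) → (Fin k → Fin S.σ → ZMod 2) → Prop) : Prop where
  start : ∀ x, (∀ i, S.valid (x i)) → ∃ φ, P x φ
  sum : ∀ x φ, P x φ → ∀ i, ∑ b, φ i b = tw (x i)
  zero : ∀ x φ, P x φ → ∀ i b, S.slot (x i) b = none → φ i b = 0
  move : ∀ x φ, P x φ → ∀ u, S.valid u →
    ∃ ψ, ∀ i, P (Function.update x i u) (Function.update φ i ψ)
  pair : ∀ x φ, P x φ → ∀ i j b b' v, S.slot (x i) b = some v → S.slot (x j) b' = some v →
    φ i b = φ j b'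

/-- What Duplicator needs: a family `Good W β` (the flip pattern `β` is good for the set `W` of
pebbled axioms). -/
structure GoodFam (S : ASys) (k : ℕ) (tw : S.X → ZMod 2)
    (Good : Finset S.X → (S.Var → ZMod 2) → Prop) : Prop where
  empty : ∃ β, Good ∅ β
  ax : ∀ W β, (∀ y ∈ W, S.valid y) → W.card ≤ k + 1 → Good W β → ∀ x ∈ W,
    (∑ b, (S.slot x b).elim 0 β) = tw x
  mono : ∀ W W' β, (∀ y ∈ W, S.valid y) → W.card ≤ k + 1 → W' ⊆ W → Good W β → Good W' β
  ext : ∀ W β, (∀ y ∈ W, S.valid y) → W.card ≤ k → Good W β → ∀ x, S.valid x →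
    ∃ β', (∀ W', (∀ y, y ∈ W' ↔ y = x ∨ y ∈ W) → Good W' β') ∧
      ∀ y ∈ W, ∀ b v, S.slot y b = some v → β' v = β v

end ASys

/-! ## Networks -/

/-- A network over `k` rows: the contexts are symmetric functions `Fin k → Fin k → Λ` with zero
diagonal; the clauses are Horn clauses with a body of `nb c ≤ 3` statements, one of them being the
(twisted) goal clause.  For `b ≤ nb c` the `b`-th statement of the clause `c` (the body for
`b < nb c`, the head for `b = nb c`) at the context `F` of the clause is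
`(stmt c b, F + sh c b)`. -/
structure Net (k : ℕ) where
  C : Type
  St : Type
  Λ : Type
  grp : AddCommGroup Λ
  fC : Finite C
  fSt : Finite St
  fΛ : Finite Λ
  nb : C → ℕ
  nb_le : ∀ c, nb c ≤ 3
  goal : C
  nb_goal : nb goal = 0
  stmt : C → ℕ → St
  sh : C → ℕ → Fin k → Fin k → Λ
  sh_symm : ∀ c b i j, sh c b i j = sh c b j i
  sh_diag : ∀ c b i, sh c b i i = 0
  cond : C → Fin k → Fin k → Λ → Prop
  cond_symm : ∀ c i j d, cond c i j d → cond c j i d
  /-- facts and the goal clause have at most one context -/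
  single : ∀ c, nb c = 0 → ∀ i j, i ≠ j → ∀ d d', cond c i j d → cond c i j d' → d = d'
  /-- the context of the goal clause -/
  gctx : Fin k → Fin k → Λ
  gctx_symm : ∀ i j, gctx i j = gctx j i
  gctx_diag : ∀ i, gctx i i = 0
  gctx_cond : ∀ i j, i ≠ j → cond goal i j (gctx i j)
  /-- the goal statement is in no body -/
  body_ne_goal : ∀ c b, b < nb c → ∀ F : Fin k → Fin k → Λ, (∀ i j, F i j = F j i) →
    (∀ i, F i i = 0) → (∀ i j, i ≠ j → cond c i j (F i j)) →
    ¬ (stmt c b = stmt goal 0 ∧ ∀ i j, F i j + sh c b i j = gctx i j + sh goal 0 i j)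

namespace Net

variable {k : ℕ} (N : Net k)

instance : AddCommGroup N.Λ := N.grp
instance : Finite N.C := N.fC
instance : Finite N.St := N.fSt
instance : Finite N.Λ := N.fΛ

/-- A context: symmetric, zero diagonal. -/
def IsCtx (F : Fin k → Fin k → N.Λ) : Prop := (∀ i j, F i j = F j i) ∧ ∀ i, F i i = 0

/-- The context `F` is allowed at the clause `c`. -/
def Allowed (c : N.C) (F : Fin k → Fin k → N.Λ) : Prop := ∀ i j, i ≠ j → N.cond c i j (F i j)

/-- Derivability. -/
inductive Der : N.St → (Fin k → Fin k → N.Λ) → Prop where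
  | intro (c : N.C) (hc : c ≠ N.goal) (F : Fin k → Fin k → N.Λ) (hF : N.IsCtx F)
      (hA : N.Allowed c F) (hb : ∀ b, b < N.nb c → Der (N.stmt c b) (F + N.sh c b)) :
      Der (N.stmt c (N.nb c)) (F + N.sh c (N.nb c))

/-- The goal is derivable. -/
def DerGoal : Prop := N.Der (N.stmt N.goal 0) (N.gctx + N.sh N.goal 0)

/-- Variables of the axiom system: `vert` for the pair `{i, j}` of rows at a node, `inner` for
the edge between the positions `s` and `s + 1` of a leg, `main` for a statement. -/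
inductive Vr (ℓ : ℕ) : Type where
  | vert (c : N.C) (l : Fin 7) (s : Fin (ℓ + 1)) (e : Sym2 (Fin k)) (d : N.Λ)
  | inner (c : N.C) (l : Fin 7) (s : Fin (ℓ + 1)) (i : Fin k) (a : Fin k → N.Λ)
  | main (st : N.St) (i : Fin k) (a : Fin k → N.Λ)

/-- Axioms: a node `(c, l, s)` (position `s` of leg `l` of clause `c`; the centre is `l = 0`,
`s = 0`), a row `i` and a content `a`. -/
abbrev Ax (ℓ : ℕ) : Type := N.C × (Fin 7 × Fin (ℓ + 1)) × Fin k × (Fin k → N.Λ)

/-- Validity of an axiom. -/
def AxValid (ℓ : ℕ) (x : N.Ax ℓ) : Prop :=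
  (x.2.1.2 = 0 → x.2.1.1 = 0) ∧ (x.2.1.1 : ℕ) ≤ 2 * N.nb x.1 ∧
    x.2.2.2 x.2.2.1 = 0 ∧ ∀ j, j ≠ x.2.2.1 → N.cond x.1 x.2.2.1 j (x.2.2.2 j)

/-- The slots: `b < k` is the vertical slot for the row `b`, the slots `k + t`, `t < 7`, are
horizontal. -/
def axSlot (ℓ : ℕ) (x : N.Ax ℓ) (b : Fin (k + 7)) : Option (N.Vr ℓ) :=
  let c := x.1
  let l := x.2.1.1
  let s := x.2.1.2
  let i := x.2.2.1
  let a := x.2.2.2
  if hb : (b : ℕ) < k then
    (if (⟨b, hb⟩ : Fin k) = i then none else some (.vert c l s s(i, ⟨b, hb⟩) (a ⟨b, hb⟩)))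
  else if (s : ℕ) = 0 then
    (if (b : ℕ) - k ≤ 2 * N.nb c then
      some (.inner c ⟨(b : ℕ) - k, by omega⟩ 0 i a) else none)
  else if (b : ℕ) - k = 0 then some (.inner c l ⟨(s : ℕ) - 1, by omega⟩ i a)
  else if (b : ℕ) - k = 1 then
    (if (s : ℕ) < ℓ then some (.inner c l s i a)
    else some (.main (N.stmt c ((l : ℕ) / 2)) i (a + N.sh c ((l : ℕ) / 2) i)))
  else none

/-- The twist: row `0` of the centre of the goal clause. -/
noncomputable def tw (ℓ : ℕ) (x : N.Ax ℓ) : ZMod 2 :=
  open Classical in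
  if x.1 = N.goal ∧ x.2.1 = (0, 0) ∧ (x.2.2.1 : ℕ) = 0 then 1 else 0

end Net

end Vale.Agent.P310
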