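import Vale.Agent.P310.Core

/-!
# P310, package P6: the good family of a network
-/

namespace Vale.Agent.P310

namespace Net

open Finset

variable {k : ℕ} (N : Net k) (ℓ : ℕ)

/-! ### Interface: incidence, local shift, coefficients -/

/-- The edge is incident with the node `(c, p)`. -/
def P6Inc (c : N.C) (p : Fin 7 × Fin (ℓ + 1)) : N.Ed ℓ → Prop
  | .inner c' l' s' => c' = c ∧ (((p.2 : ℕ) = 0 ∧ (s' : ℕ) = 0 ∧ (l' : ℕ) ≤ 2 * N.nb c) ∨
      ((p.2 : ℕ) ≠ 0 ∧ l' = p.1 ∧ ((s' : ℕ) + 1 = p.2 ∨ ((s' : ℕ) = p.2 ∧ (p.2 : ℕ) < ℓ))))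
  | .main st => (p.2 : ℕ) ≠ 0 ∧ ¬ (p.2 : ℕ) < ℓ ∧ st = N.stmt c ((p.1 : ℕ) / 2)

/-- The shift between the node `(c, p)` and the edge. -/
def P6sh (c : N.C) (p : Fin 7 × Fin (ℓ + 1)) : N.Ed ℓ → (Fin k → Fin k → N.Λ)
  | .inner _ _ _ => 0
  | .main _ => N.sh c ((p.1 : ℕ) / 2)

variable {N} {ℓ}

theorem P6_sees_iff (x : N.Ax ℓ) (E : N.Ed ℓ) (i : Fin k) (a : Fin k → N.Λ) :
    (∃ b, N.axSlot ℓ x b = some (N.hvar ℓ E i a)) ↔
      i = row x ∧ N.P6Inc ℓ x.1 x.2.1 E ∧ a = x.2.2.2 + N.P6sh ℓ x.1 x.2.1 E (row x) := by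
  obtain ⟨c, ⟨l, s⟩, r, a0⟩ := x
  constructor
  · rintro ⟨b, hb⟩
    unfold axSlot at hb
    dsimp only at hb
    have hb7 := b.2
    have hs := s.2
    split_ifs at hb with h1 h2 h3 h4 h5 h6 h7
    · have h := Option.some.inj hb
      cases E <;> cases h
    · have h := Option.some.inj hb
      cases E with
      | inner c' l' s' =>
        cases h
        refine ⟨rfl, ⟨rfl, Or.inl ⟨h3, rfl, h4⟩⟩, ?_⟩
        simp [P6sh]
      | main st => cases h
    · have h := Option.some.inj hb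
      cases E with
      | inner c' l' s' =>
        cases h
        refine ⟨rfl, ⟨rfl, Or.inr ⟨h3, rfl, Or.inl ?_⟩⟩, ?_⟩
        · show (s : ℕ) - 1 + 1 = s
          omega
        · simp [P6sh]
      | main st => cases h
    · have h := Option.some.inj hb
      cases E with
      | inner c' l' s' =>
        cases h
        refine ⟨rfl, ⟨rfl, Or.inr ⟨h3, rfl, Or.inr ⟨rfl, h7⟩⟩⟩, ?_⟩
        simp [P6sh]
      | main st => cases h
    · have h := Option.some.inj hb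
      cases E with
      | inner c' l' s' => cases h
      | main st =>
        cases h
        exact ⟨rfl, ⟨h3, h7, rfl⟩, rfl⟩
  · rintro ⟨hi, hI, ha⟩
    subst hi
    cases E with
    | inner c' l' s' =>
      obtain ⟨hc, hI⟩ := hI
      subst hc
      have ha' : a = a0 := by rw [ha]; simp [P6sh]
      subst ha'
      rcases hI with ⟨h1, h2, h3⟩ | ⟨h1, h2, h3 | ⟨h3, h4⟩⟩
      · dsimp only at h1
        refine ⟨⟨k + l', by omega⟩, ?_⟩
        unfold axSlot
        dsimp only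
        have e1 : ¬ (k + (l' : ℕ)) < k := by omega
        have e2 : k + (l' : ℕ) - k = l' := by omega
        rw [dif_neg e1, if_pos h1]
        simp only [e2]
        rw [if_pos h3]
        have : (0 : Fin (ℓ + 1)) = s' := Fin.ext (by simp [h2])
        subst this
        rfl
      · dsimp only at h1 h2 h3
        subst h2
        refine ⟨⟨k, by omega⟩, ?_⟩
        unfold axSlot
        dsimp only
        have e1 : ¬ k < k := by omega
        rw [dif_neg e1, if_neg h1, if_pos (by omega : k - k = 0)]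
        have : (⟨(s : ℕ) - 1, by omega⟩ : Fin (ℓ + 1)) = s' := Fin.ext (by simp only; omega)
        rw [this]
        rfl
      · dsimp only at h1 h2 h3 h4
        subst h2
        refine ⟨⟨k + 1, by omega⟩, ?_⟩
        unfold axSlot
        dsimp only
        have e1 : ¬ k + 1 < k := by omega
        rw [dif_neg e1, if_neg h1, if_neg (by omega), if_pos (by omega), if_pos h4]
        have : s = s' := Fin.ext h3.symm
        rw [this]
        rfl
    | main st =>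
      obtain ⟨h1, h2, h3⟩ := hI
      dsimp only at h1 h2 h3
      subst h3
      refine ⟨⟨k + 1, by omega⟩, ?_⟩
      unfold axSlot
      dsimp only
      have e1 : ¬ k + 1 < k := by omega
      rw [dif_neg e1, if_neg h1, if_neg (by omega), if_pos (by omega), if_neg h2, ha]
      rfl

theorem P6_vert_iff (x : N.Ax ℓ) (c : N.C) (l : Fin 7) (s : Fin (ℓ + 1)) (e : Sym2 (Fin k))
    (d : N.Λ) :
    (∃ b, N.axSlot ℓ x b = some (.vert c l s e d)) ↔
      x.1 = c ∧ x.2.1 = (l, s) ∧ ∃ m, m ≠ row x ∧ e = s(row x, m) ∧ d = x.2.2.2 m := by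
  obtain ⟨c', ⟨l', s'⟩, r, a0⟩ := x
  constructor
  · rintro ⟨b, hb⟩
    unfold axSlot at hb
    dsimp only at hb
    split_ifs at hb with h1 h2 h3 h4 h5 h6 h7
    · have h := Option.some.inj hb
      cases h
      exact ⟨rfl, rfl, ⟨b, h1⟩, h2, rfl, rfl⟩
    all_goals
      have h := Option.some.inj hb
      cases h
  · rintro ⟨h1, h2, m, hm, he, hd⟩
    dsimp only at h1 h2
    obtain ⟨h2, h2'⟩ := Prod.mk.inj h2
    subst h1 h2 h2' he hd
    refine ⟨⟨m, by omega⟩, ?_⟩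
    unfold axSlot
    dsimp only
    have hm' : ¬ ((⟨(m : ℕ), m.2⟩ : Fin k) = r) := hm
    rw [dif_pos m.2, if_neg hm']
    rfl

theorem P6_hvar_inj {E E' : N.Ed ℓ} {i i' : Fin k} {a a' : Fin k → N.Λ} :
    N.hvar ℓ E i a = N.hvar ℓ E' i' a' ↔ E = E' ∧ i = i' ∧ a = a' := by
  constructor
  · intro h
    cases E <;> cases E' <;> simp only [hvar] at h <;> cases h <;> exact ⟨rfl, rfl, rfl⟩
  · rintro ⟨rfl, rfl, rfl⟩
    rfl

theorem P6_var_cases (v : N.Vr ℓ) :
    (∃ c l s e d, v = .vert c l s e d) ∨ ∃ E i a, v = N.hvar ℓ E i a := by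
  cases v with
  | vert c l s e d => exact Or.inl ⟨c, l, s, e, d, rfl⟩
  | inner c l s i a => exact Or.inr ⟨.inner c l s, i, a, rfl⟩
  | main st i a => exact Or.inr ⟨.main st, i, a, rfl⟩

open Classical in
theorem P6_vec_hvar (x : N.Ax ℓ) (E : N.Ed ℓ) (i : Fin k) (a : Fin k → N.Λ) :
    N.vec ℓ x (some (N.hvar ℓ E i a)) =
      if i = row x ∧ N.P6Inc ℓ x.1 x.2.1 E ∧ a = x.2.2.2 + N.P6sh ℓ x.1 x.2.1 E (row x)
      then 1 else 0 := by
  unfold vec
  simp only [P6_sees_iff]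

open Classical in
theorem P6_vec_vert (x : N.Ax ℓ) (c : N.C) (l : Fin 7) (s : Fin (ℓ + 1)) (e : Sym2 (Fin k))
    (d : N.Λ) :
    N.vec ℓ x (some (.vert c l s e d)) =
      if x.1 = c ∧ x.2.1 = (l, s) ∧ ∃ m, m ≠ row x ∧ e = s(row x, m) ∧ d = x.2.2.2 m
      then 1 else 0 := by
  unfold vec
  simp only [P6_vert_iff]

theorem P6_horVec_hvar (E E' : N.Ed ℓ) (z : Fin k → (Fin k → N.Λ) → ZMod 2) (i : Fin k)
    (a : Fin k → N.Λ) :
    N.horVec ℓ E z (some (N.hvar ℓ E' i a)) = if E' = E then z i a else 0 := by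
  unfold horVec
  dsimp only
  by_cases h : ∃ p : Fin k × (Fin k → N.Λ), N.hvar ℓ E p.1 p.2 = N.hvar ℓ E' i a
  · have hc := P6_hvar_inj.mp h.choose_spec
    rw [dif_pos h, if_pos hc.1.symm, hc.2.1, hc.2.2]
  · rw [dif_neg h, if_neg]
    intro hE
    exact h ⟨(i, a), by rw [hE]⟩

theorem P6_horVec_vert (E : N.Ed ℓ) (z : Fin k → (Fin k → N.Λ) → ZMod 2) (c : N.C) (l : Fin 7)
    (s : Fin (ℓ + 1)) (e : Sym2 (Fin k)) (d : N.Λ) :
    N.horVec ℓ E z (some (.vert c l s e d)) = 0 := by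
  unfold horVec
  apply dif_neg
  rintro ⟨p, hp⟩
  cases E <;> cases hp

/-! ### The key identity for contexts -/

variable (N) (ℓ)

open Classical in
/-- The edges at a node. -/
noncomputable def P6incs (c : N.C) (p : Fin 7 × Fin (ℓ + 1)) : Finset (N.Ed ℓ) :=
  univ.filter (N.P6Inc ℓ c p)

variable {N} {ℓ}

theorem P6_mem_incs {c : N.C} {p : Fin 7 × Fin (ℓ + 1)} {E : N.Ed ℓ} :
    E ∈ N.P6incs ℓ c p ↔ N.P6Inc ℓ c p E := by
  classical
  unfold P6incs
  rw [mem_filter]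
  exact ⟨fun h => h.2, fun h => ⟨mem_univ _, h⟩⟩

theorem P6_key (c : N.C) (p : Fin 7 × Fin (ℓ + 1)) (F : Fin k → Fin k → N.Λ) (hF : N.IsCtx F) :
    ∑ i, N.vec ℓ (c, p, i, F i) =
      ∑ E ∈ N.P6incs ℓ c p, N.horVec ℓ E (N.colChain (F + N.P6sh ℓ c p E)) +
        (∑ i, N.tw ℓ (c, p, i, F i)) • N.one ℓ := by
  classical
  funext v
  rw [Pi.add_apply, Finset.sum_apply, Finset.sum_apply, Pi.smul_apply]
  cases v with
  | none =>
    have h1 : ∀ E ∈ N.P6incs ℓ c p,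
        N.horVec ℓ E (N.colChain (F + N.P6sh ℓ c p E)) none = 0 := fun _ _ => rfl
    rw [Finset.sum_eq_zero h1, zero_add]
    show _ = (∑ i, N.tw ℓ (c, p, i, F i)) * 1
    rw [mul_one]
    rfl
  | some v =>
    have h0 : N.one ℓ (some v) = 0 := rfl
    rw [h0, smul_zero, add_zero]
    rcases P6_var_cases v with ⟨c', l, s, e, d, rfl⟩ | ⟨E, i', a, rfl⟩
    · have h1 : ∀ E ∈ N.P6incs ℓ c p,
        N.horVec ℓ E (N.colChain (F + N.P6sh ℓ c p E)) (some (.vert c' l s e d)) = 0 :=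
        fun _ _ => P6_horVec_vert _ _ _ _ _ _ _
      rw [Finset.sum_eq_zero h1]
      simp only [P6_vec_vert]
      by_cases hcp : c = c' ∧ p = (l, s)
      · induction e using Sym2.ind with
        | _ q r =>
        have hterm : ∀ i : Fin k, (if c = c' ∧ p = (l, s) ∧ ∃ m, m ≠ row (c, p, i, F i) ∧
            s(q, r) = s(row (c, p, i, F i), m) ∧ d = F i m then (1 : ZMod 2) else 0) =
            (if i = q then (if q ≠ r ∧ d = F q r then 1 else 0) else 0) +
            (if i = r then (if q ≠ r ∧ d = F q r then 1 else 0) else 0) := by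
          intro i
          have hrow : row (c, p, i, F i) = i := rfl
          rw [hrow]
          by_cases hqr : q = r
          · subst hqr
            rw [if_neg]
            · simp
            · rintro ⟨-, -, m, hm, he, -⟩
              rcases Sym2.eq_iff.mp he with ⟨h1, h2⟩ | ⟨h1, h2⟩
              · exact hm (h2.symm.trans h1)
              · exact hm (h1.symm.trans h2)
          · by_cases hd : d = F q r
            · by_cases hiq : i = q
              · subst hiq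
                rw [if_pos, if_pos rfl, if_pos ⟨hqr, hd⟩, if_neg hqr, add_zero]
                exact ⟨hcp.1, hcp.2, r, fun h => hqr h.symm, rfl, hd⟩
              · by_cases hir : i = r
                · subst hir
                  rw [if_pos, if_neg hiq, if_pos rfl, if_pos ⟨hqr, hd⟩, zero_add]
                  exact ⟨hcp.1, hcp.2, q, hqr, Sym2.eq_swap, by rw [hd, hF.1]⟩
                · rw [if_neg, if_neg hiq, if_neg hir, add_zero]
                  rintro ⟨-, -, m, hm, he, -⟩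
                  rcases Sym2.eq_iff.mp he with ⟨h1, h2⟩ | ⟨h1, h2⟩
                  · exact hiq h1.symm
                  · exact hir h2.symm
            · rw [if_neg]
              · simp [hd]
              · rintro ⟨-, -, m, hm, he, hdd⟩
                rcases Sym2.eq_iff.mp he with ⟨h1, h2⟩ | ⟨h1, h2⟩
                · subst h1 h2; exact hd hdd
                · subst h1 h2; exact hd (by rw [hdd, hF.1])
        rw [Finset.sum_congr rfl fun i _ => hterm i, Finset.sum_add_distrib,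
          Finset.sum_ite_eq' univ q, Finset.sum_ite_eq' univ r, if_pos (mem_univ _),
          if_pos (mem_univ _)]
        exact CharTwo.add_self_eq_zero _
      · refine Finset.sum_eq_zero fun i _ => if_neg ?_
        rintro ⟨h1, h2, -⟩
        exact hcp ⟨h1, h2⟩
    · simp only [P6_vec_hvar, P6_horVec_hvar]
      have hL : ∀ i : Fin k, (if i' = row (c, p, i, F i) ∧ N.P6Inc ℓ c p E ∧
          a = F i + N.P6sh ℓ c p E (row (c, p, i, F i)) then (1 : ZMod 2) else 0) =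
          if i' = i then (if N.P6Inc ℓ c p E ∧ a = F i' + N.P6sh ℓ c p E i' then 1 else 0)
            else 0 := by
        intro i
        have hrow : row (c, p, i, F i) = i := rfl
        rw [hrow]
        by_cases h : i' = i
        · subst h
          rw [if_pos rfl]
          exact if_congr ⟨fun h => h.2, fun h => ⟨rfl, h⟩⟩ rfl rfl
        · rw [if_neg h, if_neg fun h' => h h'.1]
      have hR : ∀ E' ∈ N.P6incs ℓ c p,
          (if E = E' then N.colChain (F + N.P6sh ℓ c p E') i' a else 0) =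
          if E = E' then N.colChain (F + N.P6sh ℓ c p E) i' a else 0 := by
        intro E' _
        by_cases h : E = E'
        · rw [h]
        · rw [if_neg h, if_neg h]
      rw [Finset.sum_congr rfl fun i _ => hL i, Finset.sum_congr rfl hR,
        Finset.sum_ite_eq, Finset.sum_ite_eq, if_pos (mem_univ _)]
      unfold colChain
      by_cases h1 : N.P6Inc ℓ c p E
      · rw [if_pos (P6_mem_incs.mpr h1)]
        exact if_congr ⟨fun h => h.2, fun h => ⟨h1, h⟩⟩ rfl rfl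
      · rw [if_neg (fun h => h1 (P6_mem_incs.mp h)), if_neg fun h => h1 h.1]

/-! ### Closedness at a node -/

variable (N) (ℓ)

/-- The leg of an edge at a node. -/
def P6leg (p : Fin 7 × Fin (ℓ + 1)) : N.Ed ℓ → ℕ
  | .inner _ l' _ => l'
  | .main _ => p.1

variable {N} {ℓ}

theorem P6_isCtx_add {c : N.C} {p : Fin 7 × Fin (ℓ + 1)} {E : N.Ed ℓ}
    {F : Fin k → Fin k → N.Λ} (hF : N.IsCtx F) : N.IsCtx (F + N.P6sh ℓ c p E) := by
  cases E with
  | inner c' l' s' => simpa [P6sh] using hF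
  | main st =>
    refine ⟨fun i j => ?_, fun i => ?_⟩
    · show F i j + N.sh c _ i j = F j i + N.sh c _ j i
      rw [hF.1 i j, N.sh_symm]
    · show F i i + N.sh c _ i i = 0
      rw [hF.2 i, N.sh_diag, add_zero]

theorem P6_known_iff {c : N.C} {p : Fin 7 × Fin (ℓ + 1)} {E : N.Ed ℓ}
    (hE : N.P6Inc ℓ c p E) {F : Fin k → Fin k → N.Λ} (hF : N.IsCtx F) :
    N.Known ℓ E (F + N.P6sh ℓ c p E) ↔
      N.DG (N.stmt c (N.P6leg ℓ p E / 2)) (F + N.sh c (N.P6leg ℓ p E / 2)) := by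
  cases E with
  | inner c' l' s' =>
    obtain ⟨rfl, -⟩ := hE
    constructor
    · intro h
      have := h.2
      simpa [P6sh, P6leg] using this
    · intro h
      refine ⟨by simpa [P6sh] using hF, ?_⟩
      simpa [P6sh, P6leg] using h
  | main st =>
    obtain ⟨-, -, rfl⟩ := hE
    constructor
    · intro h
      exact h.2
    · intro h
      exact ⟨P6_isCtx_add (E := .main _) hF, h⟩

open Classical in
theorem P6_val_eq {c : N.C} {p : Fin 7 × Fin (ℓ + 1)} {E : N.Ed ℓ}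
    (hE : N.P6Inc ℓ c p E) {F : Fin k → Fin k → N.Λ} :
    N.val ℓ E (F + N.P6sh ℓ c p E) =
      if N.IsGoal (N.stmt c (N.P6leg ℓ p E / 2)) (F + N.sh c (N.P6leg ℓ p E / 2))
      then 1 else 0 := by
  cases E with
  | inner c' l' s' =>
    obtain ⟨rfl, -⟩ := hE
    have h0 : F + N.P6sh ℓ c' p (.inner c' l' s') = F := by
      show F + 0 = F
      rw [add_zero]
    rw [h0]
    rfl
  | main st =>
    obtain ⟨-, -, rfl⟩ := hE
    rfl

/-- The bodies are never the goal instance. -/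
theorem P6_body {c : N.C} {F : Fin k → Fin k → N.Λ} (hF : N.IsCtx F) (hA : N.Allowed c F)
    {b : ℕ} (hb : b < N.nb c) : ¬ N.IsGoal (N.stmt c b) (F + N.sh c b) := by
  rintro ⟨h1, h2⟩
  refine N.body_ne_goal c b hb F hF.1 hF.2 hA ⟨h1, fun i j => ?_⟩
  exact congrFun (congrFun h2 i) j

theorem P6_head_goal {F : Fin k → Fin k → N.Λ} (hF : N.IsCtx F) (hA : N.Allowed N.goal F) :
    N.IsGoal (N.stmt N.goal (N.nb N.goal)) (F + N.sh N.goal (N.nb N.goal)) := by
  rw [N.nb_goal]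
  refine ⟨rfl, ?_⟩
  have : F = N.gctx := by
    funext i j
    by_cases hij : i = j
    · rw [hij, hF.2, N.gctx_diag]
    · exact N.single N.goal N.nb_goal i j hij _ _ (hA i j hij) (N.gctx_cond i j hij)
  rw [this]

theorem P6_head_der {c : N.C} (hc : c ≠ N.goal) {F : Fin k → Fin k → N.Λ} (hF : N.IsCtx F)
    (hA : N.Allowed c F) (hb : ∀ b, b < N.nb c → N.DG (N.stmt c b) (F + N.sh c b)) :
    N.Der (N.stmt c (N.nb c)) (F + N.sh c (N.nb c)) := by
  refine Der.intro c hc F hF hA fun b hb' => ?_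
  rcases hb b hb' with h | h
  · exact h
  · exact absurd h (P6_body hF hA hb')

theorem P6_head_DG {c : N.C} {F : Fin k → Fin k → N.Λ} (hF : N.IsCtx F)
    (hA : N.Allowed c F) (hb : ∀ b, b < N.nb c → N.DG (N.stmt c b) (F + N.sh c b)) :
    N.DG (N.stmt c (N.nb c)) (F + N.sh c (N.nb c)) := by
  by_cases hc : c = N.goal
  · subst hc
    exact Or.inr (P6_head_goal hF hA)
  · exact Or.inl (P6_head_der hc hF hA hb)

theorem P6_head_ne (hD : ¬ N.DerGoal) {c : N.C} (hc : c ≠ N.goal) {F : Fin k → Fin k → N.Λ}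
    (hF : N.IsCtx F) (hA : N.Allowed c F)
    (hb : ∀ b, b < N.nb c → N.DG (N.stmt c b) (F + N.sh c b)) :
    ¬ N.IsGoal (N.stmt c (N.nb c)) (F + N.sh c (N.nb c)) := by
  intro h
  apply hD
  have := P6_head_der hc hF hA hb
  rw [h.1, h.2] at this
  exact this

/-- The inner edge at a leg node towards the centre. -/
theorem P6_inc_leg {c : N.C} {p : Fin 7 × Fin (ℓ + 1)} (hp : (p.2 : ℕ) ≠ 0) :
    ∃ E1 E2 : N.Ed ℓ, E1 ≠ E2 ∧ (∀ E, N.P6Inc ℓ c p E ↔ E = E1 ∨ E = E2) ∧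
      N.P6leg ℓ p E1 = p.1 ∧ N.P6leg ℓ p E2 = p.1 := by
  have h2 := p.2.2
  by_cases h : (p.2 : ℕ) < ℓ
  · refine ⟨.inner c p.1 ⟨(p.2 : ℕ) - 1, by omega⟩, .inner c p.1 p.2, ?_, ?_, rfl, rfl⟩
    · intro he
      injection he with _ _ he
      have := congrArg Fin.val he
      simp only at this
      omega
    · intro E
      cases E with
      | inner c' l' s' =>
        constructor
        · rintro ⟨rfl, ⟨h3, -⟩ | ⟨-, rfl, h4 | ⟨h4, -⟩⟩⟩
          · exact absurd h3 hp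
          · left
            congr 1
            apply Fin.ext
            simp only
            omega
          · right
            congr 1
            exact Fin.ext h4
        · rintro (he | he)
          · cases he
            refine ⟨rfl, Or.inr ⟨hp, rfl, Or.inl ?_⟩⟩
            simp only
            omega
          · cases he
            exact ⟨rfl, Or.inr ⟨hp, rfl, Or.inr ⟨rfl, h⟩⟩⟩
      | main st =>
        constructor
        · rintro ⟨-, h3, -⟩
          exact absurd h h3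
        · rintro (he | he) <;> cases he
  · refine ⟨.inner c p.1 ⟨(p.2 : ℕ) - 1, by omega⟩, .main (N.stmt c ((p.1 : ℕ) / 2)),
      (fun he => by cases he), ?_, rfl, rfl⟩
    intro E
    cases E with
    | inner c' l' s' =>
      constructor
      · rintro ⟨rfl, ⟨h3, -⟩ | ⟨-, rfl, h4 | ⟨h4, h5⟩⟩⟩
        · exact absurd h3 hp
        · left
          congr 1
          apply Fin.ext
          simp only
          omega
        · exact absurd h5 h
      · rintro (he | he)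
        · cases he
          refine ⟨rfl, Or.inr ⟨hp, rfl, Or.inl ?_⟩⟩
          simp only
          omega
        · cases he
    | main st =>
      constructor
      · rintro ⟨-, -, rfl⟩
        exact Or.inr rfl
      · rintro (he | he)
        · cases he
        · cases he
          exact ⟨hp, h, rfl⟩

theorem P6_inc_centre {c : N.C} {p : Fin 7 × Fin (ℓ + 1)} (hp : (p.2 : ℕ) = 0) (E : N.Ed ℓ) :
    N.P6Inc ℓ c p E ↔ ∃ t : Fin 7, (t : ℕ) ≤ 2 * N.nb c ∧ E = .inner c t 0 := by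
  cases E with
  | inner c' l' s' =>
    constructor
    · rintro ⟨rfl, ⟨-, h2, h3⟩ | ⟨h1, -⟩⟩
      · refine ⟨l', h3, ?_⟩
        congr 1
        exact Fin.ext h2
      · exact absurd hp h1
    · rintro ⟨t, ht, he⟩
      cases he
      exact ⟨rfl, Or.inl ⟨hp, rfl, ht⟩⟩
  | main st =>
    constructor
    · rintro ⟨h1, -⟩
      exact absurd hp h1
    · rintro ⟨t, ht, he⟩
      cases he

/-- (b1) closedness of the parities of the known edges at a node. -/
theorem P6_b1 (hk : 2 ≤ k) (hD : ¬ N.DerGoal) {c : N.C} {p : Fin 7 × Fin (ℓ + 1)}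
    (hp : p.2 = 0 → p.1 = 0) {F : Fin k → Fin k → N.Λ} (hF : N.IsCtx F) (hA : N.Allowed c F)
    (hK : ∀ E ∈ N.P6incs ℓ c p, N.Known ℓ E (F + N.P6sh ℓ c p E)) :
    ∑ E ∈ N.P6incs ℓ c p, N.val ℓ E (F + N.P6sh ℓ c p E) = ∑ i, N.tw ℓ (c, p, i, F i) := by
  classical
  by_cases hp0 : (p.2 : ℕ) = 0
  · -- centre
    have hp2 : p.2 = 0 := Fin.ext hp0
    have hp1 := hp hp2
    have hpp : p = (0, 0) := Prod.ext hp1 hp2
    -- the sum over the edges
    have hset : N.P6incs ℓ c p =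
        (univ.filter fun t : Fin 7 => (t : ℕ) ≤ 2 * N.nb c).image
          (fun t => (Ed.inner c t 0 : N.Ed ℓ)) := by
      ext E
      rw [P6_mem_incs, P6_inc_centre hp0, mem_image]
      constructor
      · rintro ⟨t, ht, rfl⟩
        exact ⟨t, mem_filter.mpr ⟨mem_univ _, ht⟩, rfl⟩
      · rintro ⟨t, ht, rfl⟩
        exact ⟨t, (mem_filter.mp ht).2, rfl⟩
    have hDG : ∀ b, b ≤ N.nb c → N.DG (N.stmt c b) (F + N.sh c b) := by
      intro b hb
      have hnb := N.nb_le c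
      have hin : N.P6Inc ℓ c p (.inner c ⟨2 * b, by omega⟩ 0) :=
        (P6_inc_centre hp0 _).mpr ⟨⟨2 * b, by omega⟩, by simp only; omega, rfl⟩
      have h1 := (P6_known_iff hin hF).mp (hK _ (P6_mem_incs.mpr hin))
      have h2 : N.P6leg ℓ p (.inner c ⟨2 * b, by omega⟩ 0) / 2 = b := by
        show 2 * b / 2 = b
        omega
      rw [h2] at h1
      exact h1
    have hg : ∀ b, b < N.nb c → ¬ N.IsGoal (N.stmt c b) (F + N.sh c b) :=
      fun b hb => P6_body hF hA hb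
    have hhead : (if N.IsGoal (N.stmt c (N.nb c)) (F + N.sh c (N.nb c)) then (1 : ZMod 2) else 0)
        = if c = N.goal then 1 else 0 := by
      by_cases hc : c = N.goal
      · subst hc
        rw [if_pos (P6_head_goal hF hA), if_pos rfl]
      · rw [if_neg (P6_head_ne hD hc hF hA fun b hb => hDG b hb.le), if_neg hc]
    have hLHS : ∑ E ∈ N.P6incs ℓ c p, N.val ℓ E (F + N.P6sh ℓ c p E) =
        if c = N.goal then 1 else 0 := by
      rw [hset, Finset.sum_image (fun t _ t' _ h => by injection h), Finset.sum_filter]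
      have hterm : ∀ t : Fin 7, (if (t : ℕ) ≤ 2 * N.nb c then
          N.val ℓ (.inner c t 0) (F + N.P6sh ℓ c p (.inner c t 0)) else 0) =
          if (t : ℕ) = 2 * N.nb c then (if c = N.goal then (1 : ZMod 2) else 0) else 0 := by
        intro t
        by_cases ht : (t : ℕ) ≤ 2 * N.nb c
        · rw [if_pos ht, P6_val_eq ((P6_inc_centre hp0 _).mpr ⟨t, ht, rfl⟩)]
          have hleg : N.P6leg ℓ p (.inner c t 0) = t := rfl
          rw [hleg]
          by_cases ht' : (t : ℕ) = 2 * N.nb c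
          · have h2 : (t : ℕ) / 2 = N.nb c := by omega
            rw [h2, hhead, if_pos ht']
          · rw [if_neg (hg _ (by omega)), if_neg ht']
        · rw [if_neg ht, if_neg (by omega)]
      rw [Finset.sum_congr rfl fun t _ => hterm t]
      have hnb := N.nb_le c
      rw [Finset.sum_eq_single (⟨2 * N.nb c, by omega⟩ : Fin 7)]
      · rw [if_pos rfl]
      · intro t _ ht
        rw [if_neg]
        intro h
        exact ht (Fin.ext h)
      · intro h
        exact absurd (mem_univ _) h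
    rw [hLHS]
    have htw : ∀ i : Fin k, N.tw ℓ (c, p, i, F i) =
        if i = ⟨0, by omega⟩ then (if c = N.goal then (1 : ZMod 2) else 0) else 0 := by
      intro i
      unfold tw
      by_cases hi : i = ⟨0, by omega⟩
      · subst hi
        rw [if_pos rfl]
        exact if_congr ⟨fun h => h.1, fun h => ⟨h, hpp, rfl⟩⟩ rfl rfl
      · rw [if_neg hi, if_neg]
        rintro ⟨-, -, h⟩
        exact hi (Fin.ext h)
    rw [Finset.sum_congr rfl fun i _ => htw i, Finset.sum_ite_eq', if_pos (mem_univ _)]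
  · -- leg node
    obtain ⟨E1, E2, hne, hinc, hl1, hl2⟩ := P6_inc_leg (c := c) (p := p) (N := N) hp0
    have hset : N.P6incs ℓ c p = {E1, E2} := by
      ext E
      rw [P6_mem_incs, hinc, mem_insert, mem_singleton]
    rw [hset, Finset.sum_pair hne, P6_val_eq ((hinc E1).mpr (Or.inl rfl)),
      P6_val_eq ((hinc E2).mpr (Or.inr rfl)), hl1, hl2, CharTwo.add_self_eq_zero]
    symm
    refine Finset.sum_eq_zero fun i _ => ?_
    unfold tw
    rw [if_neg]
    rintro ⟨-, h, -⟩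
    apply hp0
    dsimp only at h
    rw [h]
    rfl

/-- (b2) if all edges at a node but one are known, the last is known too. -/
theorem P6_b2 {c : N.C} {p : Fin 7 × Fin (ℓ + 1)}
    {F : Fin k → Fin k → N.Λ} (hF : N.IsCtx F) (hA : N.Allowed c F) {Es : N.Ed ℓ}
    (hEs : N.P6Inc ℓ c p Es)
    (hK : ∀ E, N.P6Inc ℓ c p E → E ≠ Es → N.Known ℓ E (F + N.P6sh ℓ c p E)) :
    N.Known ℓ Es (F + N.P6sh ℓ c p Es) := by
  rw [P6_known_iff hEs hF]
  by_cases hp0 : (p.2 : ℕ) = 0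
  · obtain ⟨t, ht, rfl⟩ := (P6_inc_centre hp0 Es).mp hEs
    have hleg : N.P6leg ℓ p (.inner c t 0) = t := rfl
    rw [hleg]
    have hnb := N.nb_le c
    by_cases ht' : (t : ℕ) = 2 * N.nb c
    · have h2 : (t : ℕ) / 2 = N.nb c := by omega
      rw [h2]
      refine P6_head_DG hF hA fun b hb => ?_
      have hin : N.P6Inc ℓ c p (.inner c ⟨2 * b, by omega⟩ 0) :=
        (P6_inc_centre hp0 _).mpr ⟨⟨2 * b, by omega⟩, by simp only; omega, rfl⟩
      have hne : (Ed.inner c ⟨2 * b, by omega⟩ 0 : N.Ed ℓ) ≠ .inner c t 0 := by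
        intro he
        injection he with _ he _
        have := congrArg Fin.val he
        simp only at this
        omega
      have h1 := (P6_known_iff hin hF).mp (hK _ hin hne)
      have h3 : N.P6leg ℓ p (.inner c ⟨2 * b, by omega⟩ 0) / 2 = b := by
        show 2 * b / 2 = b
        omega
      rw [h3] at h1
      exact h1
    · -- the twin leg
      obtain ⟨t', ht1, ht2, ht3⟩ : ∃ t' : Fin 7, (t' : ℕ) ≤ 2 * N.nb c ∧ t' ≠ t ∧
          (t' : ℕ) / 2 = (t : ℕ) / 2 := by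
        by_cases hpar : (t : ℕ) % 2 = 0
        · refine ⟨⟨t + 1, by omega⟩, by simp only; omega, ?_, by simp only; omega⟩
          intro h
          have := congrArg Fin.val h
          simp only at this
          omega
        · refine ⟨⟨t - 1, by omega⟩, by simp only; omega, ?_, by simp only; omega⟩
          intro h
          have := congrArg Fin.val h
          simp only at this
          omega
      have hin : N.P6Inc ℓ c p (.inner c t' 0) := (P6_inc_centre hp0 _).mpr ⟨t', ht1, rfl⟩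
      have hne : (Ed.inner c t' 0 : N.Ed ℓ) ≠ .inner c t 0 := by
        intro he
        injection he with _ he _
        exact ht2 he
      have h1 := (P6_known_iff hin hF).mp (hK _ hin hne)
      have hleg' : N.P6leg ℓ p (.inner c t' 0) = t' := rfl
      rw [hleg', ht3] at h1
      exact h1
  · obtain ⟨E1, E2, hne, hinc, hl1, hl2⟩ := P6_inc_leg (c := c) (p := p) (N := N) hp0
    rcases (hinc Es).mp hEs with rfl | rfl
    · have h1 := (P6_known_iff ((hinc E2).mpr (Or.inr rfl)) hF).mp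
        (hK E2 ((hinc E2).mpr (Or.inr rfl)) hne.symm)
      rw [hl2] at h1
      rw [hl1]
      exact h1
    · have h1 := (P6_known_iff ((hinc E1).mpr (Or.inl rfl)) hF).mp
        (hK E1 ((hinc E1).mpr (Or.inl rfl)) hne)
      rw [hl1] at h1
      rw [hl2]
      exact h1

/-! ### Geometry: nodes, edges, pebbles -/

/-- Two different nodes share at most one edge. -/
theorem P6_two {c c' : N.C} {p p' : Fin 7 × Fin (ℓ + 1)} (hp : p.2 = 0 → p.1 = 0)
    (hp' : p'.2 = 0 → p'.1 = 0) {E E' : N.Ed ℓ} (hne : E ≠ E') (h1 : N.P6Inc ℓ c p E)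
    (h2 : N.P6Inc ℓ c p E') (h3 : N.P6Inc ℓ c' p' E) (h4 : N.P6Inc ℓ c' p' E') :
    c' = c ∧ p' = p := by
  have hp0 : (p.2 : ℕ) = 0 → p.1 = 0 := fun h => hp (Fin.ext h)
  have hp0' : (p'.2 : ℕ) = 0 → p'.1 = 0 := fun h => hp' (Fin.ext h)
  have b := p.2.2
  have b' := p'.2.2
  cases E with
  | inner c1 l1 s1 =>
    obtain ⟨rfl, h1⟩ := h1
    obtain ⟨rfl, h3⟩ := h3
    refine ⟨rfl, ?_⟩
    cases E' with
    | inner c2 l2 s2 =>
      obtain ⟨rfl, h2⟩ := h2
      obtain ⟨-, h4⟩ := h4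
      have hne' : ¬ (l1 = l2 ∧ (s1 : ℕ) = s2) := by
        rintro ⟨rfl, h⟩
        exact hne (by congr 1; exact Fin.ext h)
      rcases h1 with ⟨h1a, h1b, h1c⟩ | ⟨h1a, h1b, h1c⟩
      · rcases h2 with ⟨-, h2b, h2c⟩ | ⟨h2a, -⟩
        · rcases h3 with ⟨h3a, h3b, h3c⟩ | ⟨h3a, h3b, h3c⟩
          · have e1 := hp0 h1a
            have e2 := hp0' h3a
            exact Prod.ext (by rw [e1, e2]) (Fin.ext (by rw [h1a, h3a]))
          · rcases h4 with ⟨h4a, -⟩ | ⟨-, h4b, -⟩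
            · exact absurd h4a h3a
            · exact absurd ⟨h3b.trans h4b.symm, by rw [h1b, h2b]⟩ hne'
        · exact absurd h1a h2a
      · rcases h2 with ⟨h2a, -⟩ | ⟨-, h2b, h2c⟩
        · exact absurd h2a h1a
        · have hll : l1 = l2 := h1b.trans h2b.symm
          have hss : (s1 : ℕ) ≠ s2 := fun h => hne' ⟨hll, h⟩
          rcases h3 with ⟨h3a, h3b, h3c⟩ | ⟨h3a, h3b, h3c⟩
          · rcases h4 with ⟨-, h4b, -⟩ | ⟨h4a, -⟩
            · exact absurd (h3b.trans h4b.symm) hss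
            · exact absurd h3a h4a
          · rcases h4 with ⟨h4a, -⟩ | ⟨-, h4b, h4c⟩
            · exact absurd h4a h3a
            · refine Prod.ext (h3b.symm.trans h1b) (Fin.ext ?_)
              omega
    | main st =>
      obtain ⟨h2a, h2b, h2c⟩ := h2
      obtain ⟨h4a, h4b, h4c⟩ := h4
      rcases h1 with ⟨h1a, -⟩ | ⟨h1a, h1b, h1c⟩
      · exact absurd h1a h2a
      rcases h3 with ⟨h3a, -⟩ | ⟨h3a, h3b, h3c⟩
      · exact absurd h3a h4a
      refine Prod.ext (h3b.symm.trans h1b) (Fin.ext ?_)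
      omega
  | main st1 =>
    obtain ⟨h1a, h1b, h1c⟩ := h1
    obtain ⟨h3a, h3b, h3c⟩ := h3
    cases E' with
    | inner c2 l2 s2 =>
      obtain ⟨rfl, h2⟩ := h2
      obtain ⟨rfl, h4⟩ := h4
      refine ⟨rfl, ?_⟩
      rcases h2 with ⟨h2a, -⟩ | ⟨-, h2b, h2c⟩
      · exact absurd h2a h1a
      rcases h4 with ⟨h4a, -⟩ | ⟨-, h4b, h4c⟩
      · exact absurd h4a h3a
      refine Prod.ext (h4b.symm.trans h2b) (Fin.ext ?_)
      omega
    | main st2 =>
      obtain ⟨-, -, h2c⟩ := h2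
      exact absurd (by rw [h1c, h2c]) hne

/-- Every node has an inner edge. -/
theorem P6_exists_inner (c : N.C) (p : Fin 7 × Fin (ℓ + 1)) :
    ∃ l s, N.P6Inc ℓ c p (.inner c l s) ∧
      ∀ p', N.P6Inc ℓ c p' (.inner c l s) → ∀ E, N.P6Inc ℓ c p E → N.P6Inc ℓ c p' E →
        N.P6sh ℓ c p' E = N.P6sh ℓ c p E := by
  by_cases hp : (p.2 : ℕ) = 0
  · refine ⟨0, 0, ⟨rfl, Or.inl ⟨hp, rfl, Nat.zero_le _⟩⟩, ?_⟩
    intro p' _ E hE _
    cases E with
    | inner c' l' s' => rfl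
    | main st => exact absurd hp hE.1
  · have b := p.2.2
    refine ⟨p.1, ⟨(p.2 : ℕ) - 1, by omega⟩, ⟨rfl, Or.inr ⟨hp, rfl, Or.inl ?_⟩⟩, ?_⟩
    · simp only
      omega
    · intro p' hp' E hE hE'
      cases E with
      | inner c' l' s' => rfl
      | main st =>
        obtain ⟨-, ⟨h1, -⟩ | ⟨-, h2, -⟩⟩ := hp'
        · exact absurd h1 hE'.1
        · show N.sh c ((p'.1 : ℕ) / 2) = N.sh c ((p.1 : ℕ) / 2)
          rw [h2]

/-- A node has two edges or it is the centre of a clause without body. -/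
theorem P6_deg (c : N.C) (p : Fin 7 × Fin (ℓ + 1)) :
    (∃ E E' : N.Ed ℓ, E ≠ E' ∧ N.P6Inc ℓ c p E ∧ N.P6Inc ℓ c p E') ∨ N.nb c = 0 := by
  by_cases hp : (p.2 : ℕ) = 0
  · by_cases h : N.nb c = 0
    · exact Or.inr h
    · left
      refine ⟨.inner c 0 0, .inner c 1 0, ?_, ?_, ?_⟩
      · intro he
        injection he with _ he _
        exact absurd he (by decide)
      · exact (P6_inc_centre hp _).mpr ⟨0, Nat.zero_le _, rfl⟩
      · refine (P6_inc_centre hp _).mpr ⟨1, ?_, rfl⟩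
        show 1 ≤ 2 * N.nb c
        omega
  · obtain ⟨E1, E2, hne, hinc, -, -⟩ := P6_inc_leg (c := c) (p := p) (N := N) hp
    exact Or.inl ⟨E1, E2, hne, (hinc E1).mpr (Or.inl rfl), (hinc E2).mpr (Or.inr rfl)⟩

/-- Two contexts that agree in all rows but one are equal. -/
theorem P6_ctx_ext {F F' : Fin k → Fin k → N.Λ} (hF : N.IsCtx F) (hF' : N.IsCtx F') (i0 : Fin k)
    (h : ∀ i, i ≠ i0 → F i = F' i) : F = F' := by
  funext i m
  by_cases hi : i = i0
  · by_cases hm : m = i0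
    · rw [hi, hm, hF.2, hF'.2]
    · rw [hF.1 i m, hF'.1 i m, h m hm]
  · rw [h i hi]

/-! ### Counting pebbles -/

theorem P6_count (W : Finset (N.Ax ℓ)) (hcrit : ∀ i, ∃ x ∈ W, row x = i) (D : Finset (Fin k))
    (hD : ∀ i ∈ D, ∃ x ∈ W, ∃ x' ∈ W, row x = i ∧ row x' = i ∧ x ≠ x') :
    k + D.card ≤ W.card := by
  classical
  have h1 : W.card = ∑ i : Fin k, (W.filter fun x => row x = i).card :=
    Finset.card_eq_sum_card_fiberwise fun x _ => mem_univ _
  have h2 : ∑ i : Fin k, (1 + if i ∈ D then 1 else 0) ≤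
      ∑ i : Fin k, (W.filter fun x => row x = i).card := by
    refine Finset.sum_le_sum fun i _ => ?_
    by_cases hi : i ∈ D
    · rw [if_pos hi]
      obtain ⟨x, hx, x', hx', h1, h2, hne⟩ := hD i hi
      have : 1 < (W.filter fun x => row x = i).card :=
        Finset.one_lt_card.mpr ⟨x, mem_filter.mpr ⟨hx, h1⟩, x', mem_filter.mpr ⟨hx', h2⟩, hne⟩
      omega
    · rw [if_neg hi]
      obtain ⟨x, hx, h1⟩ := hcrit i
      have : 0 < (W.filter fun x => row x = i).card :=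
        Finset.card_pos.mpr ⟨x, mem_filter.mpr ⟨hx, h1⟩⟩
      omega
  rw [Finset.sum_add_distrib, Finset.sum_const, Finset.card_univ, Fintype.card_fin, smul_eq_mul,
    mul_one, Finset.sum_ite_mem, Finset.univ_inter, Finset.sum_const, smul_eq_mul, mul_one] at h2
  omega

theorem P6_rows (hk : 0 < k) (W : Finset (N.Ax ℓ)) (hcrit : ∀ i, ∃ x ∈ W, row x = i)
    (hW : W.card ≤ k + 1) :
    ∃ i0, ∀ i, i ≠ i0 → ∀ x ∈ W, ∀ x' ∈ W, row x = i → row x' = i → x = x' := by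
  classical
  by_contra hcon
  push Not at hcon
  obtain ⟨i1, -, x, hx, x', hx', e1, e2, hne⟩ := hcon ⟨0, hk⟩
  obtain ⟨i2, hi2, z, hz, z', hz', e3, e4, hne'⟩ := hcon i1
  have := P6_count W hcrit {i1, i2} (by
    intro i hi
    rcases mem_insert.mp hi with rfl | hi
    · exact ⟨x, hx, x', hx', e1, e2, hne⟩
    · rw [mem_singleton.mp hi]
      exact ⟨z, hz, z', hz', e3, e4, hne'⟩)
  rw [Finset.card_pair (fun h => hi2 h.symm)] at this
  omega

theorem P6_rows_single (W : Finset (N.Ax ℓ)) (hcrit : ∀ i, ∃ x ∈ W, row x = i)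
    (hW : W.card ≤ k) : ∀ x ∈ W, ∀ x' ∈ W, row x = row x' → x = x' := by
  classical
  intro x hx x' hx' h
  by_contra hne
  have := P6_count W hcrit {row x} (by
    intro i hi
    rw [mem_singleton.mp hi]
    exact ⟨x, hx, x', hx', rfl, h.symm, hne⟩)
  rw [Finset.card_singleton] at this
  omega

/-- (a) one context per edge. -/
theorem P6_one_ctx (hk : 0 < k) {W : Finset (N.Ax ℓ)} (hcrit : ∀ i, ∃ x ∈ W, row x = i)
    (hW : W.card ≤ k + 1) {E : N.Ed ℓ} {F F' : Fin k → Fin k → N.Λ} (hF : N.IsCtx F)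
    (hF' : N.IsCtx F') (hV : N.Visible ℓ W E F) (hV' : N.Visible ℓ W E F') : F = F' := by
  obtain ⟨i0, hi0⟩ := P6_rows hk W hcrit hW
  refine P6_ctx_ext hF hF' i0 fun i hi => ?_
  obtain ⟨x, hx, hxi, hb⟩ := hV i
  obtain ⟨x', hx', hxi', hb'⟩ := hV' i
  have := hi0 i hi x hx x' hx' hxi hxi'
  subst this
  rw [((P6_sees_iff _ _ _ _).mp hb).2.2, ((P6_sees_iff _ _ _ _).mp hb').2.2]

/-! ### Decomposition of the elements of `Lc` -/

theorem P6_span_sum {ι M : Type*} [AddCommGroup M] [Module (ZMod 2) M] (T : Set ι) (g : ι → M)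
    {f : M} (hf : f ∈ Submodule.span (ZMod 2) (g '' T)) :
    ∃ S : Finset ι, (∀ i ∈ S, i ∈ T) ∧ f = ∑ i ∈ S, g i := by
  rw [Finsupp.mem_span_image_iff_linearCombination] at hf
  obtain ⟨l, hl, rfl⟩ := hf
  refine ⟨l.support, fun i hi => ?_, ?_⟩
  · exact (Finsupp.mem_supported _ _).mp hl hi
  · rw [Finsupp.linearCombination_apply]
    unfold Finsupp.sum
    refine Finset.sum_congr rfl fun i hi => ?_
    have h1 : ∀ a : ZMod 2, a ≠ 0 → a = 1 := by decide
    rw [h1 _ (Finsupp.mem_support_iff.mp hi)]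
    exact one_smul _ _

variable (N) (ℓ) in
/-- The form of a known edge. -/
noncomputable def P6e (κ : N.Ed ℓ × (Fin k → Fin k → N.Λ)) : N.Form ℓ :=
  N.horVec ℓ κ.1 (N.colChain κ.2) + N.val ℓ κ.1 κ.2 • N.one ℓ

theorem P6_decomp {W : Finset (N.Ax ℓ)} {f : N.Form ℓ} (hf : f ∈ N.Lc ℓ W) :
    ∃ (S : Finset (N.Ax ℓ)) (K : Finset (N.Ed ℓ × (Fin k → Fin k → N.Λ))),
      (∀ y ∈ S, y ∈ W) ∧ (∀ κ ∈ K, N.Known ℓ κ.1 κ.2 ∧ N.Visible ℓ W κ.1 κ.2) ∧
      f = ∑ y ∈ S, N.vec ℓ y + ∑ κ ∈ K, N.P6e ℓ κ := by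
  unfold Lc at hf
  have h1 : ({f | ∃ x ∈ W, f = N.vec ℓ x} ∪
      {f | ∃ (E : N.Ed ℓ) (F : Fin k → Fin k → N.Λ), N.Known ℓ E F ∧ N.Visible ℓ W E F ∧
        f = N.horVec ℓ E (N.colChain F) + N.val ℓ E F • N.one ℓ} : Set (N.Form ℓ)) =
      (N.vec ℓ '' (W : Set (N.Ax ℓ))) ∪
      (N.P6e ℓ '' {κ | N.Known ℓ κ.1 κ.2 ∧ N.Visible ℓ W κ.1 κ.2}) := by
    ext g
    constructor
    · rintro (⟨x, hx, rfl⟩ | ⟨E, F, h1, h2, rfl⟩)
      · exact Or.inl ⟨x, hx, rfl⟩
      · exact Or.inr ⟨(E, F), ⟨h1, h2⟩, rfl⟩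
    · rintro (⟨x, hx, rfl⟩ | ⟨⟨E, F⟩, ⟨h1, h2⟩, rfl⟩)
      · exact Or.inl ⟨x, hx, rfl⟩
      · exact Or.inr ⟨E, F, h1, h2, rfl⟩
  rw [h1, Submodule.span_union, Submodule.mem_sup] at hf
  obtain ⟨u, hu, w, hw, rfl⟩ := hf
  obtain ⟨S, hS, rfl⟩ := P6_span_sum _ _ hu
  obtain ⟨K, hK, rfl⟩ := P6_span_sum _ _ hw
  exact ⟨S, K, hS, hK, rfl⟩

theorem P6_vec_mem_Lc {W : Finset (N.Ax ℓ)} {x : N.Ax ℓ} (hx : x ∈ W) :
    N.vec ℓ x ∈ N.Lc ℓ W :=
  Submodule.subset_span (Or.inl ⟨x, hx, rfl⟩)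

theorem P6_e_mem_Lc {W : Finset (N.Ax ℓ)} {κ : N.Ed ℓ × (Fin k → Fin k → N.Λ)}
    (h1 : N.Known ℓ κ.1 κ.2) (h2 : N.Visible ℓ W κ.1 κ.2) : N.P6e ℓ κ ∈ N.Lc ℓ W :=
  Submodule.subset_span (Or.inr ⟨κ.1, κ.2, h1, h2, rfl⟩)

theorem P6_known_ctx {E : N.Ed ℓ} {F : Fin k → Fin k → N.Λ} (h : N.Known ℓ E F) :
    N.IsCtx F := by
  cases E with
  | inner c l s => exact h.1
  | main st => exact h.1

open Classical in
theorem P6_e_hvar (κ : N.Ed ℓ × (Fin k → Fin k → N.Λ)) (E : N.Ed ℓ) (i : Fin k)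
    (a : Fin k → N.Λ) :
    N.P6e ℓ κ (some (N.hvar ℓ E i a)) = if κ.1 = E ∧ a = κ.2 i then 1 else 0 := by
  unfold P6e
  rw [Pi.add_apply, Pi.smul_apply, P6_horVec_hvar]
  have h0 : N.one ℓ (some (N.hvar ℓ E i a)) = 0 := rfl
  rw [h0, smul_zero, add_zero]
  unfold colChain
  by_cases h1 : E = κ.1
  · rw [if_pos h1]
    exact if_congr ⟨fun h => ⟨h1.symm, h⟩, fun h => h.2⟩ rfl rfl
  · rw [if_neg h1, if_neg fun h => h1 h.1.symm]

theorem P6_e_vert (κ : N.Ed ℓ × (Fin k → Fin k → N.Λ)) (c : N.C) (l : Fin 7)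
    (s : Fin (ℓ + 1)) (e : Sym2 (Fin k)) (d : N.Λ) :
    N.P6e ℓ κ (some (.vert c l s e d)) = 0 := by
  unfold P6e
  rw [Pi.add_apply, Pi.smul_apply, P6_horVec_vert]
  have h0 : N.one ℓ (some (.vert c l s e d)) = 0 := rfl
  rw [h0, smul_zero, add_zero]

/-- The coefficient of the sum over `K` at a horizontal variable of the edge of `κ ∈ K`. -/
theorem P6_sumK_one {K : Finset (N.Ed ℓ × (Fin k → Fin k → N.Λ))}
    (hone : ∀ E F F', (E, F) ∈ K → (E, F') ∈ K → F = F') {E : N.Ed ℓ}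
    {F : Fin k → Fin k → N.Λ} (hEF : (E, F) ∈ K) (i : Fin k) :
    (∑ κ ∈ K, N.P6e ℓ κ) (some (N.hvar ℓ E i (F i))) = 1 := by
  classical
  rw [Finset.sum_apply, Finset.sum_eq_single (E, F)]
  · rw [P6_e_hvar, if_pos ⟨rfl, rfl⟩]
  · rintro ⟨E', F'⟩ hκ hne
    rw [P6_e_hvar, if_neg]
    rintro ⟨h1, -⟩
    dsimp only at h1
    subst h1
    exact hne (by rw [hone _ _ _ hκ hEF])
  · intro h
    exact absurd hEF h

theorem P6_sumK_zero {K : Finset (N.Ed ℓ × (Fin k → Fin k → N.Λ))} {E : N.Ed ℓ} {i : Fin k}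
    {a : Fin k → N.Λ} (h : ∀ F, (E, F) ∈ K → a ≠ F i) :
    (∑ κ ∈ K, N.P6e ℓ κ) (some (N.hvar ℓ E i a)) = 0 := by
  classical
  rw [Finset.sum_apply]
  refine Finset.sum_eq_zero fun κ hκ => ?_
  rw [P6_e_hvar, if_neg]
  rintro ⟨h1, h2⟩
  subst h1
  exact h κ.2 hκ h2

theorem P6_sumK_vert {K : Finset (N.Ed ℓ × (Fin k → Fin k → N.Λ))} (c : N.C) (l : Fin 7)
    (s : Fin (ℓ + 1)) (e : Sym2 (Fin k)) (d : N.Λ) :
    (∑ κ ∈ K, N.P6e ℓ κ) (some (.vert c l s e d)) = 0 := by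
  rw [Finset.sum_apply]
  exact Finset.sum_eq_zero fun κ _ => P6_e_vert _ _ _ _ _ _

/-- The sum over the edges of a node, all known. -/
theorem P6_node_sum (hk : 2 ≤ k) (hD : ¬ N.DerGoal) {c : N.C} {p : Fin 7 × Fin (ℓ + 1)}
    (hp : p.2 = 0 → p.1 = 0) {F : Fin k → Fin k → N.Λ} (hF : N.IsCtx F) (hA : N.Allowed c F)
    (hK : ∀ E ∈ N.P6incs ℓ c p, N.Known ℓ E (F + N.P6sh ℓ c p E)) :
    ∑ i, N.vec ℓ (c, p, i, F i) =
      ∑ E ∈ N.P6incs ℓ c p, N.P6e ℓ (E, F + N.P6sh ℓ c p E) := by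
  rw [P6_key c p F hF, ← P6_b1 hk hD hp hF hA hK]
  unfold P6e
  rw [Finset.sum_add_distrib, Finset.sum_smul]

/-- The axioms of a context at a valid node are valid. -/
theorem P6_valid {c : N.C} {p : Fin 7 × Fin (ℓ + 1)} (hp : p.2 = 0 → p.1 = 0)
    (hp' : (p.1 : ℕ) ≤ 2 * N.nb c) {F : Fin k → Fin k → N.Λ} (hF : N.IsCtx F)
    (hA : N.Allowed c F) (i : Fin k) : N.AxValid ℓ (c, p, i, F i) :=
  ⟨hp, hp', hF.2 i, fun j hj => hA i j hj.symm⟩

theorem P6_sees_self (c : N.C) (p : Fin 7 × Fin (ℓ + 1)) (F : Fin k → Fin k → N.Λ) (i : Fin k)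
    {E : N.Ed ℓ} (hE : N.P6Inc ℓ c p E) :
    ∃ b, N.axSlot ℓ (c, p, i, F i) b = some (N.hvar ℓ E i ((F + N.P6sh ℓ c p E) i)) :=
  (P6_sees_iff _ _ _ _).mpr ⟨rfl, hE, rfl⟩

/-- (c) C1. -/
theorem P6_C1 (hk : 2 ≤ k) (hD : ¬ N.DerGoal) {W : Finset (N.Ax ℓ)}
    (hWv : ∀ y ∈ W, N.AxValid ℓ y) (hcrit : ∀ i, ∃ y ∈ W, row y = i) (hW : W.card ≤ k + 1)
    {x : N.Ax ℓ} (hx : x ∈ W) (hx1 : ∀ y ∈ W, row y = row x → y = x) {f : N.Form ℓ}
    (hf : f ∈ N.Lc ℓ W) (hfV : ∀ v, (¬ ∃ y ∈ W, y ≠ x ∧ ∃ b, N.axSlot ℓ y b = some v) →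
      f (some v) = 0) : f ∈ N.Aj ℓ (row x) := by
  classical
  obtain ⟨S, K, hS, hK, hfe⟩ := P6_decomp hf
  have hone : ∀ E F F', (E, F) ∈ K → (E, F') ∈ K → F = F' := fun E F F' h h' =>
    P6_one_ctx (by omega) hcrit hW (P6_known_ctx (hK _ h).1) (P6_known_ctx (hK _ h').1)
      (hK _ h).2 (hK _ h').2
  have hvecS : ∀ y ∈ S, y ≠ x → N.vec ℓ y ∈ N.Aj ℓ (row x) := by
    intro y hy hyx
    refine Submodule.subset_span (Or.inl ⟨y, hWv y (hS y hy), ?_, rfl⟩)
    intro h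
    exact hyx (hx1 y (hS y hy) h)
  -- the row of x
  have hcoef : ∀ E a, f (some (N.hvar ℓ E (row x) a)) = 0 := by
    intro E a
    apply hfV
    rintro ⟨y, hy, hyx, hb⟩
    exact hyx (hx1 y hy ((P6_sees_iff _ _ _ _).mp hb).1.symm)
  have hsumS : ∀ E a, (∑ y ∈ S, N.vec ℓ y) (some (N.hvar ℓ E (row x) a)) =
      if x ∈ S ∧ N.P6Inc ℓ x.1 x.2.1 E ∧ a = x.2.2.2 + N.P6sh ℓ x.1 x.2.1 E (row x)
      then 1 else 0 := by
    intro E a
    rw [Finset.sum_apply]
    have h1 : ∀ y ∈ S, N.vec ℓ y (some (N.hvar ℓ E (row x) a)) =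
        if x = y then (if N.P6Inc ℓ x.1 x.2.1 E ∧ a = x.2.2.2 + N.P6sh ℓ x.1 x.2.1 E (row x)
          then 1 else 0) else 0 := by
      intro y hy
      rw [P6_vec_hvar]
      by_cases hyx : x = y
      · subst hyx
        rw [if_pos rfl]
        exact if_congr ⟨fun h => h.2, fun h => ⟨rfl, h⟩⟩ rfl rfl
      · rw [if_neg hyx, if_neg]
        intro h
        exact hyx (hx1 y (hS y hy) h.1.symm).symm
    rw [Finset.sum_congr rfl h1, Finset.sum_ite_eq]
    by_cases hxS : x ∈ S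
    · rw [if_pos hxS]
      exact if_congr ⟨fun h => ⟨hxS, h⟩, fun h => h.2⟩ rfl rfl
    · rw [if_neg hxS, if_neg fun h => hxS h.1]
  have htot : ∀ E a, (∑ y ∈ S, N.vec ℓ y) (some (N.hvar ℓ E (row x) a)) +
      (∑ κ ∈ K, N.P6e ℓ κ) (some (N.hvar ℓ E (row x) a)) = 0 := by
    intro E a
    rw [← Pi.add_apply, ← hfe]
    exact hcoef E a
  by_cases hxS : x ∈ S
  · -- the element x occurs
    obtain ⟨l0, s0, hE0, hsh0⟩ := P6_exists_inner (N := N) (ℓ := ℓ) x.1 x.2.1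
    -- every edge at the node is in K
    have hex : ∀ E, N.P6Inc ℓ x.1 x.2.1 E → ∃ F, (E, F) ∈ K ∧
        x.2.2.2 + N.P6sh ℓ x.1 x.2.1 E (row x) = F (row x) := by
      intro E hE
      by_contra hcon
      have h1 := htot E (x.2.2.2 + N.P6sh ℓ x.1 x.2.1 E (row x))
      rw [hsumS, if_pos ⟨hxS, hE, rfl⟩, P6_sumK_zero, add_zero] at h1
      · exact one_ne_zero h1
      · intro F hF h
        exact hcon ⟨F, hF, h⟩
    obtain ⟨F, hFK, hFx⟩ := hex _ hE0
    have hFx' : F (row x) = x.2.2.2 := by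
      rw [← hFx]
      show x.2.2.2 + 0 = _
      rw [add_zero]
    have hFctx := P6_known_ctx (hK _ hFK).1
    -- all rows of F come from pebbles of the clause
    have hpeb : ∀ i, ∃ y ∈ W, row y = i ∧ y.1 = x.1 ∧ y.2.2.2 = F i ∧
        N.P6Inc ℓ y.1 y.2.1 (.inner x.1 l0 s0) := by
      intro i
      obtain ⟨y, hy, hyi, hb⟩ := (hK _ hFK).2 i
      obtain ⟨-, h2, h3⟩ := (P6_sees_iff _ _ _ _).mp hb
      dsimp only at h2 h3
      refine ⟨y, hy, hyi, h2.1.symm, ?_, h2⟩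
      rw [h3]
      show _ = _ + 0
      rw [add_zero]
    have hFA : N.Allowed x.1 F := by
      intro i m him
      obtain ⟨y, hy, hyi, hyc, hyF, -⟩ := hpeb i
      have hv := (hWv y hy).2.2.2 m (by
        intro h
        exact him (hyi.symm.trans h.symm))
      have hyi' : y.2.2.1 = i := hyi
      rw [hyc, hyi', hyF] at hv
      exact hv
    -- the local contexts
    have hloc : ∀ E, N.P6Inc ℓ x.1 x.2.1 E → ∀ F', (E, F') ∈ K →
        F' = F + N.P6sh ℓ x.1 x.2.1 E := by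
      intro E hE F' hF'
      obtain ⟨i0, hi0⟩ := P6_rows (by omega) W hcrit hW
      refine P6_ctx_ext (P6_known_ctx (hK _ hF').1) (P6_isCtx_add hFctx) i0 fun i hi => ?_
      obtain ⟨y, hy, hyi, hyc, hyF, hyE0⟩ := hpeb i
      obtain ⟨y', hy', hyi', hb'⟩ := (hK _ hF').2 i
      have := hi0 i hi y hy y' hy' hyi hyi'
      subst this
      obtain ⟨-, h2, h3⟩ := (P6_sees_iff _ _ _ _).mp hb'
      dsimp only at h2 h3
      rw [hyc] at h2 hyE0
      have h4 := hsh0 _ hyE0 _ hE h2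
      show F' i = F i + N.P6sh ℓ x.1 x.2.1 E i
      rw [h3, hyF, hyc, h4, hyi]
    have hKeq : K = (N.P6incs ℓ x.1 x.2.1).image fun E => (E, F + N.P6sh ℓ x.1 x.2.1 E) := by
      ext ⟨E, F'⟩
      rw [mem_image]
      constructor
      · intro hF'
        have hE : N.P6Inc ℓ x.1 x.2.1 E := by
          by_contra hE
          have h1 := htot E (F' (row x))
          rw [hsumS, if_neg fun h => hE h.2.1, P6_sumK_one hone hF', zero_add] at h1
          exact one_ne_zero h1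
        exact ⟨E, P6_mem_incs.mpr hE, by rw [hloc E hE F' hF']⟩
      · rintro ⟨E', hE', he⟩
        obtain ⟨rfl, rfl⟩ := Prod.mk.inj he
        obtain ⟨F'', hF'', -⟩ := hex _ (P6_mem_incs.mp hE')
        rw [hloc _ (P6_mem_incs.mp hE') _ hF''] at hF''
        exact hF''
    have hKn : ∀ E ∈ N.P6incs ℓ x.1 x.2.1, N.Known ℓ E (F + N.P6sh ℓ x.1 x.2.1 E) := by
      intro E hE
      have : (E, F + N.P6sh ℓ x.1 x.2.1 E) ∈ K := by
        rw [hKeq]
        exact mem_image.mpr ⟨E, hE, rfl⟩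
      exact (hK _ this).1
    have hxv := hWv x hx
    have hsum := P6_node_sum hk hD hxv.1 hFctx hFA hKn
    have hKsum : ∑ κ ∈ K, N.P6e ℓ κ =
        ∑ E ∈ N.P6incs ℓ x.1 x.2.1, N.P6e ℓ (E, F + N.P6sh ℓ x.1 x.2.1 E) := by
      rw [hKeq, Finset.sum_image]
      intro E _ E' _ h
      exact (Prod.mk.inj h).1
    have hxe : N.vec ℓ (x.1, x.2.1, row x, F (row x)) = N.vec ℓ x := by
      rw [hFx']
      rfl
    rw [hfe, hKsum, ← hsum, ← Finset.add_sum_erase S _ hxS,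
      ← Finset.add_sum_erase univ _ (mem_univ (row x)), hxe]
    have h2 : N.vec ℓ x + N.vec ℓ x = 0 := by
      funext v
      exact CharTwo.add_self_eq_zero _
    have h3 : N.vec ℓ x + ∑ y ∈ S.erase x, N.vec ℓ y +
        (N.vec ℓ x + ∑ i ∈ univ.erase (row x), N.vec ℓ (x.1, x.2.1, i, F i)) =
        ∑ y ∈ S.erase x, N.vec ℓ y + ∑ i ∈ univ.erase (row x), N.vec ℓ (x.1, x.2.1, i, F i) +
        (N.vec ℓ x + N.vec ℓ x) := by abel
    rw [h3, h2, add_zero]
    refine Submodule.add_mem _ (Submodule.sum_mem _ fun y hy => ?_)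
      (Submodule.sum_mem _ fun i hi => ?_)
    · exact hvecS y (mem_of_mem_erase hy) (ne_of_mem_erase hy)
    · exact Submodule.subset_span (Or.inl ⟨_, P6_valid hxv.1 hxv.2.1 hFctx hFA i,
        ne_of_mem_erase hi, rfl⟩)
  · -- the element x does not occur
    have hKe : K = ∅ := by
      rw [Finset.eq_empty_iff_forall_notMem]
      rintro ⟨E, F⟩ hF
      have h1 := htot E (F (row x))
      rw [hsumS, if_neg fun h => hxS h.1, P6_sumK_one hone hF, zero_add] at h1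
      exact one_ne_zero h1
    rw [hfe, hKe, Finset.sum_empty, add_zero]
    refine Submodule.sum_mem _ fun y hy => hvecS y hy ?_
    rintro rfl
    exact hxS hy

theorem P6_symm_sum {ι : Type*} [DecidableEq ι] (L : Submodule (ZMod 2) (N.Form ℓ))
    (g : ι → N.Form ℓ) (A B : Finset ι) (hA : ∀ κ ∈ A, κ ∉ B → g κ ∈ L)
    (hB : ∀ κ ∈ B, κ ∉ A → g κ ∈ L) : ∑ κ ∈ A, g κ + ∑ κ ∈ B, g κ ∈ L := by
  have h1 := Finset.sum_inter_add_sum_sdiff A B g
  have h2 := Finset.sum_inter_add_sum_sdiff B A g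
  rw [← h1, ← h2, Finset.inter_comm B A]
  have h3 : ∑ κ ∈ A ∩ B, g κ + ∑ κ ∈ A ∩ B, g κ = 0 := by
    funext v
    exact CharTwo.add_self_eq_zero _
  have h4 : ∑ κ ∈ A ∩ B, g κ + ∑ κ ∈ A \ B, g κ + (∑ κ ∈ A ∩ B, g κ + ∑ κ ∈ B \ A, g κ) =
      ∑ κ ∈ A \ B, g κ + ∑ κ ∈ B \ A, g κ + (∑ κ ∈ A ∩ B, g κ + ∑ κ ∈ A ∩ B, g κ) := by abel
  rw [h4, h3, add_zero]
  refine Submodule.add_mem _ (Submodule.sum_mem _ fun κ hκ => ?_)
    (Submodule.sum_mem _ fun κ hκ => ?_)
  · exact hA κ (mem_sdiff.mp hκ).1 (mem_sdiff.mp hκ).2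
  · exact hB κ (mem_sdiff.mp hκ).1 (mem_sdiff.mp hκ).2

/-- (d) C2. -/
theorem P6_C2 (hk : 2 ≤ k) (hD : ¬ N.DerGoal) {W Wp : Finset (N.Ax ℓ)}
    (hWv : ∀ y ∈ W, N.AxValid ℓ y) (hcrit : ∀ i, ∃ y ∈ W, row y = i) (hW : W.card ≤ k)
    {y1 : N.Ax ℓ} (hy1v : N.AxValid ℓ y1) (hy1 : y1 ∉ W)
    (hWp : ∀ y, y ∈ Wp ↔ y = y1 ∨ y ∈ W) {f : N.Form ℓ} (hf : f ∈ N.Lc ℓ Wp)
    (hfV : f ∈ N.VW ℓ W) : f ∈ N.Lc ℓ W := by
  classical
  have hWpe : Wp = insert y1 W := by
    ext y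
    rw [hWp, mem_insert]
  have hWpc : Wp.card ≤ k + 1 := by
    rw [hWpe]
    exact (Finset.card_insert_le _ _).trans (by omega)
  have hWpcrit : ∀ i, ∃ y ∈ Wp, row y = i := by
    intro i
    obtain ⟨y, hy, hyi⟩ := hcrit i
    exact ⟨y, (hWp y).mpr (Or.inr hy), hyi⟩
  obtain ⟨S, K, hS, hK, hfe⟩ := P6_decomp hf
  have hone : ∀ E F F', (E, F) ∈ K → (E, F') ∈ K → F = F' := fun E F F' h h' =>
    P6_one_ctx (by omega) hWpcrit hWpc (P6_known_ctx (hK _ h).1) (P6_known_ctx (hK _ h').1)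
      (hK _ h).2 (hK _ h').2
  have hsingle := P6_rows_single W hcrit hW
  obtain ⟨y2, hy2, hy2r⟩ := hcrit (row y1)
  have hcoef : ∀ v, (¬ ∃ y ∈ W, ∃ b, N.axSlot ℓ y b = some v) → f (some v) = 0 := hfV
  have hWpW : ∀ y ∈ Wp, row y ≠ row y1 → y ∈ W := by
    intro y hy hr
    rcases (hWp y).mp hy with rfl | h
    · exact absurd rfl hr
    · exact h
  -- visibility
  have hvis : ∀ κ ∈ K, ¬ N.Visible ℓ W κ.1 κ.2 →
      (∃ b, N.axSlot ℓ y1 b = some (N.hvar ℓ κ.1 (row y1) (κ.2 (row y1)))) ∧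
      ¬ ∃ b, N.axSlot ℓ y2 b = some (N.hvar ℓ κ.1 (row y1) (κ.2 (row y1))) := by
    intro κ hκ hnv
    have h2 : ¬ ∃ b, N.axSlot ℓ y2 b = some (N.hvar ℓ κ.1 (row y1) (κ.2 (row y1))) := by
      intro hs
      apply hnv
      intro i
      by_cases hi : i = row y1
      · exact ⟨y2, hy2, hy2r.trans hi.symm, by rw [hi]; exact hs⟩
      · obtain ⟨y, hy, hyi, hb⟩ := (hK κ hκ).2 i
        exact ⟨y, hWpW y hy (by rw [hyi]; exact hi), hyi, hb⟩
    refine ⟨?_, h2⟩
    obtain ⟨y, hy, hyi, hb⟩ := (hK κ hκ).2 (row y1)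
    rcases (hWp y).mp hy with rfl | h
    · exact hb
    · have := hsingle y h y2 hy2 (hyi.trans hy2r.symm)
      subst this
      exact absurd hb h2
  -- coefficients of the sum over S
  have hsumS : ∀ E a, (¬ ∃ b, N.axSlot ℓ y2 b = some (N.hvar ℓ E (row y1) a)) →
      (∑ y ∈ S, N.vec ℓ y) (some (N.hvar ℓ E (row y1) a)) =
      if y1 ∈ S ∧ N.P6Inc ℓ y1.1 y1.2.1 E ∧ a = y1.2.2.2 + N.P6sh ℓ y1.1 y1.2.1 E (row y1)
      then 1 else 0 := by
    intro E a hns
    rw [Finset.sum_apply]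
    have h1 : ∀ y ∈ S, N.vec ℓ y (some (N.hvar ℓ E (row y1) a)) =
        if y1 = y then (if N.P6Inc ℓ y1.1 y1.2.1 E ∧
          a = y1.2.2.2 + N.P6sh ℓ y1.1 y1.2.1 E (row y1) then 1 else 0) else 0 := by
      intro y hy
      rw [P6_vec_hvar]
      by_cases hyx : y1 = y
      · subst hyx
        rw [if_pos rfl]
        exact if_congr ⟨fun h => h.2, fun h => ⟨rfl, h⟩⟩ rfl rfl
      · rw [if_neg hyx, if_neg]
        intro h
        have hyW : y ∈ W := by
          rcases (hWp y).mp (hS y hy) with h' | h'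
          · exact absurd h'.symm hyx
          · exact h'
        have := hsingle y hyW y2 hy2 (h.1.symm.trans hy2r.symm)
        subst this
        exact hns ((P6_sees_iff _ _ _ _).mpr h)
    rw [Finset.sum_congr rfl h1, Finset.sum_ite_eq]
    by_cases hxS : y1 ∈ S
    · rw [if_pos hxS]
      exact if_congr ⟨fun h => ⟨hxS, h⟩, fun h => h.2⟩ rfl rfl
    · rw [if_neg hxS, if_neg fun h => hxS h.1]
  have htot : ∀ E a, (¬ ∃ b, N.axSlot ℓ y2 b = some (N.hvar ℓ E (row y1) a)) →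
      (∑ y ∈ S, N.vec ℓ y) (some (N.hvar ℓ E (row y1) a)) +
      (∑ κ ∈ K, N.P6e ℓ κ) (some (N.hvar ℓ E (row y1) a)) = 0 := by
    intro E a hns
    rw [← Pi.add_apply, ← hfe]
    apply hcoef
    rintro ⟨y, hy, hb⟩
    have := hsingle y hy y2 hy2 (((P6_sees_iff _ _ _ _).mp hb).1.symm.trans hy2r.symm)
    subst this
    exact hns hb
  by_cases hy1S : y1 ∈ S
  swap
  · have hvisW : ∀ κ ∈ K, N.Visible ℓ W κ.1 κ.2 := by
      intro κ hκ
      by_contra hnv
      obtain ⟨-, hs2⟩ := hvis κ hκ hnv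
      have h1 := htot κ.1 _ hs2
      rw [hsumS _ _ hs2, if_neg fun h => hy1S h.1, P6_sumK_one hone hκ, zero_add] at h1
      exact one_ne_zero h1
    rw [hfe]
    refine Submodule.add_mem _ (Submodule.sum_mem _ fun y hy => ?_)
      (Submodule.sum_mem _ fun κ hκ => P6_e_mem_Lc (hK κ hκ).1 (hvisW κ hκ))
    refine P6_vec_mem_Lc ?_
    rcases (hWp y).mp (hS y hy) with rfl | h
    · exact absurd hy hy1S
    · exact h
  -- the element y1 occurs
  have hex : ∀ E, N.P6Inc ℓ y1.1 y1.2.1 E →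
      (¬ ∃ b, N.axSlot ℓ y2 b = some (N.hvar ℓ E (row y1)
        (y1.2.2.2 + N.P6sh ℓ y1.1 y1.2.1 E (row y1)))) →
      ∃ F, (E, F) ∈ K ∧ y1.2.2.2 + N.P6sh ℓ y1.1 y1.2.1 E (row y1) = F (row y1) := by
    intro E hE hns
    by_contra hcon
    have h1 := htot E _ hns
    rw [hsumS _ _ hns, if_pos ⟨hy1S, hE, rfl⟩, P6_sumK_zero, add_zero] at h1
    · exact one_ne_zero h1
    · intro F hF h
      exact hcon ⟨F, hF, h⟩
  have hy2v := hWv y2 hy2
  have hrow2 : y2.2.2.1 = y1.2.2.1 := hy2r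
  have hne12 : y2 ≠ y1 := by
    rintro rfl
    exact hy1 hy2
  have hnode2 : ∀ E, y2.1 = y1.1 → y2.2.1 = y1.2.1 →
      ¬ ∃ b, N.axSlot ℓ y2 b = some (N.hvar ℓ E (row y1)
        (y1.2.2.2 + N.P6sh ℓ y1.1 y1.2.1 E (row y1))) := by
    intro E h1 h2 hs
    obtain ⟨-, -, h3⟩ := (P6_sees_iff _ _ _ _).mp hs
    rw [h1, h2, hy2r] at h3
    have h4 := add_right_cancel h3
    exact hne12 (Prod.ext h1 (Prod.ext h2 (Prod.ext hrow2 h4.symm)))
  -- (α) the other pebbles are at the node of y1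
  have hα : ∀ y ∈ W, row y ≠ row y1 → y.1 = y1.1 ∧ y.2.1 = y1.2.1 := by
    intro y hy hyr
    by_cases hn : y2.1 = y1.1 ∧ y2.2.1 = y1.2.1
    · have hInc : ∀ E, N.P6Inc ℓ y1.1 y1.2.1 E → N.P6Inc ℓ y.1 y.2.1 E := by
        intro E hE
        obtain ⟨F, hF, -⟩ := hex E hE (hnode2 E hn.1 hn.2)
        obtain ⟨z, hz, hzi, hb⟩ := (hK _ hF).2 (row y)
        have hzW := hWpW z hz (by rw [hzi]; exact hyr)
        have := hsingle z hzW y hy hzi
        subst this
        exact ((P6_sees_iff _ _ _ _).mp hb).2.1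
      rcases P6_deg (N := N) (ℓ := ℓ) y1.1 y1.2.1 with ⟨E, E', hne, hE, hE'⟩ | h0
      · exact P6_two hy1v.1 (hWv y hy).1 hne hE hE' (hInc E hE) (hInc E' hE')
      · exfalso
        apply hne12
        refine Prod.ext hn.1 (Prod.ext hn.2 (Prod.ext hrow2 ?_))
        funext m
        by_cases hm : m = y1.2.2.1
        · rw [hm]
          have h1 := hy1v.2.2.1
          have h2 := hy2v.2.2.1
          rw [hrow2] at h2
          rw [h1, h2]
        · have h1 := hy1v.2.2.2 m hm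
          have h2 := hy2v.2.2.2 m (by rw [hrow2]; exact hm)
          rw [hn.1, hrow2] at h2
          exact N.single y1.1 h0 y1.2.2.1 m (fun h => hm h.symm) _ _ h2 h1
    · -- vertical variable
      by_cases hsee : ∃ b, N.axSlot ℓ y b = some (.vert y1.1 y1.2.1.1 y1.2.1.2
          s(row y1, row y) (y1.2.2.2 (row y)))
      · obtain ⟨h1, h2, -⟩ := (P6_vert_iff _ _ _ _ _ _).mp hsee
        exact ⟨h1, h2⟩
      · exfalso
        have hnW : ¬ ∃ z ∈ W, ∃ b, N.axSlot ℓ z b = some (.vert y1.1 y1.2.1.1 y1.2.1.2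
            s(row y1, row y) (y1.2.2.2 (row y))) := by
          rintro ⟨z, hz, hb⟩
          obtain ⟨h1, h2, m, hm, he, hd⟩ := (P6_vert_iff _ _ _ _ _ _).mp hb
          rcases Sym2.eq_iff.mp he with ⟨h3, h4⟩ | ⟨h3, h4⟩
          · have := hsingle z hz y2 hy2 (h3.symm.trans hy2r.symm)
            subst this
            exact hn ⟨h1, h2⟩
          · have := hsingle z hz y hy h4.symm
            subst this
            exact hsee hb
        have h1 := hcoef _ hnW
        rw [hfe, Pi.add_apply, P6_sumK_vert, add_zero, Finset.sum_apply,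
          Finset.sum_eq_single y1, P6_vec_vert, if_pos] at h1
        · exact one_ne_zero h1
        · exact ⟨rfl, rfl, row y, hyr, rfl, rfl⟩
        · intro z hz hzne
          have hzW : z ∈ W := by
            rcases (hWp z).mp (hS z hz) with h | h
            · exact absurd h hzne
            · exact h
          rw [P6_vec_vert, if_neg]
          intro h
          exact hnW ⟨z, hzW, (P6_vert_iff _ _ _ _ _ _).mpr h⟩
        · intro h
          exact absurd hy1S h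
  -- the context
  obtain ⟨F, hFdef⟩ : ∃ F : Fin k → Fin k → N.Λ, F = fun i =>
      if i = row y1 then y1.2.2.2 else (hcrit i).choose.2.2.2 := ⟨_, rfl⟩
  have hF1 : F (row y1) = y1.2.2.2 := by
    rw [hFdef]
    exact if_pos rfl
  have hy1e : y1 = (y1.1, y1.2.1, row y1, F (row y1)) := by
    rw [hF1]
    rfl
  have hFW : ∀ y ∈ W, row y ≠ row y1 → y = (y1.1, y1.2.1, row y, F (row y)) := by
    intro y hy hyr
    obtain ⟨h1, h2⟩ := hα y hy hyr
    have hFy : F (row y) = y.2.2.2 := by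
      rw [hFdef]
      simp only [if_neg hyr]
      have hc := (hcrit (row y)).choose_spec
      rw [hsingle _ hc.1 y hy hc.2]
    rw [hFy, ← h1, ← h2]
    rfl
  have hFval : ∀ i, N.AxValid ℓ (y1.1, y1.2.1, i, F i) := by
    intro i
    by_cases hi : i = row y1
    · rw [hi, ← hy1e]
      exact hy1v
    · obtain ⟨y, hy, hyi⟩ := hcrit i
      have := hFW y hy (by rw [hyi]; exact hi)
      rw [hyi] at this
      rw [← this]
      exact hWv y hy
  have hFmem : ∀ i, i ≠ row y1 → ((y1.1, y1.2.1, i, F i) : N.Ax ℓ) ∈ W := by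
    intro i hi
    obtain ⟨y, hy, hyi⟩ := hcrit i
    have := hFW y hy (by rw [hyi]; exact hi)
    rw [hyi] at this
    rw [← this]
    exact hy
  have hFA : N.Allowed y1.1 F := fun i m him => (hFval i).2.2.2 m him.symm
  have hFd : ∀ i, F i i = 0 := fun i => (hFval i).2.2.1
  have hloc : ∀ E, N.P6Inc ℓ y1.1 y1.2.1 E → ∀ F', (E, F') ∈ K →
      y1.2.2.2 + N.P6sh ℓ y1.1 y1.2.1 E (row y1) = F' (row y1) →
      F' = F + N.P6sh ℓ y1.1 y1.2.1 E := by
    intro E hE F' hF' he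
    funext i
    by_cases hi : i = row y1
    · rw [hi, ← he, ← hF1]
      rfl
    · obtain ⟨z, hz, hzi, hb⟩ := (hK _ hF').2 i
      have hzr : row z ≠ row y1 := by rw [hzi]; exact hi
      have hze := hFW z (hWpW z hz hzr) hzr
      rw [hzi] at hze
      rw [hze] at hb
      exact ((P6_sees_iff _ _ _ _).mp hb).2.2
  have hFctx : N.IsCtx F := by
    refine ⟨?_, hFd⟩
    by_cases h : ∃ E, N.P6Inc ℓ y1.1 y1.2.1 E ∧ ∃ F', (E, F') ∈ K ∧
        y1.2.2.2 + N.P6sh ℓ y1.1 y1.2.1 E (row y1) = F' (row y1)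
    · obtain ⟨E, hE, F', hF', he⟩ := h
      have h1 := (P6_known_ctx (hK _ hF').1).1
      dsimp only at h1
      rw [hloc E hE F' hF' he] at h1
      intro i m
      have h2 := h1 i m
      have hshs : ∀ i m, N.P6sh ℓ y1.1 y1.2.1 E i m = N.P6sh ℓ y1.1 y1.2.1 E m i := by
        intro i m
        cases E with
        | inner c l s => rfl
        | main st => exact N.sh_symm _ _ _ _
      have h3 : F i m + N.P6sh ℓ y1.1 y1.2.1 E i m = F m i + N.P6sh ℓ y1.1 y1.2.1 E m i := h2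
      rw [hshs i m] at h3
      exact add_right_cancel h3
    · have hs : ∀ E, N.P6Inc ℓ y1.1 y1.2.1 E →
          ∃ b, N.axSlot ℓ y2 b = some (N.hvar ℓ E (row y1)
            (y1.2.2.2 + N.P6sh ℓ y1.1 y1.2.1 E (row y1))) := by
        intro E hE
        by_contra hns
        exact h ⟨E, hE, hex E hE hns⟩
      obtain ⟨l0, s0, hE0, -⟩ := P6_exists_inner (N := N) (ℓ := ℓ) y1.1 y1.2.1
      rcases P6_deg (N := N) (ℓ := ℓ) y1.1 y1.2.1 with ⟨E, E', hne, hE, hE'⟩ | h0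
      · exfalso
        obtain ⟨h1, h2⟩ := P6_two hy1v.1 hy2v.1 hne hE hE'
          ((P6_sees_iff _ _ _ _).mp (hs E hE)).2.1 ((P6_sees_iff _ _ _ _).mp (hs E' hE')).2.1
        exact hnode2 _ h1 h2 (hs _ hE0)
      · intro i m
        by_cases him : i = m
        · rw [him]
        · exact N.single y1.1 h0 i m him _ _ (hFA i m him)
            (N.cond_symm _ _ _ _ (hFA m i fun h => him h.symm))
  -- all edges at the node of y1 are known
  have hKK : ∀ E, N.P6Inc ℓ y1.1 y1.2.1 E → (∃ F', (E, F') ∈ K ∧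
      y1.2.2.2 + N.P6sh ℓ y1.1 y1.2.1 E (row y1) = F' (row y1)) →
      (E, F + N.P6sh ℓ y1.1 y1.2.1 E) ∈ K := by
    rintro E hE ⟨F', hF', he⟩
    rw [hloc E hE F' hF' he] at hF'
    exact hF'
  have hKn : ∀ E, N.P6Inc ℓ y1.1 y1.2.1 E → N.Known ℓ E (F + N.P6sh ℓ y1.1 y1.2.1 E) := by
    by_cases hall : ∀ E, N.P6Inc ℓ y1.1 y1.2.1 E → ∃ F', (E, F') ∈ K ∧
        y1.2.2.2 + N.P6sh ℓ y1.1 y1.2.1 E (row y1) = F' (row y1)
    · intro E hE
      exact (hK _ (hKK E hE (hall E hE))).1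
    · push Not at hall
      obtain ⟨Es, hEs, hnone⟩ := hall
      have hsEs : ∃ b, N.axSlot ℓ y2 b = some (N.hvar ℓ Es (row y1)
          (y1.2.2.2 + N.P6sh ℓ y1.1 y1.2.1 Es (row y1))) := by
        by_contra hns
        obtain ⟨F', hF', he⟩ := hex Es hEs hns
        exact hnone F' hF' he
      have hother : ∀ E, N.P6Inc ℓ y1.1 y1.2.1 E → E ≠ Es →
          N.Known ℓ E (F + N.P6sh ℓ y1.1 y1.2.1 E) := by
        intro E hE hne
        refine (hK _ (hKK E hE (hex E hE ?_))).1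
        intro hs
        obtain ⟨h1, h2⟩ := P6_two hy1v.1 hy2v.1 hne hE hEs
          ((P6_sees_iff _ _ _ _).mp hs).2.1 ((P6_sees_iff _ _ _ _).mp hsEs).2.1
        exact hnode2 _ h1 h2 hs
      intro E hE
      by_cases hne : E = Es
      · subst hne
        exact P6_b2 hFctx hFA hE hother
      · exact hother E hE hne
  have hsum := P6_node_sum hk hD hy1v.1 hFctx hFA fun E hE => hKn E (P6_mem_incs.mp hE)
  have hI : ∑ E ∈ N.P6incs ℓ y1.1 y1.2.1, N.P6e ℓ (E, F + N.P6sh ℓ y1.1 y1.2.1 E) =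
      ∑ κ ∈ (N.P6incs ℓ y1.1 y1.2.1).image (fun E => (E, F + N.P6sh ℓ y1.1 y1.2.1 E)),
        N.P6e ℓ κ := by
    rw [Finset.sum_image]
    intro E _ E' _ h
    exact (Prod.mk.inj h).1
  rw [hI, ← Finset.add_sum_erase univ _ (mem_univ (row y1)), ← hy1e] at hsum
  have hsymm := P6_symm_sum (N.Lc ℓ W) (N.P6e ℓ)
    ((N.P6incs ℓ y1.1 y1.2.1).image (fun E => (E, F + N.P6sh ℓ y1.1 y1.2.1 E))) K
    (by
      intro κ hκ hκK
      obtain ⟨E, hE, rfl⟩ := mem_image.mp hκ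
      have hE' := P6_mem_incs.mp hE
      have hs : ∃ b, N.axSlot ℓ y2 b = some (N.hvar ℓ E (row y1)
          (y1.2.2.2 + N.P6sh ℓ y1.1 y1.2.1 E (row y1))) := by
        by_contra hns
        exact hκK (hKK E hE' (hex E hE' hns))
      refine P6_e_mem_Lc (hKn E hE') ?_
      intro i
      by_cases hi : i = row y1
      · refine ⟨y2, hy2, hy2r.trans hi.symm, ?_⟩
        subst hi
        have : (F + N.P6sh ℓ y1.1 y1.2.1 E) (row y1) =
            y1.2.2.2 + N.P6sh ℓ y1.1 y1.2.1 E (row y1) := by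
          rw [Pi.add_apply, hF1]
        dsimp only
        rw [this]
        exact hs
      · exact ⟨_, hFmem i hi, rfl, P6_sees_self _ _ F i hE'⟩)
    (by
      intro κ hκ hκI
      refine P6_e_mem_Lc (hK κ hκ).1 ?_
      by_contra hnv
      obtain ⟨hs1, -⟩ := hvis κ hκ hnv
      obtain ⟨-, hE, he⟩ := (P6_sees_iff _ _ _ _).mp hs1
      apply hκI
      refine mem_image.mpr ⟨κ.1, P6_mem_incs.mpr hE, ?_⟩
      rw [← hloc κ.1 hE κ.2 hκ he.symm])
  have hfin : f = ∑ y ∈ S.erase y1, N.vec ℓ y +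
      ∑ i ∈ univ.erase (row y1), N.vec ℓ (y1.1, y1.2.1, i, F i) +
      (∑ κ ∈ (N.P6incs ℓ y1.1 y1.2.1).image (fun E => (E, F + N.P6sh ℓ y1.1 y1.2.1 E)),
        N.P6e ℓ κ + ∑ κ ∈ K, N.P6e ℓ κ) := by
    rw [← hsum, hfe, ← Finset.add_sum_erase S _ hy1S]
    have h2 : ∑ i ∈ univ.erase (row y1), N.vec ℓ (y1.1, y1.2.1, i, F i) +
        ∑ i ∈ univ.erase (row y1), N.vec ℓ (y1.1, y1.2.1, i, F i) = 0 := by
      funext v
      exact CharTwo.add_self_eq_zero _
    have h3 : ∑ y ∈ S.erase y1, N.vec ℓ y +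
        ∑ i ∈ univ.erase (row y1), N.vec ℓ (y1.1, y1.2.1, i, F i) +
        (N.vec ℓ y1 + ∑ i ∈ univ.erase (row y1), N.vec ℓ (y1.1, y1.2.1, i, F i) +
        ∑ κ ∈ K, N.P6e ℓ κ) = N.vec ℓ y1 + ∑ y ∈ S.erase y1, N.vec ℓ y + ∑ κ ∈ K, N.P6e ℓ κ +
        (∑ i ∈ univ.erase (row y1), N.vec ℓ (y1.1, y1.2.1, i, F i) +
        ∑ i ∈ univ.erase (row y1), N.vec ℓ (y1.1, y1.2.1, i, F i)) := by abel
    rw [h3, h2, add_zero]
  rw [hfin]
  refine Submodule.add_mem _ (Submodule.add_mem _ (Submodule.sum_mem _ fun y hy => ?_)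
    (Submodule.sum_mem _ fun i hi => ?_)) hsymm
  · refine P6_vec_mem_Lc ?_
    rcases (hWp y).mp (hS y (mem_of_mem_erase hy)) with h | h
    · exact absurd h (ne_of_mem_erase hy)
    · exact h
  · exact P6_vec_mem_Lc (hFmem i (ne_of_mem_erase hi))

end Net

end Vale.Agent.P310
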