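import Vale.Agent.P310.SpanCore

/-!
# P310, package P5a: normal form of the elements of `V_W ∩ A_j`
-/

namespace Vale.Agent.P310

namespace Net

open Finset

variable {k : ℕ} (N : Net k) (ℓ : ℕ)

namespace P5a

open P5b

/-- Nodes. -/
abbrev Nd : Type := N.C × (Fin 7 × Fin (ℓ + 1))

/-- Chains. -/
abbrev Ch : Type := Fin k → (Fin k → N.Λ) → ZMod 2

variable {N} {ℓ}

/-- The axiom of a node, a row and a content. -/
def axm (n : Nd N ℓ) (i : Fin k) (a : Fin k → N.Λ) : N.Ax ℓ := (n.1, n.2, i, a)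

/-- Closed chains with empty row `j`. -/
def Zj (j : Fin k) : Submodule (ZMod 2) (Ch N) where
  carrier := {z | N.IsZ z ∧ ∀ a, z j a = 0}
  add_mem' := by
    rintro z z' ⟨⟨h1, h2⟩, h3⟩ ⟨⟨h1', h2'⟩, h3'⟩
    refine ⟨⟨fun i a ha => ?_, fun i m him d => ?_⟩, fun a => ?_⟩
    · show z i a + z' i a = 0
      rw [h1 i a ha, h1' i a ha, add_zero]
    · have e1 : ∀ (i m : Fin k), (∑ a : Fin k → N.Λ, if a m = d then (z + z') i a else 0)
          = (∑ a : Fin k → N.Λ, if a m = d then z i a else 0)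
            + ∑ a : Fin k → N.Λ, if a m = d then z' i a else 0 := by
        intro i m
        rw [← Finset.sum_add_distrib]
        refine Finset.sum_congr rfl fun a _ => ?_
        split_ifs
        · rfl
        · rw [add_zero]
      rw [e1, e1]
      have := h2 i m him d
      have := h2' i m him d
      linear_combination h2 i m him d + h2' i m him d
    · show z j a + z' j a = 0
      rw [h3, h3', add_zero]
  zero_mem' := by
    refine ⟨⟨fun i a _ => rfl, fun i m _ d => ?_⟩, fun a => rfl⟩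
    simp
  smul_mem' := by
    rintro c z ⟨⟨h1, h2⟩, h3⟩
    refine ⟨⟨fun i a ha => ?_, fun i m him d => ?_⟩, fun a => ?_⟩
    · show c * z i a = 0
      rw [h1 i a ha, mul_zero]
    · have e1 : ∀ (i m : Fin k), (∑ a : Fin k → N.Λ, if a m = d then (c • z) i a else 0)
          = c * ∑ a : Fin k → N.Λ, if a m = d then z i a else 0 := by
        intro i m
        rw [Finset.mul_sum]
        refine Finset.sum_congr rfl fun a _ => ?_
        split_ifs
        · rfl
        · rw [mul_zero]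
      rw [e1, e1, ← mul_add, h2 i m him d, mul_zero]
    · show c * z j a = 0
      rw [h3, mul_zero]

/-- The total sum of every row of a closed chain with an empty row vanishes. -/
lemma sum_row {j : Fin k} {z : Ch N} (hz : z ∈ Zj j) (i : Fin k) : ∑ a, z i a = 0 := by
  obtain ⟨⟨_, h2⟩, h3⟩ := hz
  by_cases hij : i = j
  · subst hij
    exact Finset.sum_eq_zero fun a _ => h3 a
  · have h4 : ∀ d : N.Λ, (∑ a : Fin k → N.Λ, if a j = d then z i a else 0) = 0 := by
      intro d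
      have h5 := h2 i j hij d
      have h6 : (∑ a : Fin k → N.Λ, if a i = d then z j a else 0) = 0 :=
        Finset.sum_eq_zero fun a _ => by rw [h3]; split_ifs <;> rfl
      rw [h6, add_zero] at h5
      exact h5
    calc ∑ a, z i a = ∑ a : Fin k → N.Λ, ∑ d : N.Λ, if a j = d then z i a else 0 := by
          refine Finset.sum_congr rfl fun a _ => ?_
          rw [Finset.sum_ite_eq]
          simp
      _ = ∑ d : N.Λ, ∑ a : Fin k → N.Λ, if a j = d then z i a else 0 := Finset.sum_comm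
      _ = 0 := Finset.sum_eq_zero fun d _ => h4 d

/-- The node sum. -/
noncomputable def NS (n : Nd N ℓ) (z : Ch N) : N.Form ℓ :=
  ∑ i, ∑ a, z i a • N.vec ℓ (axm n i a)

lemma NS_add (n : Nd N ℓ) (z z' : Ch N) : NS n (z + z') = NS n z + NS n z' := by
  unfold NS
  rw [← Finset.sum_add_distrib]
  refine Finset.sum_congr rfl fun i _ => ?_
  rw [← Finset.sum_add_distrib]
  refine Finset.sum_congr rfl fun a _ => ?_
  rw [← add_smul]
  rfl

lemma NS_zero (n : Nd N ℓ) : NS n (0 : Ch N) = 0 := by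
  unfold NS
  refine Finset.sum_eq_zero fun i _ => Finset.sum_eq_zero fun a _ => ?_
  show (0 : ZMod 2) • _ = _
  rw [zero_smul]

lemma NS_smul (n : Nd N ℓ) (c : ZMod 2) (z : Ch N) : NS n (c • z) = c • NS n z := by
  unfold NS
  rw [Finset.smul_sum]
  refine Finset.sum_congr rfl fun i _ => ?_
  rw [Finset.smul_sum]
  refine Finset.sum_congr rfl fun a _ => ?_
  rw [smul_smul]
  rfl

lemma NS_apply (n : Nd N ℓ) (z : Ch N) (v : Option (N.Vr ℓ)) :
    NS n z v = ∑ i, ∑ a, z i a * N.vec ℓ (axm n i a) v := by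
  unfold NS
  rw [Finset.sum_apply]
  refine Finset.sum_congr rfl fun i _ => ?_
  rw [Finset.sum_apply]
  rfl

lemma horVec_add (E : N.Ed ℓ) (z z' : Ch N) :
    N.horVec ℓ E (z + z') = N.horVec ℓ E z + N.horVec ℓ E z' := by
  funext v
  cases v with
  | none => show (0 : ZMod 2) = 0 + 0; rw [add_zero]
  | some v =>
    show N.horVec ℓ E (z + z') (some v) = N.horVec ℓ E z (some v) + N.horVec ℓ E z' (some v)
    unfold horVec
    dsimp only
    split_ifs
    · rfl
    · rw [add_zero]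

lemma horVec_smul (E : N.Ed ℓ) (c : ZMod 2) (z : Ch N) :
    N.horVec ℓ E (c • z) = c • N.horVec ℓ E z := by
  funext v
  cases v with
  | none => show (0 : ZMod 2) = c * 0; rw [mul_zero]
  | some v =>
    show N.horVec ℓ E (c • z) (some v) = c * N.horVec ℓ E z (some v)
    unfold horVec
    dsimp only
    split_ifs
    · rfl
    · rw [mul_zero]

open Classical in
/-- The chain that a chain at the node `n` induces on the edge `E`. -/
noncomputable def dlt (n : Nd N ℓ) (E : N.Ed ℓ) (z : Ch N) : Ch N :=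
  if h : ∃ σ, Inc N ℓ n.1 n.2.1 n.2.2 E σ then fun i a => z i (a - h.choose i) else 0

lemma dlt_of_inc {n : Nd N ℓ} {E : N.Ed ℓ} {σ : Fin k → Fin k → N.Λ}
    (h : Inc N ℓ n.1 n.2.1 n.2.2 E σ) (z : Ch N) (i : Fin k) (a : Fin k → N.Λ) :
    dlt n E z i a = z i (a - σ i) := by
  have h' : ∃ σ, Inc N ℓ n.1 n.2.1 n.2.2 E σ := ⟨σ, h⟩
  unfold dlt
  rw [dif_pos h', h'.choose_spec.unique h]

lemma dlt_of_not {n : Nd N ℓ} {E : N.Ed ℓ} (h : ∀ σ, ¬ Inc N ℓ n.1 n.2.1 n.2.2 E σ) (z : Ch N) :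
    dlt n E z = 0 := by
  unfold dlt
  rw [dif_neg]
  rintro ⟨σ, h'⟩
  exact h σ h'

lemma inc_symm {n : Nd N ℓ} {E : N.Ed ℓ} {σ : Fin k → Fin k → N.Λ}
    (h : Inc N ℓ n.1 n.2.1 n.2.2 E σ) : (∀ i m, σ i m = σ m i) ∧ ∀ i, σ i i = 0 := by
  cases E with
  | inner c l s =>
    rw [h.1]
    exact ⟨fun _ _ => rfl, fun _ => rfl⟩
  | main st =>
    rw [h.1]
    exact ⟨N.sh_symm _ _, N.sh_diag _ _⟩

lemma dlt_mem {j : Fin k} (n : Nd N ℓ) (E : N.Ed ℓ) {z : Ch N} (hz : z ∈ Zj j) :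
    dlt n E z ∈ Zj j := by
  by_cases h : ∃ σ, Inc N ℓ n.1 n.2.1 n.2.2 E σ
  · obtain ⟨σ, h⟩ := h
    obtain ⟨hs1, hs2⟩ := inc_symm h
    obtain ⟨⟨h1, h2⟩, h3⟩ := hz
    have h4 : ∀ (i m : Fin k) (d : N.Λ),
        (∑ a : Fin k → N.Λ, if a m = d then dlt n E z i a else 0)
          = ∑ a : Fin k → N.Λ, if a m = d - σ i m then z i a else 0 := by
      intro i m d
      refine Fintype.sum_equiv (Equiv.subRight (σ i)) _ _ fun a => ?_
      rw [dlt_of_inc h]
      simp only [Equiv.subRight_apply, Pi.sub_apply]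
      by_cases h5 : a m = d
      · rw [if_pos h5, if_pos (by rw [h5])]
      · rw [if_neg h5, if_neg (fun h6 => h5 (sub_left_inj.1 h6))]
    refine ⟨⟨fun i a ha => ?_, fun i m him d => ?_⟩, fun a => ?_⟩
    · rw [dlt_of_inc h]
      apply h1
      rw [Pi.sub_apply, hs2, sub_zero]
      exact ha
    · rw [h4, h4, hs1 m i]
      exact h2 i m him _
    · rw [dlt_of_inc h]
      exact h3 _
  · rw [dlt_of_not (fun σ hσ => h ⟨σ, hσ⟩)]
    exact Submodule.zero_mem _

/-- The value of a node sum at a horizontal variable. -/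
lemma NS_hvar (n : Nd N ℓ) (z : Ch N) (E : N.Ed ℓ) (i : Fin k) (a : Fin k → N.Λ) :
    NS n z (some (N.hvar ℓ E i a)) = dlt n E z i a := by
  rw [NS_apply]
  by_cases h : ∃ σ, Inc N ℓ n.1 n.2.1 n.2.2 E σ
  · obtain ⟨σ, h⟩ := h
    rw [dlt_of_inc h, Finset.sum_eq_single i, Finset.sum_eq_single (a - σ i)]
    · rw [vec_some_of_see, mul_one]
      exact (see_hvar_iff _ _ _ _).2 ⟨rfl, σ, h, by simp [axm]⟩
    · intro a' _ ha'
      rw [vec_some_of_not_see, mul_zero]
      intro hs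
      obtain ⟨_, σ', h1, h2⟩ := (see_hvar_iff _ _ _ _).1 hs
      have h3 : σ' = σ := Inc.unique h1 h
      rw [h3] at h2
      apply ha'
      rw [h2]
      simp [axm]
    · intro h'
      exact absurd (Finset.mem_univ _) h'
    · intro i' _ hi'
      refine Finset.sum_eq_zero fun a' _ => ?_
      rw [vec_some_of_not_see, mul_zero]
      intro hs
      exact hi' ((see_hvar_iff _ _ _ _).1 hs).1
    · intro h'
      exact absurd (Finset.mem_univ _) h'
  · rw [dlt_of_not (fun σ hσ => h ⟨σ, hσ⟩)]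
    refine Finset.sum_eq_zero fun i' _ => Finset.sum_eq_zero fun a' _ => ?_
    rw [vec_some_of_not_see, mul_zero]
    intro hs
    obtain ⟨_, σ', h1, _⟩ := (see_hvar_iff _ _ _ _).1 hs
    exact h ⟨σ', h1⟩

/-- The value of a node sum at a vertical variable of the node. -/
lemma NS_vert (n : Nd N ℓ) (z : Ch N) {p r : Fin k} (hpr : p ≠ r) (d : N.Λ) :
    NS n z (some (.vert n.1 n.2.1 n.2.2 s(p, r) d))
      = (∑ a : Fin k → N.Λ, if a r = d then z p a else 0) +
        ∑ a : Fin k → N.Λ, if a p = d then z r a else 0 := by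
  rw [NS_apply]
  have h1 : ∀ i a, See (axm n i a) (.vert n.1 n.2.1 n.2.2 s(p, r) d) ↔
      (i = p ∧ a r = d) ∨ (i = r ∧ a p = d) := by
    intro i a
    constructor
    · intro h
      exact (see_vert_pair h).2.2
    · rintro (⟨rfl, h⟩ | ⟨rfl, h⟩)
      · exact (see_vert_iff _ _ _ _ _ _).2 ⟨rfl, rfl, r, fun e => hpr e.symm, rfl, h⟩
      · exact (see_vert_iff _ _ _ _ _ _).2 ⟨rfl, rfl, p, hpr, Sym2.eq_swap, h⟩
  rw [Finset.sum_eq_add p r hpr]
  · congr 1
    · refine Finset.sum_congr rfl fun a _ => ?_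
      by_cases h : a r = d
      · rw [if_pos h, vec_some_of_see ((h1 p a).2 (Or.inl ⟨rfl, h⟩)), mul_one]
      · rw [if_neg h, vec_some_of_not_see, mul_zero]
        rw [h1]
        rintro (⟨_, h2⟩ | ⟨h2, _⟩)
        · exact h h2
        · exact hpr h2
    · refine Finset.sum_congr rfl fun a _ => ?_
      by_cases h : a p = d
      · rw [if_pos h, vec_some_of_see ((h1 r a).2 (Or.inr ⟨rfl, h⟩)), mul_one]
      · rw [if_neg h, vec_some_of_not_see, mul_zero]
        rw [h1]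
        rintro (⟨h2, _⟩ | ⟨_, h2⟩)
        · exact hpr h2.symm
        · exact h h2
  · intro i _ hi
    refine Finset.sum_eq_zero fun a _ => ?_
    rw [vec_some_of_not_see, mul_zero]
    rw [h1]
    rintro (⟨h2, _⟩ | ⟨h2, _⟩)
    · exact hi.1 h2
    · exact hi.2 h2
  · intro h
    exact absurd (Finset.mem_univ _) h
  · intro h
    exact absurd (Finset.mem_univ _) h

/-- The value of a node sum at a vertical variable of another node. -/
lemma NS_vert_ne (n : Nd N ℓ) (z : Ch N) {c : N.C} {l : Fin 7} {s : Fin (ℓ + 1)}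
    (h : n ≠ (c, (l, s))) (e : Sym2 (Fin k)) (d : N.Λ) :
    NS n z (some (.vert c l s e d)) = 0 := by
  rw [NS_apply]
  refine Finset.sum_eq_zero fun i _ => Finset.sum_eq_zero fun a _ => ?_
  rw [vec_some_of_not_see, mul_zero]
  intro hs
  obtain ⟨h1, h2, _⟩ := (see_vert_iff _ _ _ _ _ _).1 hs
  exact h (Prod.ext h1 h2)

/-- The value of a node sum at a diagonal vertical variable. -/
lemma NS_vert_diag (n : Nd N ℓ) (z : Ch N) {c : N.C} {l : Fin 7} {s : Fin (ℓ + 1)}
    (p : Fin k) (d : N.Λ) : NS n z (some (.vert c l s s(p, p) d)) = 0 := by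
  rw [NS_apply]
  refine Finset.sum_eq_zero fun i _ => Finset.sum_eq_zero fun a _ => ?_
  rw [vec_some_of_not_see, mul_zero]
  intro hs
  obtain ⟨_, _, m, h3, h4, _⟩ := (see_vert_iff _ _ _ _ _ _).1 hs
  rw [Sym2.eq_iff] at h4
  rcases h4 with ⟨h5, h6⟩ | ⟨h5, h6⟩
  · exact h3 (h6.symm.trans h5)
  · exact h3 (h5.symm.trans h6)

/-- The key identity. -/
lemma NS_eq {j : Fin k} (n : Nd N ℓ) {z : Ch N} (hz : z ∈ Zj j) :
    NS n z = ∑ E, N.horVec ℓ E (dlt n E z) := by
  funext v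
  rw [Finset.sum_apply]
  cases v with
  | none =>
    have h1 : ∑ E, N.horVec ℓ E (dlt n E z) none = 0 := Finset.sum_eq_zero fun E _ => rfl
    rw [h1, NS_apply]
    refine Finset.sum_eq_zero fun i _ => ?_
    have h2 : ∀ a, N.vec ℓ (axm n i a) none = N.vec ℓ (axm n i 0) none := fun a => rfl
    rw [Finset.sum_congr rfl fun a _ => by rw [h2 a], ← Finset.sum_mul, sum_row hz, zero_mul]
  | some v =>
    have hh : ∀ (E : N.Ed ℓ) (i : Fin k) (a : Fin k → N.Λ),
        NS n z (some (N.hvar ℓ E i a))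
          = ∑ E', N.horVec ℓ E' (dlt n E' z) (some (N.hvar ℓ E i a)) := by
      intro E i a
      rw [NS_hvar, Finset.sum_eq_single E, horVec_hvar_self]
      · intro E' _ hE'
        exact horVec_hvar_ne hE' _ _ _
      · intro h
        exact absurd (Finset.mem_univ _) h
    cases v with
    | vert c l s e d =>
      rw [Finset.sum_eq_zero fun E _ => horVec_vert E _ c l s e d]
      by_cases hn : n = (c, (l, s))
      · subst hn
        induction e using Sym2.ind with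
        | _ p r =>
          by_cases hpr : p = r
          · subst hpr
            exact NS_vert_diag _ _ _ _
          · have h1 := NS_vert (c, (l, s)) z hpr d
            dsimp only at h1
            rw [h1]
            exact hz.1.2 p r hpr d
      · exact NS_vert_ne n z hn e d
    | inner c l s i a => exact hh (.inner c l s) i a
    | main st i a => exact hh (.main st) i a

/-- A representation of a form. -/
structure Rep (j : Fin k) (f : N.Form ℓ) (S : Nd N ℓ → Ch N) (y : N.Ed ℓ → Ch N) : Prop where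
  row0 : ∀ n a, S n j a = 0
  diag : ∀ n i a, a i ≠ 0 → S n i a = 0
  edge : ∀ E, y E ∈ Zj j
  eq : f = ∑ n, NS n (S n) + ∑ E, N.horVec ℓ E (y E)

/-- Changing a representation at a node. -/
lemma Rep.update {j : Fin k} {f : N.Form ℓ} {S : Nd N ℓ → Ch N} {y : N.Ed ℓ → Ch N}
    (h : Rep j f S y) (n : Nd N ℓ) {z : Ch N} (hz : z ∈ Zj j) :
    ∃ y', Rep j f (Function.update S n (S n + z)) y' := by
  refine ⟨fun E => y E + dlt n E z, ⟨?_, ?_, ?_, ?_⟩⟩
  · intro n' a
    by_cases hn : n' = n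
    · rw [hn, Function.update_self]
      show S n j a + z j a = 0
      rw [h.row0, hz.2, add_zero]
    · rw [Function.update_of_ne hn]
      exact h.row0 _ _
  · intro n' i a ha
    by_cases hn : n' = n
    · rw [hn, Function.update_self]
      show S n i a + z i a = 0
      rw [h.diag _ _ _ ha, hz.1.1 _ _ ha, add_zero]
    · rw [Function.update_of_ne hn]
      exact h.diag _ _ _ ha
  · intro E
    exact Submodule.add_mem _ (h.edge E) (dlt_mem n E hz)
  · have h1 : ∑ n', NS n' (Function.update S n (S n + z) n') = ∑ n', NS n' (S n') + NS n z := by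
      have h2 : ∀ n', NS n' (Function.update S n (S n + z) n')
          = NS n' (S n') + if n' = n then NS n z else 0 := by
        intro n'
        by_cases hn : n' = n
        · subst hn
          rw [Function.update_self, if_pos rfl, NS_add]
        · rw [Function.update_of_ne hn, if_neg hn, add_zero]
      rw [Finset.sum_congr rfl fun n' _ => h2 n', Finset.sum_add_distrib, Finset.sum_ite_eq']
      simp
    have h3 : ∑ E, N.horVec ℓ E (y E + dlt n E z)
        = ∑ E, N.horVec ℓ E (y E) + NS n z := by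
      rw [NS_eq n hz, ← Finset.sum_add_distrib]
      exact Finset.sum_congr rfl fun E _ => horVec_add E _ _
    rw [h1, h3, h.eq]
    have h4 : NS n z + NS n z = 0 := by
      funext v
      show NS n z v + NS n z v = 0
      exact CharTwo.add_self_eq_zero _
    calc ∑ n, NS n (S n) + ∑ E, N.horVec ℓ E (y E)
        = ∑ n, NS n (S n) + ∑ E, N.horVec ℓ E (y E) + (NS n z + NS n z) := by rw [h4, add_zero]
      _ = _ := by abel

lemma sum_NS (S : Nd N ℓ → Ch N) :
    ∑ n, NS n (S n) = ∑ x : N.Ax ℓ, S (x.1, x.2.1) x.2.2.1 x.2.2.2 • N.vec ℓ x := by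
  rw [Fintype.sum_prod_type, Fintype.sum_prod_type]
  refine Finset.sum_congr rfl fun c _ => ?_
  rw [Fintype.sum_prod_type (f := fun x : (Fin 7 × Fin (ℓ + 1)) × Fin k × (Fin k → N.Λ) =>
    S ((c, x).1, (c, x).2.1) (c, x).2.2.1 (c, x).2.2.2 • N.vec ℓ (c, x))]
  refine Finset.sum_congr rfl fun ν _ => ?_
  rw [Fintype.sum_prod_type]
  rfl

/-- Every element of `A_j` has a representation. -/
lemma exists_rep {j : Fin k} {f : N.Form ℓ} (hf : f ∈ N.Aj ℓ j) : ∃ S y, Rep j f S y := by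
  classical
  unfold Aj at hf
  induction hf using Submodule.span_induction with
  | mem g hg =>
    rcases hg with ⟨x, hx, hxj, rfl⟩ | ⟨E, z, hz, hzj, rfl⟩
    · refine ⟨fun n i a => if (n.1, n.2, i, a) = x then 1 else 0, fun _ => 0, ⟨?_, ?_, ?_, ?_⟩⟩
      · intro n a
        rw [if_neg]
        rintro rfl
        exact hxj rfl
      · intro n i a ha
        rw [if_neg]
        rintro rfl
        exact ha hx.2.2.1
      · intro E
        exact Submodule.zero_mem _
      · rw [sum_NS, Finset.sum_eq_single x]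
        · have h1 : ∑ E, N.horVec ℓ E (0 : Ch N) = 0 :=
            Finset.sum_eq_zero fun E _ => horVec_zero E (fun _ _ => rfl)
          rw [h1, add_zero]
          rw [if_pos rfl, one_smul]
        · intro x' _ hx'
          rw [if_neg hx', zero_smul]
        · intro h
          exact absurd (Finset.mem_univ _) h
    · refine ⟨fun _ => 0, fun E' => if E' = E then z else 0, ⟨fun _ _ => rfl, fun _ _ _ _ => rfl,
        ?_, ?_⟩⟩
      · intro E'
        split_ifs
        · exact ⟨hz, hzj⟩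
        · exact Submodule.zero_mem _
      · rw [Finset.sum_eq_zero fun n _ => NS_zero n, zero_add, Finset.sum_eq_single E]
        · rw [if_pos rfl]
        · intro E' _ hE'
          rw [if_neg hE']
          exact horVec_zero E' (fun _ _ => rfl)
        · intro h
          exact absurd (Finset.mem_univ _) h
  | zero =>
    refine ⟨fun _ => 0, fun _ => 0, ⟨fun _ _ => rfl, fun _ _ _ _ => rfl,
      fun _ => Submodule.zero_mem _, ?_⟩⟩
    have h1 : ∑ E, N.horVec ℓ E (0 : Ch N) = 0 :=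
      Finset.sum_eq_zero fun E _ => horVec_zero E (fun _ _ => rfl)
    rw [Finset.sum_eq_zero fun n _ => NS_zero n, h1, add_zero]
  | add f g _ _ ihf ihg =>
    obtain ⟨S, y, h⟩ := ihf
    obtain ⟨S', y', h'⟩ := ihg
    refine ⟨fun n => S n + S' n, fun E => y E + y' E, ⟨?_, ?_, ?_, ?_⟩⟩
    · intro n a
      show S n j a + S' n j a = 0
      rw [h.row0, h'.row0, add_zero]
    · intro n i a ha
      show S n i a + S' n i a = 0
      rw [h.diag _ _ _ ha, h'.diag _ _ _ ha, add_zero]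
    · intro E
      exact Submodule.add_mem _ (h.edge E) (h'.edge E)
    · rw [Finset.sum_congr rfl fun n _ => NS_add n (S n) (S' n),
        Finset.sum_congr rfl fun E _ => horVec_add E (y E) (y' E), Finset.sum_add_distrib,
        Finset.sum_add_distrib, h.eq, h'.eq]
      abel
  | smul c f _ ih =>
    obtain ⟨S, y, h⟩ := ih
    refine ⟨fun n => c • S n, fun E => c • y E, ⟨?_, ?_, ?_, ?_⟩⟩
    · intro n a
      show c * S n j a = 0
      rw [h.row0, mul_zero]
    · intro n i a ha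
      show c * S n i a = 0
      rw [h.diag _ _ _ ha, mul_zero]
    · intro E
      exact Submodule.smul_mem _ _ (h.edge E)
    · rw [Finset.sum_congr rfl fun n _ => NS_smul n c (S n),
        Finset.sum_congr rfl fun E _ => horVec_smul E c (y E), ← Finset.smul_sum,
        ← Finset.smul_sum, h.eq, smul_add]

/-- Value of a represented form at a horizontal variable. -/
lemma Rep.hvar {j : Fin k} {f : N.Form ℓ} {S : Nd N ℓ → Ch N} {y : N.Ed ℓ → Ch N}
    (h : Rep j f S y) (E : N.Ed ℓ) (i : Fin k) (a : Fin k → N.Λ) :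
    f (some (N.hvar ℓ E i a)) = ∑ n, dlt n E (S n) i a + y E i a := by
  rw [h.eq, Pi.add_apply, Finset.sum_apply, Finset.sum_apply]
  congr 1
  · exact Finset.sum_congr rfl fun n _ => NS_hvar n _ E i a
  · rw [Finset.sum_eq_single E, horVec_hvar_self]
    · intro E' _ hE'
      exact horVec_hvar_ne hE' _ _ _
    · intro h'
      exact absurd (Finset.mem_univ _) h'

/-- Value of a represented form at a vertical variable. -/
lemma Rep.vert {j : Fin k} {f : N.Form ℓ} {S : Nd N ℓ → Ch N} {y : N.Ed ℓ → Ch N}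
    (h : Rep j f S y) (n : Nd N ℓ) {p r : Fin k} (hpr : p ≠ r) (d : N.Λ) :
    f (some (.vert n.1 n.2.1 n.2.2 s(p, r) d)) =
      (∑ a : Fin k → N.Λ, if a r = d then S n p a else 0) +
        ∑ a : Fin k → N.Λ, if a p = d then S n r a else 0 := by
  rw [h.eq, Pi.add_apply, Finset.sum_apply, Finset.sum_apply,
    Finset.sum_eq_zero fun E _ => horVec_vert E _ n.1 n.2.1 n.2.2 _ d, add_zero,
    Finset.sum_eq_single n, NS_vert n _ hpr]
  · intro n' _ hn'
    exact NS_vert_ne n' _ (c := n.1) (l := n.2.1) (s := n.2.2) hn' _ _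
  · intro h'
    exact absurd (Finset.mem_univ _) h'

/-- The part of a representation at a node outside `W` is closed. -/
lemma Rep.closed {j : Fin k} {f : N.Form ℓ} {S : Nd N ℓ → Ch N} {y : N.Ed ℓ → Ch N}
    (h : Rep j f S y) {W : Finset (N.Ax ℓ)} (hf : f ∈ N.VW ℓ W) {n : Nd N ℓ}
    (hn : ¬ ∃ w ∈ W, w.1 = n.1 ∧ w.2.1 = n.2) : S n ∈ Zj j := by
  refine ⟨⟨fun i a ha => h.diag n i a ha, fun i m him d => ?_⟩, fun a => h.row0 n a⟩
  rw [← h.vert n him d]
  apply hf
  rintro ⟨w, hw, hs⟩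
  obtain ⟨h1, h2, _⟩ := see_vert_pair hs
  exact hn ⟨w, hw, h1, h2⟩

/-- Phase 1. -/
lemma phase1 {j : Fin k} {f : N.Form ℓ} {S : Nd N ℓ → Ch N} {y : N.Ed ℓ → Ch N}
    (h : Rep j f S y) {W : Finset (N.Ax ℓ)} (hf : f ∈ N.VW ℓ W) (T : Finset (Nd N ℓ))
    (hT : ∀ n ∈ T, ¬ ∃ w ∈ W, w.1 = n.1 ∧ w.2.1 = n.2) :
    ∃ S' y', Rep j f S' y' ∧ ∀ n ∈ T, S' n = 0 := by
  classical
  induction T using Finset.induction_on with
  | empty => exact ⟨S, y, h, fun n hn => absurd hn (Finset.notMem_empty n)⟩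
  | insert n T hn ih =>
    obtain ⟨S', y', h', hS'⟩ := ih fun n' hn' => hT n' (Finset.mem_insert_of_mem hn')
    have hz := h'.closed hf (hT n (Finset.mem_insert_self n T))
    obtain ⟨y'', h''⟩ := h'.update n hz
    refine ⟨_, y'', h'', fun n' hn' => ?_⟩
    have h0 : S' n + S' n = 0 := by
      funext i a
      exact CharTwo.add_self_eq_zero _
    by_cases hnn : n' = n
    · rw [hnn, Function.update_self, h0]
    · rw [Function.update_of_ne hnn]
      exact hS' n' (Finset.mem_of_mem_insert_of_ne hn' hnn)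

/-- A change of truth value along a path. -/
lemma exists_change {P : ℕ → Prop} {m a b : ℕ} (ha : a ≤ m) (hb : b ≤ m) (hPa : P a)
    (hPb : ¬ P b) : ∃ t < m, (P t ∧ ¬ P (t + 1)) ∨ (¬ P t ∧ P (t + 1)) := by
  by_contra hcon
  push Not at hcon
  have h1 : ∀ t ≤ m, (P t ↔ P 0) := by
    intro t
    induction t with
    | zero => intro _; exact Iff.rfl
    | succ t ih =>
      intro ht
      have h2 := ih (by omega)
      obtain ⟨h3, h4⟩ := hcon t (by omega)
      constructor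
      · intro h5
        rw [← h2]
        by_contra h6
        exact h4 h6 h5
      · intro h5
        exact h3 (h2.2 h5)
  exact hPb ((h1 b hb).2 ((h1 a ha).1 hPa))

/-- The nodes of a leg. -/
def nd (c : N.C) (l : Fin 7) (t : ℕ) : Nd N ℓ :=
  if h : t = 0 ∨ ℓ < t then (c, (0, 0)) else (c, (l, ⟨t, by omega⟩))

lemma nd_zero (c : N.C) (l : Fin 7) : (nd c l 0 : Nd N ℓ) = (c, (0, 0)) := by
  unfold nd
  rw [dif_pos (Or.inl rfl)]

lemma nd_pos (c : N.C) (l : Fin 7) {t : ℕ} (h0 : t ≠ 0) (h : t ≤ ℓ) :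
    (nd c l t : Nd N ℓ) = (c, (l, ⟨t, by omega⟩)) := by
  unfold nd
  rw [dif_neg (by omega)]

/-- Unclean nodes. -/
def Unclean (W : Finset (N.Ax ℓ)) (S : Nd N ℓ → Ch N) (n : Nd N ℓ) : Prop :=
  ∃ i a, S n i a ≠ 0 ∧ ¬ ∃ w ∈ W, w.1 = n.1 ∧ w.2.2 = (i, a)

/-- The support condition after phase 1. -/
def Supp (W : Finset (N.Ax ℓ)) (S : Nd N ℓ → Ch N) : Prop :=
  ∀ n i a, S n i a ≠ 0 → ∃ w ∈ W, w.1 = n.1 ∧ w.2.1 = n.2

/-- The values at the edges of a leg. -/
lemma Rep.leg {j : Fin k} {f : N.Form ℓ} {S : Nd N ℓ → Ch N} {y : N.Ed ℓ → Ch N}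
    (h : Rep j f S y) {W : Finset (N.Ax ℓ)} (hWv : ∀ y ∈ W, N.AxValid ℓ y) (hf : f ∈ N.VW ℓ W)
    (hS : Supp W S) {c : N.C} {l : Fin 7} (hl : (l : ℕ) ≤ 2 * N.nb c) {t : ℕ} (ht : t < ℓ)
    {i : Fin k} {a : Fin k → N.Λ} (hia : ¬ ∃ w ∈ W, w.1 = c ∧ w.2.2 = (i, a)) :
    S (nd c l t) i a + S (nd c l (t + 1)) i a + y (.inner c l ⟨t, by omega⟩) i a = 0 := by
  have h1 : f (some (N.hvar ℓ (.inner c l ⟨t, by omega⟩) i a)) = 0 := by
    apply hf
    rintro ⟨w, hw, hs⟩
    obtain ⟨h2, σ, ⟨h3, h4, _⟩, h5⟩ := (see_hvar_iff _ _ _ _).1 hs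
    refine hia ⟨w, hw, h4.symm, Prod.ext h2 ?_⟩
    rw [h5, h3]
    simp
  have hne : (nd c l t : Nd N ℓ) ≠ nd c l (t + 1) := by
    rw [nd_pos c l (Nat.succ_ne_zero t) (by omega)]
    by_cases h0 : t = 0
    · have h4 : (nd c l t : Nd N ℓ) = (c, (0, 0)) := by rw [h0, nd_zero]
      rw [h4]
      intro h2
      have h3 := congrArg (fun n : Nd N ℓ => (n.2.2 : ℕ)) h2
      simp at h3
    · rw [nd_pos c l h0 (by omega)]
      intro h2
      have h3 := congrArg (fun n : Nd N ℓ => (n.2.2 : ℕ)) h2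
      simp at h3
  have hi1 : Inc N ℓ (nd c l t : Nd N ℓ).1 (nd c l t : Nd N ℓ).2.1 (nd c l t : Nd N ℓ).2.2
      (.inner c l ⟨t, by omega⟩) 0 := by
    by_cases h0 : t = 0
    · subst h0
      rw [nd_zero]
      exact ⟨rfl, rfl, Or.inl ⟨rfl, rfl, hl⟩⟩
    · rw [nd_pos c l h0 (by omega)]
      exact ⟨rfl, rfl, Or.inr ⟨h0, rfl, Or.inr ⟨rfl, ht⟩⟩⟩
  have hi2 : Inc N ℓ (nd c l (t + 1) : Nd N ℓ).1 (nd c l (t + 1) : Nd N ℓ).2.1
      (nd c l (t + 1) : Nd N ℓ).2.2 (.inner c l ⟨t, by omega⟩) 0 := by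
    rw [nd_pos c l (Nat.succ_ne_zero t) (by omega)]
    exact ⟨rfl, rfl, Or.inr ⟨Nat.succ_ne_zero t, rfl, Or.inl rfl⟩⟩
  rw [h.hvar, Finset.sum_eq_add (nd c l t) (nd c l (t + 1)) hne] at h1
  · rw [dlt_of_inc hi1, dlt_of_inc hi2] at h1
    simpa using h1
  · rintro n _ ⟨hn1, hn2⟩
    by_cases hinc : ∃ σ, Inc N ℓ n.1 n.2.1 n.2.2 (.inner c l ⟨t, by omega⟩) σ
    · obtain ⟨σ, hσ⟩ := hinc
      rw [dlt_of_inc hσ]
      by_contra hne0
      obtain ⟨w, hw, hw1, hw2⟩ := hS _ _ _ hne0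
      have hwv := hWv w hw
      obtain ⟨_, h3, h4⟩ := hσ
      rcases h4 with ⟨h5, h6, _⟩ | ⟨h5, h6, h7 | ⟨h7, _⟩⟩
      · have h6' : t = 0 := h6
        apply hn1
        rw [h6', nd_zero]
        have h8 : n.2.2 = 0 := Fin.ext h5
        have h9 : n.2.1 = 0 := by
          rw [← hw2] at h8 ⊢
          exact hwv.1 h8
        exact Prod.ext h3.symm (Prod.ext h9 h8)
      · have h7' : t + 1 = n.2.2 := h7
        apply hn2
        rw [nd_pos c l (Nat.succ_ne_zero t) (by omega)]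
        exact Prod.ext h3.symm (Prod.ext h6.symm (Fin.ext h7'.symm))
      · have h7' : t = n.2.2 := h7
        apply hn1
        rw [nd_pos c l (by omega) (by omega)]
        exact Prod.ext h3.symm (Prod.ext h6.symm (Fin.ext h7'.symm))
    · rw [dlt_of_not (fun σ hσ => hinc ⟨σ, hσ⟩)]
      rfl
  · intro h'
    exact absurd (Finset.mem_univ _) h'
  · intro h'
    exact absurd (Finset.mem_univ _) h'

/-- The cleaning step. -/
lemma clean_step (hℓ : k + 1 ≤ ℓ) {j : Fin k} {f : N.Form ℓ} {S : Nd N ℓ → Ch N}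
    {y : N.Ed ℓ → Ch N} (h : Rep j f S y) {W : Finset (N.Ax ℓ)}
    (hWv : ∀ y ∈ W, N.AxValid ℓ y) (hW : W.card ≤ k + 1) (hf : f ∈ N.VW ℓ W)
    (hS : Supp W S) {n₀ : Nd N ℓ} (hn₀ : Unclean W S n₀) :
    ∃ n y', Unclean W S n ∧ ∃ z, Rep j f (Function.update S n z) y' ∧
      Supp W (Function.update S n z) ∧ ¬ Unclean W (Function.update S n z) n := by
  classical
  obtain ⟨i₀, a₀, hne₀, hcl₀⟩ := id hn₀
  obtain ⟨w₀, hw₀, hw1, hw2⟩ := hS _ _ _ hne₀
  have hv₀ := hWv w₀ hw₀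
  obtain ⟨c, l, s⟩ := n₀
  dsimp only at hw1 hw2 hcl₀
  have hl : (l : ℕ) ≤ 2 * N.nb c := by
    have := hv₀.2.1
    rw [hw1, hw2] at this
    exact this
  have hn₀' : (nd c l (s : ℕ) : Nd N ℓ) = (c, l, s) := by
    by_cases h0 : (s : ℕ) = 0
    · have h1 : s = 0 := Fin.ext h0
      have h2 : l = 0 := by
        have := hv₀.1
        rw [hw2] at this
        exact this h1
      rw [h0, nd_zero, h1, h2]
    · rw [nd_pos c l h0 (by omega)]
  -- some node of the leg is clean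
  have hex : ∃ b ≤ ℓ, ¬ Unclean W S (nd c l b) := by
    by_contra hcon
    push Not at hcon
    have h1 : (Finset.range (ℓ + 1)).card ≤ W.card := by
      have h2 : (Finset.range (ℓ + 1)).image (nd c l : ℕ → Nd N ℓ) ⊆
          W.image fun w => (w.1, w.2.1) := by
        intro n hn
        rw [Finset.mem_image] at hn
        obtain ⟨t, ht, rfl⟩ := hn
        obtain ⟨i, a, h3, _⟩ := hcon t (by rw [Finset.mem_range] at ht; omega)
        obtain ⟨w, hw, h4, h5⟩ := hS _ _ _ h3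
        rw [Finset.mem_image]
        exact ⟨w, hw, Prod.ext h4 h5⟩
      have h3 : ((Finset.range (ℓ + 1)).image (nd c l : ℕ → Nd N ℓ)).card
          = (Finset.range (ℓ + 1)).card := by
        rw [Finset.card_image_iff]
        intro t ht t' ht' hh
        rw [Finset.coe_range, Set.mem_Iio] at ht ht'
        have h4 : ∀ u, u ≤ ℓ → ((nd c l u : Nd N ℓ).2.2 : ℕ) = u := by
          intro u hu
          by_cases h0 : u = 0
          · rw [h0, nd_zero]; rfl
          · rw [nd_pos c l h0 hu]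
        rw [← h4 t (by omega), ← h4 t' (by omega), hh]
      rw [← h3]
      exact (Finset.card_le_card h2).trans Finset.card_image_le
    rw [Finset.card_range] at h1
    omega
  obtain ⟨b, hb, hPb⟩ := hex
  obtain ⟨t, ht, hchange⟩ := exists_change (P := fun t => Unclean W S (nd c l t))
    (show (s : ℕ) ≤ ℓ by omega) hb (by rw [hn₀']; exact hn₀) hPb
  -- the general step
  have key : ∀ n : Nd N ℓ, n.1 = c → Unclean W S n →
      (∀ i a, (¬ ∃ w ∈ W, w.1 = c ∧ w.2.2 = (i, a)) →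
        S n i a + y (.inner c l ⟨t, by omega⟩) i a = 0) →
      ∃ n y', Unclean W S n ∧ ∃ z, Rep j f (Function.update S n z) y' ∧
        Supp W (Function.update S n z) ∧ ¬ Unclean W (Function.update S n z) n := by
    intro n hnc hn hval
    obtain ⟨y', h'⟩ := h.update n (h.edge (.inner c l ⟨t, by omega⟩))
    refine ⟨n, y', hn, _, h', ?_, ?_⟩
    · intro n' i a hne
      by_cases hnn : n' = n
      · obtain ⟨i', a', h1, _⟩ := hn
        rw [hnn]
        exact hS _ _ _ h1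
      · rw [Function.update_of_ne hnn] at hne
        exact hS _ _ _ hne
    · rintro ⟨i, a, h1, h2⟩
      rw [Function.update_self] at h1
      rw [hnc] at h2
      exact h1 (hval i a h2)
  have hnd1 : ∀ t, (nd c l t : Nd N ℓ).1 = c := by
    intro t
    unfold nd
    split_ifs <;> rfl
  rcases hchange with ⟨h1, h2⟩ | ⟨h1, h2⟩
  · refine key (nd c l t) (hnd1 _) h1 fun i a hia => ?_
    have h3 := h.leg hWv hf hS hl ht hia
    have h4 : S (nd c l (t + 1)) i a = 0 := by
      by_contra h5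
      exact h2 ⟨i, a, h5, by rw [hnd1]; exact hia⟩
    rw [h4, add_zero] at h3
    exact h3
  · refine key (nd c l (t + 1)) (hnd1 _) h2 fun i a hia => ?_
    have h3 := h.leg hWv hf hS hl ht hia
    have h4 : S (nd c l t) i a = 0 := by
      by_contra h5
      exact h1 ⟨i, a, h5, by rw [hnd1]; exact hia⟩
    rw [h4, zero_add] at h3
    exact h3

open Classical in
/-- Phase 2. -/
lemma phase2 (hℓ : k + 1 ≤ ℓ) {j : Fin k} {f : N.Form ℓ} {W : Finset (N.Ax ℓ)}
    (hWv : ∀ y ∈ W, N.AxValid ℓ y) (hW : W.card ≤ k + 1) (hf : f ∈ N.VW ℓ W) (m : ℕ) :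
    ∀ (S : Nd N ℓ → Ch N) (y : N.Ed ℓ → Ch N), Rep j f S y → Supp W S →
      (Finset.univ.filter (Unclean W S)).card = m →
      ∃ S' y', Rep j f S' y' ∧ Supp W S' ∧ ∀ n, ¬ Unclean W S' n := by
  induction m using Nat.strong_induction_on with
  | _ m ih =>
    intro S y h hS hm
    by_cases hex : ∃ n, Unclean W S n
    · obtain ⟨n₀, hn₀⟩ := hex
      obtain ⟨n, y', hn, z, h', hS', hcl⟩ := clean_step hℓ h hWv hW hf hS hn₀
      refine ih _ ?_ _ y' h' hS' rfl
      rw [← hm]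
      apply Finset.card_lt_card
      refine Finset.ssubset_iff_subset_ne.2 ⟨?_, ?_⟩
      · intro n' hn'
        rw [Finset.mem_filter] at hn' ⊢
        refine ⟨Finset.mem_univ _, ?_⟩
        by_cases hnn : n' = n
        · rw [hnn]; exact hn
        · obtain ⟨i, a, h1, h2⟩ := hn'.2
          rw [Function.update_of_ne hnn] at h1
          exact ⟨i, a, h1, h2⟩
      · intro heq
        have h1 : n ∈ Finset.univ.filter (Unclean W S) :=
          Finset.mem_filter.2 ⟨Finset.mem_univ _, hn⟩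
        rw [← heq, Finset.mem_filter] at h1
        exact hcl h1.2
    · push Not at hex
      exact ⟨S, y, h, hS, hex⟩

end P5a

variable {ℓ}

open P5a in
/-- Normal form of the elements of `V_W ∩ A_j`. -/
theorem norm (hℓ : k + 1 ≤ ℓ) (W : Finset (N.Ax ℓ)) (hWv : ∀ y ∈ W, N.AxValid ℓ y)
    (hW : W.card ≤ k + 1) (j : Fin k) (hj : N.FreeRow ℓ W j) (f : N.Form ℓ) (hf : f ∈ N.VW ℓ W)
    (hfj : f ∈ N.Aj ℓ j) :
    ∃ (S : Finset (N.Ax ℓ)) (y : N.Ed ℓ → Fin k → (Fin k → N.Λ) → ZMod 2),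
      (∀ x ∈ S, N.AxValid ℓ x ∧ row x ≠ j ∧ (∃ w ∈ W, w.1 = x.1 ∧ w.2.1 = x.2.1) ∧
        ∃ w ∈ W, w.1 = x.1 ∧ w.2.2 = x.2.2) ∧
      (∀ E, N.IsZ (y E) ∧ ∀ a, y E j a = 0) ∧
      f = ∑ x ∈ S, N.vec ℓ x + ∑ E, N.horVec ℓ E (y E) := by
  classical
  obtain ⟨S₀, y₀, h₀⟩ := exists_rep hfj
  obtain ⟨S₁, y₁, h₁, hS₁⟩ := phase1 h₀ hf
    (Finset.univ.filter fun n : Nd N ℓ => ¬ ∃ w ∈ W, w.1 = n.1 ∧ w.2.1 = n.2)
    (fun n hn => (Finset.mem_filter.1 hn).2)
  have hsupp : Supp W S₁ := by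
    intro n i a hne
    by_contra hcon
    apply hne
    rw [hS₁ n (Finset.mem_filter.2 ⟨Finset.mem_univ _, hcon⟩)]
    rfl
  obtain ⟨S₂, y₂, h₂, hsupp₂, hcl⟩ := phase2 hℓ hWv hW hf _ S₁ y₁ h₁ hsupp rfl
  refine ⟨Finset.univ.filter fun x : N.Ax ℓ => S₂ (x.1, x.2.1) x.2.2.1 x.2.2.2 ≠ 0, y₂, ?_,
    fun E => h₂.edge E, ?_⟩
  · intro x hx
    have hx' := (Finset.mem_filter.1 hx).2
    obtain ⟨w, hw, hw1, hw2⟩ := hsupp₂ _ _ _ hx'
    have hcl' : ∃ w ∈ W, w.1 = x.1 ∧ w.2.2 = x.2.2 := by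
      by_contra hcon
      exact hcl (x.1, x.2.1) ⟨_, _, hx', hcon⟩
    obtain ⟨u, hu, hu1, hu2⟩ := hcl'
    refine ⟨?_, ?_, ⟨w, hw, hw1, hw2⟩, ⟨u, hu, hu1, hu2⟩⟩
    · have hwv := hWv w hw
      have huv := hWv u hu
      obtain ⟨a1, a2, _, _⟩ := hwv
      obtain ⟨_, _, b3, b4⟩ := huv
      dsimp only at hw1 hw2
      rw [hw2] at a1 a2
      rw [hw1] at a2
      rw [hu2] at b3 b4
      rw [hu1] at b4
      exact ⟨a1, a2, b3, b4⟩
    · intro hrow
      apply hx'
      have : x.2.2.1 = j := hrow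
      rw [this]
      exact h₂.row0 _ _
  · rw [h₂.eq, sum_NS]
    congr 1
    rw [Finset.sum_filter]
    refine Finset.sum_congr rfl fun x _ => ?_
    split_ifs with h
    · have : S₂ (x.1, x.2.1) x.2.2.1 x.2.2.2 = 1 := by
        generalize S₂ (x.1, x.2.1) x.2.2.1 x.2.2.2 = r at h ⊢
        revert r
        decide
      rw [this, one_smul]
    · rw [not_not] at h
      rw [h, zero_smul]

open P5b in
/-- Change of the free row. -/
theorem swap (hℓ : k + 1 ≤ ℓ) (W : Finset (N.Ax ℓ)) (hWv : ∀ y ∈ W, N.AxValid ℓ y)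
    (hW : W.card ≤ k + 1) (j j' : Fin k) (hj : N.FreeRow ℓ W j) (hj' : N.FreeRow ℓ W j')
    (f : N.Form ℓ) (hf : f ∈ N.VW ℓ W) (hfj : f ∈ N.Aj ℓ j) : f ∈ N.Aj ℓ j' := by
  obtain ⟨S, y, hS, hy, hfe⟩ := N.norm hℓ W hWv hW j hj f hf hfj
  have hrow : ∀ x ∈ S, row x ≠ j' := by
    intro x hx
    obtain ⟨_, _, _, u, hu, _, hu2⟩ := hS x hx
    have : row x = row u := (congrArg Prod.fst hu2).symm
    rw [this]
    exact hj' u hu
  rw [hfe]
  refine Submodule.add_mem _ (Submodule.sum_mem _ fun x hx => ?_)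
    (Submodule.sum_mem _ fun E _ => ?_)
  · exact Submodule.subset_span (Or.inl ⟨x, (hS x hx).1, hrow x hx, rfl⟩)
  · refine Submodule.subset_span (Or.inr ⟨E, y E, (hy E).1, fun a => ?_, rfl⟩)
    have h1 := nf_hvar_zero (N := N) (S := S) y (E := E) (i := j') (a := a)
      (fun x' hx' h' => hrow x' hx' ((see_hvar_iff x' E j' a).1 h').1)
    rw [← h1, ← hfe]
    apply hf
    rintro ⟨w, hw, hs⟩
    exact hj' w hw ((see_hvar_iff w E j' a).1 hs).1

theorem one_notMem_Aj (hℓ : k + 1 ≤ ℓ) (j : Fin k) : N.one ℓ ∉ N.Aj ℓ j := by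
  intro h
  obtain ⟨S, y, hS, _, hfe⟩ := N.norm hℓ ∅ (fun y hy => absurd hy (Finset.notMem_empty y))
    (by simp) j (fun x hx => absurd hx (Finset.notMem_empty x)) (N.one ℓ) (fun v _ => rfl) h
  have hemp : S = ∅ := by
    rw [Finset.eq_empty_iff_forall_notMem]
    intro x hx
    obtain ⟨_, _, ⟨w, hw, _⟩, _⟩ := hS x hx
    exact absurd hw (Finset.notMem_empty w)
  have h1 := congrFun hfe none
  have h2 : ∑ E, N.horVec ℓ E (y E) none = 0 := Finset.sum_eq_zero fun E _ => rfl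
  rw [hemp, Finset.sum_empty, zero_add, Finset.sum_apply, h2] at h1
  exact one_ne_zero h1

end Net

end Vale.Agent.P310
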