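import Vale.Agent.P310.SpanCore
import Vale.Agent.P310.Norm

/-!
# P310, package P5b: the elements of `V_W ∩ A_j` for a critical-minus-one position
-/

namespace Vale.Agent.P310

namespace Net

variable {k : ℕ} (N : Net k) {ℓ : ℕ}

theorem mem_span_of_mem_Aj (hk : 2 ≤ k) (hℓ : k + 2 ≤ ℓ) (W : Finset (N.Ax ℓ))
    (hWv : ∀ y ∈ W, N.AxValid ℓ y) (hW : W.card ≤ k) (j : Fin k) (hj : N.FreeRow ℓ W j)
    (hocc : ∀ i, i ≠ j → ∃ x ∈ W, row x = i) (f : N.Form ℓ) (hf : f ∈ N.VW ℓ W)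
    (hfj : f ∈ N.Aj ℓ j) : f ∈ Submodule.span (ZMod 2) {g | ∃ x ∈ W, g = N.vec ℓ x} := by
  have _ := hk
  obtain ⟨S, y, hS, hy, hfe⟩ := N.norm (by omega) W hWv (by omega) j hj f hf hfj
  exact P5b.mem_span_of_norm (by omega) W hWv hW j hj hocc f hf S y hS hy hfe

end Net

end Vale.Agent.P310
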