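import Vale.Agent.P310.GoodFam
import Vale.Agent.P310.Span

/-!
# P310, package P6 (e), (f) and assembly: the good family of a network

Uses P5a and P5b.
-/

namespace Vale.Agent.P310

namespace Net

open Finset

variable {k : ℕ} {N : Net k} {ℓ : ℕ}

/-! ### (e) duality -/

variable (N) (ℓ) in
/-- `evalF` as a linear map. -/
noncomputable def P6eval (β : N.Vr ℓ → ZMod 2) : N.Form ℓ →ₗ[ZMod 2] ZMod 2 where
  toFun := N.evalF ℓ β
  map_add' f g := by
    unfold evalF
    simp only [Pi.add_apply, add_mul, Finset.sum_add_distrib]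
    abel
  map_smul' c f := by
    unfold evalF
    simp only [Pi.smul_apply, smul_eq_mul, mul_assoc, RingHom.id_apply, mul_add, Finset.mul_sum]

theorem P6_form_eq (f : N.Form ℓ) :
    f = f none • N.one ℓ + ∑ v, f (some v) • (Pi.single (some v) 1 : N.Form ℓ) := by
  funext o
  rw [Pi.add_apply, Pi.smul_apply, Finset.sum_apply]
  cases o with
  | none =>
    have h1 : N.one ℓ none = 1 := rfl
    rw [h1, smul_eq_mul, mul_one, Finset.sum_eq_zero, add_zero]
    intro v _
    rw [Pi.smul_apply, Pi.single_eq_of_ne (by simp), smul_zero]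
  | some w =>
    have h1 : N.one ℓ (some w) = 0 := rfl
    rw [h1, smul_zero, zero_add, Finset.sum_eq_single w]
    · rw [Pi.smul_apply, Pi.single_eq_same, smul_eq_mul, mul_one]
    · intro v _ hv
      rw [Pi.smul_apply, Pi.single_eq_of_ne, smul_zero]
      intro h
      exact hv (Option.some.inj h).symm
    · intro h
      exact absurd (mem_univ _) h

theorem P6_dual (W : Finset (N.Ax ℓ)) (β0 : N.Vr ℓ → ZMod 2) (M : Submodule (ZMod 2) (N.Form ℓ))
    (h : ∀ f ∈ M, f ∈ N.VW ℓ W → N.evalF ℓ β0 f = 0) :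
    ∃ β, (∀ f ∈ M, N.evalF ℓ β f = 0) ∧
      ∀ y ∈ W, ∀ b v, N.axSlot ℓ y b = some v → β v = β0 v := by
  classical
  let p1 : N.Form ℓ →ₗ.[ZMod 2] ZMod 2 :=
    ⟨N.VW ℓ W, (N.P6eval ℓ β0).domRestrict (N.VW ℓ W)⟩
  let p2 : N.Form ℓ →ₗ.[ZMod 2] ZMod 2 := ⟨M, 0⟩
  have hcomp : ∀ (x : p1.domain) (y : p2.domain), (x : N.Form ℓ) = y → p1 x = p2 y := by
    intro x y hxy
    have h1 : p2 y = 0 := rfl
    rw [h1]
    have h2 : p1 x = N.evalF ℓ β0 (x : N.Form ℓ) := rfl
    rw [h2]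
    apply h _ _ x.2
    rw [hxy]
    exact y.2
  obtain ⟨g, hg⟩ := LinearMap.exists_extend (p1.sup p2 hcomp).toFun
  have hg1 : ∀ f ∈ N.VW ℓ W, g f = N.evalF ℓ β0 f := by
    intro f hf
    have hle := LinearPMap.left_le_sup p1 p2 hcomp
    have hmem : f ∈ (p1.sup p2 hcomp).domain := hle.1 hf
    have h1 := LinearMap.congr_fun hg ⟨f, hmem⟩
    have h2 := hle.2 (x := ⟨f, hf⟩) (y := ⟨f, hmem⟩) rfl
    have h3 : g f = (p1.sup p2 hcomp) ⟨f, hmem⟩ := h1
    rw [h3, ← h2]
    rfl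
  have hg2 : ∀ f ∈ M, g f = 0 := by
    intro f hf
    have hle := LinearPMap.right_le_sup p1 p2 hcomp
    have hmem : f ∈ (p1.sup p2 hcomp).domain := hle.1 hf
    have h1 := LinearMap.congr_fun hg ⟨f, hmem⟩
    have h2 := hle.2 (x := ⟨f, hf⟩) (y := ⟨f, hmem⟩) rfl
    have h3 : g f = (p1.sup p2 hcomp) ⟨f, hmem⟩ := h1
    rw [h3, ← h2]
    rfl
  refine ⟨fun v => g (Pi.single (some v) 1), ?_, ?_⟩
  · intro f hf
    rw [← hg2 f hf]
    conv_rhs => rw [P6_form_eq f]
    rw [map_add, map_smul, map_sum]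
    have hone : g (N.one ℓ) = 1 := by
      rw [hg1]
      · unfold evalF
        rw [Finset.sum_eq_zero]
        · rfl
        · intro v _
          show 0 * _ = _
          rw [zero_mul]
      · intro v _
        rfl
    rw [hone, smul_eq_mul, mul_one]
    unfold evalF
    congr 1
    exact Finset.sum_congr rfl fun v _ => by rw [map_smul, smul_eq_mul]
  · intro y hy b v hb
    show g (Pi.single (some v) 1) = β0 v
    rw [hg1]
    · unfold evalF
      rw [Pi.single_eq_of_ne (by simp), zero_add, Finset.sum_eq_single v]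
      · rw [Pi.single_eq_same, one_mul]
      · intro w _ hw
        rw [Pi.single_eq_of_ne, zero_mul]
        intro h
        exact hw (Option.some.inj h)
      · intro h
        exact absurd (mem_univ _) h
    · intro w hw
      rw [Pi.single_eq_of_ne]
      intro h
      apply hw
      rw [Option.some.inj h]
      exact ⟨y, hy, b, hb⟩

/-! ### (f) monotonicity -/

theorem P6_VW_mono {W W' : Finset (N.Ax ℓ)} (h : ∀ x ∈ W', x ∈ W) {f : N.Form ℓ}
    (hf : f ∈ N.VW ℓ W') : f ∈ N.VW ℓ W := by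
  intro v hv
  apply hf
  rintro ⟨x, hx, hb⟩
  exact hv ⟨x, h x hx, hb⟩

theorem P6_Lc_mono {W W' : Finset (N.Ax ℓ)} (h : ∀ x ∈ W', x ∈ W) : N.Lc ℓ W' ≤ N.Lc ℓ W := by
  apply Submodule.span_mono
  rintro f (⟨x, hx, rfl⟩ | ⟨E, F, h1, h2, rfl⟩)
  · exact Or.inl ⟨x, h x hx, rfl⟩
  · refine Or.inr ⟨E, F, h1, fun i => ?_, rfl⟩
    obtain ⟨x, hx, hxi, hb⟩ := h2 i
    exact ⟨x, h x hx, hxi, hb⟩

theorem P6_mono (hk : 2 ≤ k) (hℓ : k + 2 ≤ ℓ) (W W' : Finset (N.Ax ℓ)) (β : N.Vr ℓ → ZMod 2)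
    (hWv : ∀ y ∈ W, N.AxValid ℓ y) (hW : W.card ≤ k + 1) (hsub : W' ⊆ W)
    (hG : N.Good ℓ W β) : N.Good ℓ W' β := by
  classical
  refine ⟨?_, ?_⟩
  · intro j hj f hf hfj
    by_cases h : ∃ j', N.FreeRow ℓ W j'
    · obtain ⟨j', hj'⟩ := h
      refine hG.1 j' hj' f (P6_VW_mono (fun x hx => hsub hx) hf) ?_
      exact N.swap (by omega) W' (fun y hy => hWv y (hsub hy)) ((card_le_card hsub).trans hW) j j' hj
        (fun x hx => hj' x (hsub hx)) f hf hfj
    · refine hG.2 h f ?_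
      have hcrit : ∀ i, ∃ y ∈ W, row y = i := by
        intro i
        by_contra hcon
        push Not at hcon
        exact h ⟨i, hcon⟩
      obtain ⟨z, hz, hzj⟩ := hcrit j
      have hcard : (W.filter fun x => row x ≠ j).card ≤ k := by
        have h1 : (W.filter fun x => row x ≠ j) ⊆ W.erase z := by
          intro x hx
          rw [mem_filter] at hx
          refine mem_erase.mpr ⟨?_, hx.1⟩
          rintro rfl
          exact hx.2 hzj
        have h2 := card_le_card h1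
        rw [card_erase_of_mem hz] at h2
        omega
      have h1 := N.mem_span_of_mem_Aj hk hℓ (W.filter fun x => row x ≠ j)
        (fun y hy => hWv y (mem_filter.mp hy).1) hcard j (fun x hx => (mem_filter.mp hx).2)
        (by
          intro i hi
          obtain ⟨y, hy, hyi⟩ := hcrit i
          exact ⟨y, mem_filter.mpr ⟨hy, by rw [hyi]; exact hi⟩, hyi⟩) f
        (P6_VW_mono (fun x hx => mem_filter.mpr ⟨hsub hx, hj x hx⟩) hf) hfj
      refine (Submodule.span_le.mpr ?_) h1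
      rintro g ⟨x, hx, rfl⟩
      exact P6_vec_mem_Lc (mem_filter.mp hx).1
  · intro hno f hf
    refine hG.2 ?_ f (P6_Lc_mono (fun x hx => hsub hx) hf)
    rintro ⟨j, hj⟩
    exact hno ⟨j, fun x hx => hj x (hsub hx)⟩

/-! ### Assembly -/

theorem P6_eval_vec (x : N.Ax ℓ) (β : N.Vr ℓ → ZMod 2) :
    N.evalF ℓ β (N.vec ℓ x) = N.tw ℓ x + ∑ b, (N.axSlot ℓ x b).elim 0 β := by
  classical
  unfold evalF
  have h0 : N.vec ℓ x none = N.tw ℓ x := rfl
  rw [h0]
  congr 1
  have h1 : ∀ b, (N.axSlot ℓ x b).elim 0 β = ∑ v, if N.axSlot ℓ x b = some v then β v else 0 := by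
    intro b
    cases hb : N.axSlot ℓ x b with
    | none => simp
    | some w =>
      rw [Finset.sum_eq_single w]
      · simp
      · intro v _ hv
        rw [if_neg]
        intro h
        exact hv (Option.some.inj h).symm
      · intro h
        exact absurd (mem_univ _) h
  rw [Finset.sum_congr rfl fun b _ => h1 b, Finset.sum_comm]
  refine Finset.sum_congr rfl fun v _ => ?_
  unfold vec
  dsimp only
  by_cases h : ∃ b, N.axSlot ℓ x b = some v
  · rw [if_pos h, one_mul]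
    obtain ⟨b, hb⟩ := h
    rw [Finset.sum_eq_single b]
    · rw [if_pos hb]
    · intro b' _ hne
      rw [if_neg]
      intro hb'
      exact hne (N.axSlot_inj ℓ x b' b (by rw [hb, hb']) (by rw [hb']; simp))
    · intro h
      exact absurd (mem_univ _) h
  · rw [if_neg h, zero_mul]
    symm
    exact Finset.sum_eq_zero fun b _ => if_neg fun hb => h ⟨b, hb⟩

theorem P6_vec_mem_VW {W : Finset (N.Ax ℓ)} {x : N.Ax ℓ} (hx : x ∈ W) :
    N.vec ℓ x ∈ N.VW ℓ W := by
  classical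
  intro v hv
  unfold vec
  dsimp only
  rw [if_neg]
  rintro ⟨b, hb⟩
  exact hv ⟨x, hx, b, hb⟩

theorem P6_empty (hk : 2 ≤ k) (hℓ : k + 2 ≤ ℓ) : N.Good ℓ ∅ 0 := by
  refine ⟨?_, ?_⟩
  · intro j _ f hf hfj
    have h1 : ∀ v, f (some v) = 0 := fun v => hf v (by simp)
    have h2 : f = f none • N.one ℓ := by
      conv_lhs => rw [P6_form_eq f]
      rw [Finset.sum_eq_zero, add_zero]
      intro v _
      rw [h1, zero_smul]
    have h3 : ∀ a : ZMod 2, a ≠ 0 → a = 1 := by decide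
    unfold evalF
    rw [Finset.sum_eq_zero fun v _ => by rw [h1, zero_mul], add_zero]
    by_contra hne
    rw [h3 _ hne, one_smul] at h2
    exact N.one_notMem_Aj (by omega) j (h2 ▸ hfj)
  · intro h
    exact absurd ⟨⟨0, by omega⟩, by intro x hx; simp at hx⟩ h

theorem P6_ax (W : Finset (N.Ax ℓ)) (β : N.Vr ℓ → ZMod 2) (hWv : ∀ y ∈ W, N.AxValid ℓ y)
    (hG : N.Good ℓ W β) (x : N.Ax ℓ) (hx : x ∈ W) :
    (∑ b, (N.axSlot ℓ x b).elim 0 β) = N.tw ℓ x := by
  have h1 : N.evalF ℓ β (N.vec ℓ x) = 0 := by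
    by_cases h : ∃ j, N.FreeRow ℓ W j
    · obtain ⟨j, hj⟩ := h
      exact hG.1 j hj _ (P6_vec_mem_VW hx)
        (Submodule.subset_span (Or.inl ⟨x, hWv x hx, hj x hx, rfl⟩))
    · exact hG.2 h _ (P6_vec_mem_Lc hx)
  rw [P6_eval_vec] at h1
  have h2 : ∀ a b : ZMod 2, a + b = 0 → b = a := by decide
  exact h2 _ _ h1

theorem P6_ext (hk : 2 ≤ k) (hℓ : k + 2 ≤ ℓ) (hD : ¬ N.DerGoal) (W : Finset (N.Ax ℓ))
    (β : N.Vr ℓ → ZMod 2) (hWv : ∀ y ∈ W, N.AxValid ℓ y) (hW : W.card ≤ k)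
    (hG : N.Good ℓ W β) (x : N.Ax ℓ) (hxv : N.AxValid ℓ x) :
    ∃ β', (∀ W', (∀ y, y ∈ W' ↔ y = x ∨ y ∈ W) → N.Good ℓ W' β') ∧
      ∀ y ∈ W, ∀ b v, N.axSlot ℓ y b = some v → β' v = β v := by
  classical
  by_cases hxW : x ∈ W
  · refine ⟨β, ?_, fun _ _ _ _ _ => rfl⟩
    intro W' hW'
    have : W' = W := by
      ext y
      rw [hW']
      constructor
      · rintro (rfl | h)
        · exact hxW
        · exact h
      · exact Or.inr
    rw [this]
    exact hG
  obtain ⟨Wp, hWp⟩ : ∃ Wp : Finset (N.Ax ℓ), ∀ y, y ∈ Wp ↔ y = x ∨ y ∈ W :=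
    ⟨insert x W, fun y => mem_insert⟩
  have hWpe : Wp = insert x W := by
    ext y
    rw [hWp, mem_insert]
  have hWpc : Wp.card ≤ k + 1 := by
    rw [hWpe]
    exact (Finset.card_insert_le _ _).trans (by omega)
  have hWpv : ∀ y ∈ Wp, N.AxValid ℓ y := by
    intro y hy
    rcases (hWp y).mp hy with rfl | h
    · exact hxv
    · exact hWv y h
  have hsuff : ∃ β', N.Good ℓ Wp β' ∧
      ∀ y ∈ W, ∀ b v, N.axSlot ℓ y b = some v → β' v = β v := by
    by_cases hfree : ∃ j, N.FreeRow ℓ Wp j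
    · obtain ⟨j, hj⟩ := hfree
      obtain ⟨β', h1, h2⟩ := P6_dual W β (N.VW ℓ Wp ⊓ N.Aj ℓ j) (by
        intro f hf hfW
        exact hG.1 j (fun y hy => hj y ((hWp y).mpr (Or.inr hy))) f hfW hf.2)
      refine ⟨β', ⟨?_, ?_⟩, h2⟩
      · intro j' hj' f hf hfj'
        exact h1 f ⟨hf, N.swap (by omega) Wp hWpv hWpc j' j hj' hj f hf hfj'⟩
      · intro h
        exact absurd ⟨j, hj⟩ h
    · have hcritp : ∀ i, ∃ y ∈ Wp, row y = i := by
        intro i
        by_contra hcon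
        push Not at hcon
        exact hfree ⟨i, hcon⟩
      obtain ⟨β', h1, h2⟩ := P6_dual W β (N.Lc ℓ Wp) (by
        intro f hf hfW
        by_cases hfreeW : ∃ j, N.FreeRow ℓ W j
        · obtain ⟨j, hj⟩ := hfreeW
          have hxj : row x = j := by
            obtain ⟨y, hy, hyj⟩ := hcritp j
            rcases (hWp y).mp hy with rfl | h
            · exact hyj
            · exact absurd hyj (hj y h)
          refine hG.1 j hj f hfW ?_
          rw [← hxj]
          refine P6_C1 hk hD hWpv hcritp hWpc ((hWp x).mpr (Or.inl rfl)) ?_ hf ?_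
          · intro y hy hyx
            rcases (hWp y).mp hy with h | h
            · exact h
            · exact absurd (hyx.trans hxj) (hj y h)
          · intro v hv
            apply hfW
            rintro ⟨y, hy, hb⟩
            refine hv ⟨y, (hWp y).mpr (Or.inr hy), ?_, hb⟩
            rintro rfl
            exact hxW hy
        · have hcrit : ∀ i, ∃ y ∈ W, row y = i := by
            intro i
            by_contra hcon
            push Not at hcon
            exact hfreeW ⟨i, hcon⟩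
          exact hG.2 hfreeW f (P6_C2 hk hD hWv hcrit hW hxv hxW hWp hf hfW))
      refine ⟨β', ⟨?_, ?_⟩, h2⟩
      · intro j hj
        exact absurd ⟨j, hj⟩ hfree
      · intro _ f hf
        exact h1 f hf
  obtain ⟨β', h1, h2⟩ := hsuff
  refine ⟨β', ?_, h2⟩
  intro W' hW'
  have : W' = Wp := by
    ext y
    rw [hW', hWp]
  rw [this]
  exact h1

theorem goodFam (hk : 2 ≤ k) (hℓ : k + 2 ≤ ℓ) (ix : N.Ax ℓ → ℕ)
    (hix : Function.Injective ix) (M : ℕ) (hM : ∀ x, ix x + 2 ≤ M) (hD : ¬ N.DerGoal) :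
    (N.sys ℓ ix hix M hM).GoodFam k (N.tw ℓ) (N.Good ℓ) where
  empty := ⟨(0 : N.Vr ℓ → ZMod 2), P6_empty hk hℓ⟩
  ax := fun W β hWv _ hG x hx => P6_ax W β hWv hG x hx
  mono := fun W W' β hWv hW hsub hG => P6_mono hk hℓ W W' β hWv hW hsub hG
  ext := fun W β hWv hW hG x hxv => P6_ext hk hℓ hD W β hWv hW hG x hxv

end Net

end Vale.Agent.P310
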