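import Vale.Agent.P310.Num

/-!
# P310, package P7: the network of a word derives its goal iff the automaton accepts
-/

namespace Vale.Agent.P310

open Finset

/-! ## Positional numbers with digits at the valid pair codes -/

/-- The weight of the pair code `n`. -/
def P7_W (q k : ℕ) : ℕ → ℕ
  | 0 => 1
  | n + 1 => if n / k < n % k then P7_W q k n * q else P7_W q k n

/-- The value of the digits at the pair codes below `n`. -/
def P7_V (q k : ℕ) (d : ℕ → ℕ) : ℕ → ℕ
  | 0 => 0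
  | n + 1 => if n / k < n % k then P7_V q k d n + d n * P7_W q k n else P7_V q k d n

section arith

variable {q k : ℕ}

theorem P7_W_pos (hq : 0 < q) (n : ℕ) : 0 < P7_W q k n := by
  induction n with
  | zero => exact Nat.one_pos
  | succ n ih =>
    unfold P7_W
    split_ifs
    · positivity
    · exact ih

theorem P7_V_lt (d : ℕ → ℕ) (hd : ∀ e, pcOK k e → d e < q) (n : ℕ) :
    P7_V q k d n < P7_W q k n := by
  induction n with
  | zero => exact Nat.one_pos
  | succ n ih =>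
    unfold P7_W P7_V
    split_ifs with h
    · have h1 := hd n h
      have h2 : (d n + 1) * P7_W q k n ≤ q * P7_W q k n := Nat.mul_le_mul_right _ h1
      rw [Nat.add_mul, Nat.one_mul] at h2
      rw [Nat.mul_comm (P7_W q k n) q]
      omega
    · exact ih

theorem P7_V_congr {d d' : ℕ → ℕ} (n : ℕ) (h : ∀ e, e < n → pcOK k e → d e = d' e) :
    P7_V q k d n = P7_V q k d' n := by
  induction n with
  | zero => rfl
  | succ n ih =>
    unfold P7_V
    rw [ih (fun e he => h e (by omega))]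
    split_ifs with h1
    · rw [h n (by omega) h1]
    · rfl

theorem P7_V_inj (hq : 0 < q) {d d' : ℕ → ℕ} (hd : ∀ e, pcOK k e → d e < q)
    (hd' : ∀ e, pcOK k e → d' e < q) (n : ℕ) (h : P7_V q k d n = P7_V q k d' n) :
    ∀ e, e < n → pcOK k e → d e = d' e := by
  induction n with
  | zero => intro e he; omega
  | succ n ih =>
    unfold P7_V at h
    split_ifs at h with h1
    · have hl := P7_V_lt d hd n
      have hl' := P7_V_lt d' hd' n
      have hW := P7_W_pos (k := k) hq n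
      have e1 : d n = d' n := by
        have a1 : (P7_V q k d n + d n * P7_W q k n) / P7_W q k n = d n := by
          rw [Nat.add_mul_div_right _ _ hW, Nat.div_eq_of_lt hl, Nat.zero_add]
        have a2 : (P7_V q k d' n + d' n * P7_W q k n) / P7_W q k n = d' n := by
          rw [Nat.add_mul_div_right _ _ hW, Nat.div_eq_of_lt hl', Nat.zero_add]
        rw [← a1, ← a2, h]
      have e2 : P7_V q k d n = P7_V q k d' n := by
        rw [e1] at h
        omega
      intro e he hp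
      rcases Nat.lt_succ_iff_lt_or_eq.mp he with h2 | h2
      · exact ih e2 e h2 hp
      · rw [h2]; exact e1
    · intro e he hp
      rcases Nat.lt_succ_iff_lt_or_eq.mp he with h2 | h2
      · exact ih h e h2 hp
      · subst h2
        exact absurd hp h1

theorem P7_V_max (hq : 0 < q) {d : ℕ → ℕ} (n : ℕ) (h : ∀ e, e < n → pcOK k e → d e = q - 1) :
    P7_V q k d n + 1 = P7_W q k n := by
  induction n with
  | zero => rfl
  | succ n ih =>
    have ih' := ih (fun e he => h e (by omega))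
    have b1 : P7_V q k d (n + 1) = if n / k < n % k
      then P7_V q k d n + d n * P7_W q k n else P7_V q k d n := rfl
    have b2 : P7_W q k (n + 1) = if n / k < n % k
      then P7_W q k n * q else P7_W q k n := rfl
    rw [b1, b2]
    split_ifs with h1
    · rw [h n (by omega) h1]
      obtain ⟨q', rfl⟩ : ∃ q', q = q' + 1 := ⟨q - 1, by omega⟩
      rw [Nat.add_sub_cancel, Nat.mul_succ, Nat.mul_comm q' (P7_W (q' + 1) k n)]
      omega
    · exact ih'

theorem P7_V_zero {d : ℕ → ℕ} (n : ℕ) (h : ∀ e, e < n → pcOK k e → d e = 0) :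
    P7_V q k d n = 0 := by
  induction n with
  | zero => rfl
  | succ n ih =>
    unfold P7_V
    rw [ih (fun e he => h e (by omega))]
    split_ifs with h1
    · rw [h n (by omega) h1, Nat.zero_mul]
    · rfl

/-- Digits `0` in `[n, n')` do not change the value. -/
theorem P7_V_const {d : ℕ → ℕ} (n m : ℕ) (h : ∀ e, n ≤ e → e < n + m → pcOK k e → d e = 0) :
    P7_V q k d (n + m) = P7_V q k d n := by
  induction m with
  | zero => rfl
  | succ m ih =>
    have h1 : P7_V q k d (n + (m + 1)) = if (n + m) / k < (n + m) % k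
      then P7_V q k d (n + m) + d (n + m) * P7_W q k (n + m) else P7_V q k d (n + m) := rfl
    rw [h1, ih (fun e he he' => h e he (by omega))]
    split_ifs with h2
    · rw [h (n + m) (by omega) (by omega) h2, Nat.zero_mul, Nat.add_zero]
    · rfl

/-- The increment. -/
theorem P7_V_succ (hq : 0 < q) {d d' : ℕ → ℕ} (p : ℕ) (hp : pcOK k p)
    (h1 : ∀ e, e < p → pcOK k e → d e = q - 1) (h2 : d p < q - 1)
    (h3 : ∀ e, pcOK k e → d' e = if e ≤ p then (d e + 1) % q else d e) (m : ℕ) :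
    P7_V q k d' (p + 1 + m) = P7_V q k d (p + 1 + m) + 1 := by
  induction m with
  | zero =>
    have a1 : P7_V q k d' p = 0 := by
      refine P7_V_zero p (fun e he hpe => ?_)
      rw [h3 e hpe, if_pos he.le, h1 e he hpe, Nat.sub_add_cancel hq, Nat.mod_self]
    have a2 := P7_V_max hq p h1
    have a3 : d' p = d p + 1 := by
      rw [h3 p hp, if_pos le_rfl, Nat.mod_eq_of_lt (by omega)]
    have b1 : P7_V q k d' (p + 1 + 0) = P7_V q k d' p + d' p * P7_W q k p := if_pos hp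
    have b2 : P7_V q k d (p + 1 + 0) = P7_V q k d p + d p * P7_W q k p := if_pos hp
    rw [b1, b2, a1, a3, ← a2]
    ring
  | succ m ih =>
    have b1 : P7_V q k d' (p + 1 + (m + 1)) = if (p + 1 + m) / k < (p + 1 + m) % k
      then P7_V q k d' (p + 1 + m) + d' (p + 1 + m) * P7_W q k (p + 1 + m)
      else P7_V q k d' (p + 1 + m) := rfl
    have b2 : P7_V q k d (p + 1 + (m + 1)) = if (p + 1 + m) / k < (p + 1 + m) % k
      then P7_V q k d (p + 1 + m) + d (p + 1 + m) * P7_W q k (p + 1 + m)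
      else P7_V q k d (p + 1 + m) := rfl
    rw [b1, b2, ih]
    split_ifs with h4
    · rw [h3 _ h4, if_neg (by omega)]
      ring
    · rfl

/-- A number that is not the maximum has a lowest digit that is not `q - 1`. -/
theorem P7_exists_incr (hq : 0 < q) {d : ℕ → ℕ} (hd : ∀ e, pcOK k e → d e < q) (n : ℕ)
    (h : P7_V q k d n + 1 < P7_W q k n) :
    ∃ p, p < n ∧ pcOK k p ∧ (∀ e, e < p → pcOK k e → d e = q - 1) ∧ d p < q - 1 := by
  have h1 : ∃ p, p < n ∧ pcOK k p ∧ d p ≠ q - 1 := by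
    by_contra hcon
    push Not at hcon
    have := P7_V_max hq n hcon
    omega
  classical
  refine ⟨Nat.find h1, (Nat.find_spec h1).1, (Nat.find_spec h1).2.1, fun e he hpe => ?_, ?_⟩
  · by_contra hne
    exact Nat.find_min h1 he ⟨lt_trans he (Nat.find_spec h1).1, hpe, hne⟩
  · have h2 := (Nat.find_spec h1).2.2
    have h3 := hd _ (Nat.find_spec h1).2.1
    omega

/-! ### Counting the pair codes -/

theorem P7_W_row (i j : ℕ) (hj : j ≤ k) :
    P7_W q k (i * k + j) = P7_W q k (i * k) * q ^ (j - (i + 1)) := by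
  induction j with
  | zero =>
    rw [Nat.zero_sub, Nat.pow_zero, Nat.mul_one, Nat.add_zero]
  | succ j ih =>
    have ih' := ih (by omega)
    have hd : (i * k + j) / k = i := by
      rw [Nat.mul_comm, Nat.mul_add_div (by omega), Nat.div_eq_of_lt (by omega), Nat.add_zero]
    have hm : (i * k + j) % k = j := by
      rw [Nat.mul_comm, Nat.mul_add_mod, Nat.mod_eq_of_lt (by omega)]
    have h1 : P7_W q k (i * k + (j + 1)) = if (i * k + j) / k < (i * k + j) % k
      then P7_W q k (i * k + j) * q else P7_W q k (i * k + j) := rfl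
    rw [h1, hd, hm, ih']
    split_ifs with h2
    · have : j + 1 - (i + 1) = j - (i + 1) + 1 := by omega
      rw [this, Nat.pow_succ, Nat.mul_assoc]
    · have : j + 1 - (i + 1) = j - (i + 1) := by omega
      rw [this]

theorem P7_W_rows (i : ℕ) (hi : i ≤ k) :
    P7_W q k (i * k) = q ^ (∑ x ∈ range i, (k - (x + 1))) := by
  induction i with
  | zero =>
    rw [Nat.zero_mul, sum_range_zero, Nat.pow_zero]
    rfl
  | succ i ih =>
    rw [Nat.succ_mul, P7_W_row i k le_rfl, ih (by omega), sum_range_succ, Nat.pow_add]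

theorem P7_sum_range (k : ℕ) : ∑ x ∈ range k, (k - (x + 1)) = k * (k - 1) / 2 := by
  rw [← Finset.sum_range_id, ← Finset.sum_range_reflect]
  refine sum_congr rfl (fun x hx => ?_)
  have := mem_range.mp hx
  omega

theorem P7_W_top : P7_W q k (k * k) = q ^ (k * (k - 1) / 2) := by
  rw [P7_W_rows k le_rfl, P7_sum_range]

theorem P7_pTop_eq (hk : 2 ≤ k) : pTop k = (k - 2) * k + (k - 1) := by
  obtain ⟨m, rfl⟩ : ∃ m, k = m + 2 := ⟨k - 2, by omega⟩
  unfold pTop
  have h1 : m + 2 - 2 = m := by omega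
  have h2 : m + 2 - 1 = m + 1 := by omega
  have h3 : (m + 2) * (m + 2) = m * (m + 2) + (m + 1) + 1 + (m + 2) := by ring
  rw [h1, h2]
  omega

theorem P7_pTop_lt (hk : 2 ≤ k) : pTop k < k * k := by
  unfold pTop
  have : 2 * 2 ≤ k * k := Nat.mul_le_mul hk hk
  omega

theorem P7_W_pTop (hk : 2 ≤ k) : P7_W q k (pTop k) * q = P7_W q k (k * k) := by
  have h1 : k * k = (k - 2) * k + k + k := by
    obtain ⟨m, rfl⟩ : ∃ m, k = m + 2 := ⟨k - 2, by omega⟩
    have h1 : m + 2 - 2 = m := by omega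
    rw [h1]
    ring
  have h2 : P7_W q k (k * k) = P7_W q k ((k - 1) * k) := by
    have h3 : k * k = (k - 1) * k + k := by
      obtain ⟨m, rfl⟩ : ∃ m, k = m + 2 := ⟨k - 2, by omega⟩
      have h1 : m + 2 - 1 = m + 1 := by omega
      rw [h1]
      ring
    conv_lhs => rw [h3]
    rw [P7_W_row (k - 1) k le_rfl]
    have : k - (k - 1 + 1) = 0 := by omega
    rw [this, Nat.pow_zero, Nat.mul_one]
  have h3 : P7_W q k ((k - 1) * k) = P7_W q k ((k - 2) * k) * q := by
    have h4 : (k - 1) * k = (k - 2) * k + k := by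
      obtain ⟨m, rfl⟩ : ∃ m, k = m + 2 := ⟨k - 2, by omega⟩
      have h1 : m + 2 - 1 = m + 1 := by omega
      have h2 : m + 2 - 2 = m := by omega
      rw [h1, h2]
      ring
    rw [h4, P7_W_row (k - 2) k le_rfl]
    have : k - (k - 2 + 1) = 1 := by omega
    rw [this, Nat.pow_one]
  rw [h2, h3, P7_pTop_eq hk, P7_W_row (k - 2) (k - 1) (by omega)]
  have : k - 1 - (k - 2 + 1) = 0 := by omega
  rw [this, Nat.pow_zero, Nat.mul_one]

theorem P7_W_pTop_eq (hk : 3 ≤ k) (hq : 0 < q) :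
    P7_W q k (pTop k) = q ^ (k * (k - 1) / 2 - 1) := by
  have h1 := P7_W_pTop (q := q) (k := k) (by omega)
  rw [P7_W_top] at h1
  have h2 : 1 ≤ k * (k - 1) / 2 := by
    have : 3 * 2 ≤ k * (k - 1) := Nat.mul_le_mul hk (by omega)
    omega
  obtain ⟨m, hm⟩ : ∃ m, k * (k - 1) / 2 = m + 1 := ⟨k * (k - 1) / 2 - 1, by omega⟩
  rw [hm, Nat.pow_succ] at h1
  rw [hm, Nat.add_sub_cancel]
  exact Nat.eq_of_mul_eq_mul_right hq h1

theorem P7_pcOK_lt (hk : 0 < k) {e : ℕ} (h : pcOK k e) : e < k * k := by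
  unfold pcOK at h
  have h1 := Nat.mod_lt e hk
  exact (Nat.div_lt_iff_lt_mul hk).mp (lt_trans h h1)

/-- The value of the digits `j` at `1` and `1` at the top. -/
theorem P7_V_special (hk : 3 ≤ k) (j : ℕ) {d : ℕ → ℕ}
    (hd : ∀ e, pcOK k e → d e = if e = 1 then j else if e = pTop k then 1 else 0) :
    P7_V q k d (k * k) = j + P7_W q k (pTop k) := by
  have hp : 2 ≤ pTop k := by
    have : 3 * 3 ≤ k * k := Nat.mul_le_mul hk hk
    have h2 : 3 * k ≤ k * k := Nat.mul_le_mul_right k hk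
    unfold pTop
    omega
  have h1k : pcOK k 1 := by
    unfold pcOK
    rw [Nat.div_eq_of_lt (by omega), Nat.mod_eq_of_lt (by omega)]
    exact Nat.one_pos
  have hpk : pcOK k (pTop k) := by
    unfold pcOK
    rw [P7_pTop_eq (by omega)]
    rw [Nat.mul_comm, Nat.mul_add_div (by omega), Nat.div_eq_of_lt (by omega), Nat.add_zero,
      Nat.mul_add_mod, Nat.mod_eq_of_lt (by omega)]
    omega
  have a1 : P7_V q k d 2 = j := by
    have b1 : P7_V q k d 2 = if 1 / k < 1 % k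
      then P7_V q k d 1 + d 1 * P7_W q k 1 else P7_V q k d 1 := rfl
    have b2 : P7_V q k d 1 = if 0 / k < 0 % k
      then P7_V q k d 0 + d 0 * P7_W q k 0 else P7_V q k d 0 := rfl
    have b3 : P7_W q k 1 = if 0 / k < 0 % k
      then P7_W q k 0 * q else P7_W q k 0 := rfl
    have b4 : ¬ (0 / k < 0 % k) := by
      rw [Nat.zero_div, Nat.zero_mod]
      omega
    have b5 : P7_V q k d 0 = 0 := rfl
    have b6 : P7_W q k 0 = 1 := rfl
    have h1k' : 1 / k < 1 % k := h1k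
    rw [b1, if_pos h1k', b2, if_neg b4, b3, if_neg b4, b5, b6, hd 1 h1k, if_pos rfl]
    omega
  have a2 : P7_V q k d (pTop k) = j := by
    have : pTop k = 2 + (pTop k - 2) := by omega
    rw [this, P7_V_const 2 (pTop k - 2), a1]
    intro e he he' hpe
    rw [hd e hpe, if_neg (by omega), if_neg (by omega)]
  have a3 : P7_V q k d (pTop k + 1) = j + P7_W q k (pTop k) := by
    have b1 : P7_V q k d (pTop k + 1) = if pTop k / k < pTop k % k
      then P7_V q k d (pTop k) + d (pTop k) * P7_W q k (pTop k) else P7_V q k d (pTop k) := rfl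
    have hpk' : pTop k / k < pTop k % k := hpk
    rw [b1, if_pos hpk', a2, hd _ hpk, if_neg (by omega), if_pos rfl, Nat.one_mul]
  have hlt := P7_pTop_lt (k := k) (by omega)
  have : k * k = pTop k + 1 + (k * k - (pTop k + 1)) := by omega
  rw [this, P7_V_const (pTop k + 1) (k * k - (pTop k + 1)), a3]
  intro e he he' hpe
  rw [hd e hpe, if_neg (by omega), if_neg (by omega)]

end arith

/-! ## Decoding clauses -/

section decode

variable {w : List Bool} {k : ℕ}

theorem P7_cP {kd x₁ x₂ x₃ x₄ p : ℕ} (hp : p < pB k) :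
    cP k (cCode w k kd x₁ x₂ x₃ x₄ p) = p := by
  unfold cP cCode
  rw [Nat.mul_comm, Nat.mul_add_mod, Nat.mod_eq_of_lt hp]

theorem P7_div_pB {kd x₁ x₂ x₃ x₄ p : ℕ} (hp : p < pB k) :
    cCode w k kd x₁ x₂ x₃ x₄ p / pB k =
      (((kd * qOf w + x₁) * qOf w + x₂) * qOf w + x₃) * qOf w + x₄ := by
  unfold cCode
  rw [Nat.mul_comm _ (pB k), Nat.mul_add_div (pB_pos k), Nat.div_eq_of_lt hp, Nat.add_zero]

theorem P7_div_q (y x : ℕ) (hx : x < qOf w) : (y * qOf w + x) / qOf w = y := by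
  rw [Nat.mul_comm y, Nat.mul_add_div (qOf_pos w), Nat.div_eq_of_lt hx, Nat.add_zero]

theorem P7_mod_q (y x : ℕ) (hx : x < qOf w) : (y * qOf w + x) % qOf w = x := by
  rw [Nat.mul_comm y, Nat.mul_add_mod, Nat.mod_eq_of_lt hx]

theorem P7_cX4 {kd x₁ x₂ x₃ x₄ p : ℕ} (hp : p < pB k) (h4 : x₄ < qOf w) :
    cX4 w k (cCode w k kd x₁ x₂ x₃ x₄ p) = x₄ := by
  unfold cX4
  rw [P7_div_pB hp, P7_mod_q _ _ h4]

theorem P7_cX3 {kd x₁ x₂ x₃ x₄ p : ℕ} (hp : p < pB k) (h4 : x₄ < qOf w) (h3 : x₃ < qOf w) :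
    cX3 w k (cCode w k kd x₁ x₂ x₃ x₄ p) = x₃ := by
  unfold cX3
  rw [P7_div_pB hp, P7_div_q _ _ h4, P7_mod_q _ _ h3]

theorem P7_cX2 {kd x₁ x₂ x₃ x₄ p : ℕ} (hp : p < pB k) (h4 : x₄ < qOf w) (h3 : x₃ < qOf w)
    (h2 : x₂ < qOf w) : cX2 w k (cCode w k kd x₁ x₂ x₃ x₄ p) = x₂ := by
  unfold cX2
  rw [P7_div_pB hp, P7_div_q _ _ h4, P7_div_q _ _ h3, P7_mod_q _ _ h2]

theorem P7_cX1 {kd x₁ x₂ x₃ x₄ p : ℕ} (hp : p < pB k) (h4 : x₄ < qOf w) (h3 : x₃ < qOf w)
    (h2 : x₂ < qOf w) (h1 : x₁ < qOf w) : cX1 w k (cCode w k kd x₁ x₂ x₃ x₄ p) = x₁ := by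
  unfold cX1
  rw [P7_div_pB hp, P7_div_q _ _ h4, P7_div_q _ _ h3, P7_div_q _ _ h2, P7_mod_q _ _ h1]

theorem P7_cKd {kd x₁ x₂ x₃ x₄ p : ℕ} (hp : p < pB k) (h4 : x₄ < qOf w) (h3 : x₃ < qOf w)
    (h2 : x₂ < qOf w) (h1 : x₁ < qOf w) : cKd w k (cCode w k kd x₁ x₂ x₃ x₄ p) = kd := by
  unfold cKd
  rw [P7_div_pB hp, P7_div_q _ _ h4, P7_div_q _ _ h3, P7_div_q _ _ h2, P7_div_q _ _ h1]

theorem P7_cCode_lt {kd x₁ x₂ x₃ x₄ p : ℕ} (hkd : kd < 12) (hp : p < pB k) (h4 : x₄ < qOf w)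
    (h3 : x₃ < qOf w) (h2 : x₂ < qOf w) (h1 : x₁ < qOf w) :
    cCode w k kd x₁ x₂ x₃ x₄ p < numC w k := by
  have step : ∀ {y n x m : ℕ}, y < n → x < m → y * m + x < n * m := by
    intro y n x m hy hx
    have : (y + 1) * m ≤ n * m := Nat.mul_le_mul_right m hy
    rw [Nat.succ_mul] at this
    omega
  have e : numC w k = ((((12 * qOf w) * qOf w) * qOf w) * qOf w) * pB k := by
    unfold numC
    ring
  rw [e]
  unfold cCode
  exact step (step (step (step (step hkd h1) h2) h3) h4) hp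

theorem P7_cKd_lt {c : ℕ} (hc : c < numC w k) : cKd w k c < 12 := by
  unfold numC at hc
  unfold cKd
  have h1 := qOf_pos w
  have h2 := pB_pos k
  rw [Nat.div_div_eq_div_mul, Nat.div_div_eq_div_mul, Nat.div_div_eq_div_mul,
    Nat.div_div_eq_div_mul]
  rw [Nat.div_lt_iff_lt_mul (by positivity)]
  calc c < _ := hc
    _ = _ := by ring

end decode

/-! ## Contexts -/

/-- The digit of the context `F` at the pair code `e` (in the component `π`). -/
def P7_dig {w : List Bool} {k : ℕ} (π : ZMod (qOf w) × ZMod (qOf w) → ZMod (qOf w))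
    (F : Fin k → Fin k → ZMod (qOf w) × ZMod (qOf w)) (e : ℕ) : ℕ :=
  if h : e / k < k ∧ e % k < k then (π (F ⟨e / k, h.1⟩ ⟨e % k, h.2⟩)).val else 0

section ctx

variable {w : List Bool} {k : ℕ}

theorem P7_dig_lt (π : ZMod (qOf w) × ZMod (qOf w) → ZMod (qOf w))
    (F : Fin k → Fin k → ZMod (qOf w) × ZMod (qOf w)) (e : ℕ) : P7_dig π F e < qOf w := by
  unfold P7_dig
  split_ifs
  · exact ZMod.val_lt _
  · exact qOf_pos w

theorem P7_pcOK_bounds {e : ℕ} (hk : 0 < k) (h : pcOK k e) : e / k < k ∧ e % k < k := by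
  have h1 := Nat.mod_lt e hk
  exact ⟨lt_trans h h1, h1⟩

/-- The pair of a valid code. -/
theorem P7_pc_of_code {e : ℕ} (h : pcOK k e) : pc k (e / k) (e % k) = e := by
  unfold pc
  unfold pcOK at h
  rw [min_eq_left h.le, max_eq_right h.le, mul_comm]
  exact Nat.div_add_mod _ _

theorem P7_pcOK_pc {i j : Fin k} (h : i ≠ j) : pcOK k (pc k i j) := by
  have hne : (i : ℕ) ≠ j := fun e => h (Fin.ext e)
  have hi := i.2
  have hj := j.2
  unfold pcOK pc
  have h1 : max (i : ℕ) j < k := max_lt hi hj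
  rw [Nat.mul_comm, Nat.mul_add_div (by omega), Nat.div_eq_of_lt h1, Nat.add_zero,
    Nat.mul_add_mod, Nat.mod_eq_of_lt h1]
  omega

theorem P7_dig_pc (π : ZMod (qOf w) × ZMod (qOf w) → ZMod (qOf w))
    (F : Fin k → Fin k → ZMod (qOf w) × ZMod (qOf w)) (hF : ∀ i j, F i j = F j i) {i j : Fin k}
    (h : i ≠ j) : P7_dig π F (pc k i j) = (π (F i j)).val := by
  have hne : (i : ℕ) ≠ j := fun e => h (Fin.ext e)
  have hi := i.2
  have hj := j.2
  have h1 : max (i : ℕ) j < k := max_lt hi hj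
  have e1 : pc k i j / k = min (i : ℕ) j := by
    unfold pc
    rw [Nat.mul_comm, Nat.mul_add_div (by omega), Nat.div_eq_of_lt h1, Nat.add_zero]
  have e2 : pc k i j % k = max (i : ℕ) j := by
    unfold pc
    rw [Nat.mul_comm, Nat.mul_add_mod, Nat.mod_eq_of_lt h1]
  unfold P7_dig
  rw [dif_pos ⟨by omega, by omega⟩]
  rcases Nat.lt_or_ge (i : ℕ) j with h2 | h2
  · have a1 : (⟨pc k i j / k, by omega⟩ : Fin k) = i := Fin.ext (by simp only; omega)
    have a2 : (⟨pc k i j % k, by omega⟩ : Fin k) = j := Fin.ext (by simp only; omega)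
    rw [a1, a2]
  · have a1 : (⟨pc k i j / k, by omega⟩ : Fin k) = j := Fin.ext (by simp only; omega)
    have a2 : (⟨pc k i j % k, by omega⟩ : Fin k) = i := Fin.ext (by simp only; omega)
    rw [a1, a2, hF]

/-- The value of the first component. -/
def P7_U (F : Fin k → Fin k → ZMod (qOf w) × ZMod (qOf w)) : ℕ :=
  P7_V (qOf w) k (P7_dig Prod.fst F) (k * k)

/-- The value of the second component. -/
def P7_Vv (F : Fin k → Fin k → ZMod (qOf w) × ZMod (qOf w)) : ℕ :=
  P7_V (qOf w) k (P7_dig Prod.snd F) (k * k)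

theorem P7_dig_add (hk : 0 < k) (F s : Fin k → Fin k → ZMod (qOf w) × ZMod (qOf w)) (a b : ℕ → ℕ)
    (hs : ∀ i j, i ≠ j → s i j = ((a (pc k i j) : ZMod (qOf w)), (b (pc k i j) : ZMod (qOf w))))
    (e : ℕ) (he : pcOK k e) :
    P7_dig Prod.fst (F + s) e = (P7_dig Prod.fst F e + a e) % qOf w ∧
      P7_dig Prod.snd (F + s) e = (P7_dig Prod.snd F e + b e) % qOf w := by
  have hb := P7_pcOK_bounds hk he
  have hne : (⟨e / k, hb.1⟩ : Fin k) ≠ ⟨e % k, hb.2⟩ := by
    intro h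
    have := congrArg Fin.val h
    simp only at this
    unfold pcOK at he
    omega
  have h1 := hs _ _ hne
  simp only at h1
  rw [P7_pc_of_code he] at h1
  unfold P7_dig
  rw [dif_pos hb, dif_pos hb, dif_pos hb, dif_pos hb]
  constructor
  · rw [Pi.add_apply, Pi.add_apply, h1, Prod.fst_add, ZMod.val_add, ZMod.val_natCast, Nat.add_mod_mod]
  · rw [Pi.add_apply, Pi.add_apply, h1, Prod.snd_add, ZMod.val_add, ZMod.val_natCast, Nat.add_mod_mod]

theorem P7_sh (hk : 2 ≤ k) (c : Fin (numC w k)) (b : ℕ) (i j : Fin k) (h : i ≠ j) :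
    (netOf w hk).sh c b i j =
      (((shN w k c b (pc k i j) 1 : ℕ), (shN w k c b (pc k i j) 2 : ℕ)) :
        ZMod (qOf w) × ZMod (qOf w)) := if_neg h

theorem P7_sh_zero (hk : 2 ≤ k) (c : Fin (numC w k)) (b : ℕ)
    (h : b ≠ 0 ∨ shComp (cKd w k c) = 0) (F : Fin k → Fin k → (netOf w hk).Λ) :
    F + (netOf w hk).sh c b = F := by
  have h0 : (netOf w hk).sh c b = 0 := by
    funext i j
    by_cases hij : i = j
    · exact if_pos hij
    · rw [P7_sh hk c b i j hij]
      have h1 : ∀ e comp, comp ≠ 0 → shN w k c b e comp = 0 := by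
        intro e comp hcomp
        unfold shN
        rw [if_neg]
        rintro ⟨h1, h2, -⟩
        rcases h with h | h
        · exact h h1
        · exact hcomp (by rw [← h2, h])
      rw [h1 _ 1 (by omega), h1 _ 2 (by omega), Nat.cast_zero]
      rfl
  rw [h0, add_zero]

/-- What it means that a clause is allowed at a context. -/
theorem P7_allowed_iff (hk : 2 ≤ k) (c : Fin (numC w k)) (F : Fin k → Fin k → (netOf w hk).Λ)
    (hF : (netOf w hk).IsCtx F) : (netOf w hk).Allowed c F ↔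
      (clOK w k c ∧ ∀ e, pcOK k e → digOK w k c e (P7_dig Prod.fst F e) (P7_dig Prod.snd F e)) := by
  have hF' : ∀ i j, F i j = F j i := hF.1
  constructor
  · intro h
    refine ⟨?_, fun e he => ?_⟩
    · have := h ⟨0, by omega⟩ ⟨1, by omega⟩ (by
        intro h
        have := congrArg Fin.val h
        simp only at this
        omega)
      exact this.1
    · have hb := P7_pcOK_bounds (show 0 < k by omega) he
      have hne : (⟨e / k, hb.1⟩ : Fin k) ≠ ⟨e % k, hb.2⟩ := by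
        intro h
        have := congrArg Fin.val h
        simp only at this
        unfold pcOK at he
        omega
      have h1 := (h _ _ hne).2
      simp only [P7_pc_of_code he] at h1
      have e1 : P7_dig Prod.fst F e = (F ⟨e / k, hb.1⟩ ⟨e % k, hb.2⟩).1.val := dif_pos hb
      have e2 : P7_dig Prod.snd F e = (F ⟨e / k, hb.1⟩ ⟨e % k, hb.2⟩).2.val := dif_pos hb
      rw [e1, e2]
      exact h1
  · rintro ⟨h1, h2⟩ i j hij
    refine ⟨h1, ?_⟩
    have h3 := h2 _ (P7_pcOK_pc hij)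
    rw [P7_dig_pc Prod.fst F hF' hij, P7_dig_pc Prod.snd F hF' hij] at h3
    exact h3

theorem P7_isCtx_add (hk : 2 ≤ k) (c : Fin (numC w k)) (b : ℕ)
    (F : Fin k → Fin k → (netOf w hk).Λ) (hF : (netOf w hk).IsCtx F) :
    (netOf w hk).IsCtx (F + (netOf w hk).sh c b) := by
  constructor
  · intro i j
    rw [Pi.add_apply, Pi.add_apply, Pi.add_apply, Pi.add_apply, hF.1 i j,
      (netOf w hk).sh_symm c b i j]
  · intro i
    rw [Pi.add_apply, Pi.add_apply, hF.2 i, (netOf w hk).sh_diag c b i, add_zero]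

/-- The shift in the first component. -/
theorem P7_shift_u (hk : 2 ≤ k) (c : Fin (numC w k)) (F : Fin k → Fin k → (netOf w hk).Λ)
    (hc : shComp (cKd w k c) = 1) (hp : pcOK k (cP k c))
    (h1 : ∀ e, pcOK k e → e < cP k c → P7_dig Prod.fst F e = qOf w - 1)
    (h2 : P7_dig Prod.fst F (cP k c) ≠ qOf w - 1) :
    P7_U (F + (netOf w hk).sh c 0) = P7_U (w := w) F + 1 ∧
      P7_Vv (F + (netOf w hk).sh c 0) = P7_Vv (w := w) F := by
  have hs := P7_dig_add (w := w) (show 0 < k by omega) F ((netOf w hk).sh c 0)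
    (fun e => shN w k c 0 e 1) (fun e => shN w k c 0 e 2) (fun i j hij => P7_sh hk c 0 i j hij)
  have hlt : cP k c < k * k := P7_pcOK_lt (by omega) hp
  constructor
  · unfold P7_U
    have : k * k = cP k c + 1 + (k * k - (cP k c + 1)) := by omega
    rw [this]
    refine P7_V_succ (qOf_pos w) (cP k c) hp (fun e he hpe => h1 e hpe he) ?_ ?_ _
    · have := P7_dig_lt (w := w) Prod.fst F (cP k c)
      omega
    · intro e he
      refine Eq.trans (hs e he).1 ?_
      unfold shN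
      by_cases hle : e ≤ cP k c
      · rw [if_pos ⟨rfl, hc, hle⟩, if_pos hle]
      · rw [if_neg (fun h => hle h.2.2), if_neg hle, Nat.add_zero]
        exact Nat.mod_eq_of_lt (P7_dig_lt (w := w) _ F e)
  · unfold P7_Vv
    refine P7_V_congr _ (fun e _ he => Eq.trans (hs e he).2 ?_)
    unfold shN
    rw [if_neg (fun h => by rw [hc] at h; exact absurd h.2.1 (by omega)), Nat.add_zero]
    exact Nat.mod_eq_of_lt (P7_dig_lt (w := w) _ F e)

/-- The shift in the second component. -/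
theorem P7_shift_v (hk : 2 ≤ k) (c : Fin (numC w k)) (F : Fin k → Fin k → (netOf w hk).Λ)
    (hc : shComp (cKd w k c) = 2) (hp : pcOK k (cP k c))
    (h1 : ∀ e, pcOK k e → e < cP k c → P7_dig Prod.snd F e = qOf w - 1)
    (h2 : P7_dig Prod.snd F (cP k c) ≠ qOf w - 1) :
    P7_U (F + (netOf w hk).sh c 0) = P7_U (w := w) F ∧
      P7_Vv (F + (netOf w hk).sh c 0) = P7_Vv (w := w) F + 1 := by
  have hs := P7_dig_add (w := w) (show 0 < k by omega) F ((netOf w hk).sh c 0)
    (fun e => shN w k c 0 e 1) (fun e => shN w k c 0 e 2) (fun i j hij => P7_sh hk c 0 i j hij)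
  have hlt : cP k c < k * k := P7_pcOK_lt (by omega) hp
  constructor
  · unfold P7_U
    refine P7_V_congr _ (fun e _ he => Eq.trans (hs e he).1 ?_)
    unfold shN
    rw [if_neg (fun h => by rw [hc] at h; exact absurd h.2.1 (by omega)), Nat.add_zero]
    exact Nat.mod_eq_of_lt (P7_dig_lt (w := w) _ F e)
  · unfold P7_Vv
    have : k * k = cP k c + 1 + (k * k - (cP k c + 1)) := by omega
    rw [this]
    refine P7_V_succ (qOf_pos w) (cP k c) hp (fun e he hpe => h1 e hpe he) ?_ ?_ _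
    · have := P7_dig_lt (w := w) Prod.snd F (cP k c)
      omega
    · intro e he
      refine Eq.trans (hs e he).2 ?_
      unfold shN
      by_cases hle : e ≤ cP k c
      · rw [if_pos ⟨rfl, hc, hle⟩, if_pos hle]
      · rw [if_neg (fun h => hle h.2.2), if_neg hle, Nat.add_zero]
        exact Nat.mod_eq_of_lt (P7_dig_lt (w := w) _ F e)

end ctx

/-! ## The invariant -/

/-- What a derivable statement (number `s`, context values `U`, `V`) says about the automaton. -/
def P7_Inv (w : List Bool) (k s U V : ℕ) : Prop :=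
  ∀ x, x < qOf w →
    (s = x → CAder w (P7_W (qOf w) k (k * k) - 1 - U)
      ((V : ℤ) + ((P7_W (qOf w) k (k * k) - 1 - U : ℕ) : ℤ) - (P7_W (qOf w) k (pTop k) : ℕ)) x) ∧
    (s = qOf w + x → CAder w (P7_W (qOf w) k (k * k) - 1 - U)
      ((V : ℤ) + 1 + ((P7_W (qOf w) k (k * k) - 1 - U : ℕ) : ℤ) - (P7_W (qOf w) k (pTop k) : ℕ)) x) ∧
    (s = 2 * qOf w + x → CAder w (P7_W (qOf w) k (k * k) - 1 - U)
      ((V : ℤ) + 2 + ((P7_W (qOf w) k (k * k) - 1 - U : ℕ) : ℤ) - (P7_W (qOf w) k (pTop k) : ℕ)) x) ∧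
    (s = 3 * qOf w + x → CAder w (P7_W (qOf w) k (k * k) - 1 - U + 1)
      ((V : ℤ) + 1 + ((P7_W (qOf w) k (k * k) - 1 - U : ℕ) : ℤ) - (P7_W (qOf w) k (pTop k) : ℕ)) x) ∧
    (s = 4 * qOf w + x → U = P7_W (qOf w) k (k * k) - 1) ∧
    (s = 5 * qOf w + x → ∃ (t : ℕ) (p : ℤ) (y : ℕ), CAder w t p y ∧ accOK w y)

section inv

variable {w : List Bool} {k : ℕ}

theorem P7_U_lt (F : Fin k → Fin k → ZMod (qOf w) × ZMod (qOf w)) :
    P7_U F < P7_W (qOf w) k (k * k) :=
  P7_V_lt _ (fun e _ => P7_dig_lt _ F e) _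

theorem P7_Vv_lt (F : Fin k → Fin k → ZMod (qOf w) × ZMod (qOf w)) :
    P7_Vv F < P7_W (qOf w) k (k * k) :=
  P7_V_lt _ (fun e _ => P7_dig_lt _ F e) _

theorem P7_initSym_lt (j : ℕ) : initSym w j ≤ 3 := by
  unfold initSym bitAt
  split_ifs <;> omega

theorem P7_stmt0 {c : ℕ} (h : cKd w k c = 0) : stmtN w k c 0 = cX1 w k c ∧
    stmtN w k c 1 = qOf w + cX2 w k c ∧ stmtN w k c 2 = 2 * qOf w + cX3 w k c ∧
    stmtN w k c 3 = 3 * qOf w + cX4 w k c := by
  unfold stmtN
  dsimp only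
  rw [h]
  exact ⟨rfl, rfl, rfl, rfl⟩

theorem P7_stmt1 {c : ℕ} (h : cKd w k c = 1) : stmtN w k c 0 = 3 * qOf w + cX1 w k c ∧
    stmtN w k c 1 = cX1 w k c := by
  unfold stmtN
  dsimp only
  rw [h]
  exact ⟨rfl, rfl⟩

theorem P7_stmt2 {c : ℕ} (h : cKd w k c = 2) : stmtN w k c 0 = cX1 w k c ∧
    stmtN w k c 1 = qOf w + cX1 w k c := by
  unfold stmtN
  dsimp only
  rw [h]
  exact ⟨rfl, rfl⟩

theorem P7_stmt3 {c : ℕ} (h : cKd w k c = 3) : stmtN w k c 0 = qOf w + cX1 w k c ∧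
    stmtN w k c 1 = 2 * qOf w + cX1 w k c := by
  unfold stmtN
  dsimp only
  rw [h]
  exact ⟨rfl, rfl⟩

theorem P7_stmt4 {c : ℕ} (h : cKd w k c = 4) (b : ℕ) : stmtN w k c b = 4 * qOf w := by
  unfold stmtN
  dsimp only
  rw [h]
  rfl

theorem P7_stmt5 {c : ℕ} (h : cKd w k c = 5) (b : ℕ) : stmtN w k c b = 5 * qOf w := by
  unfold stmtN
  dsimp only
  rw [h]
  rfl

theorem P7_stmt6 {c : ℕ} (h : cKd w k c = 6) (b : ℕ) : stmtN w k c b = 5 * qOf w := by
  unfold stmtN
  dsimp only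
  rw [h]
  rfl

theorem P7_stmt7 (hN : 4 ≤ w.length) {c : ℕ} (h : cKd w k c = 7) (b : ℕ) :
    stmtN w k c b = initSym w (cX1 w k c) := by
  have h1 : stmtN w k c b = initSym w (cX1 w k c) % qOf w := by
    unfold stmtN
    dsimp only
    rw [h]
    rfl
  rw [h1]
  apply Nat.mod_eq_of_lt
  have := P7_initSym_lt (w := w) (cX1 w k c)
  unfold qOf
  omega

theorem P7_stmt8 {c : ℕ} (h : cKd w k c = 8) (b : ℕ) : stmtN w k c b = 4 * qOf w := by
  unfold stmtN
  dsimp only
  rw [h]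
  rfl

theorem P7_stmt9 {c : ℕ} (h : cKd w k c = 9) : stmtN w k c 0 = 4 * qOf w ∧
    stmtN w k c 1 = 0 := by
  unfold stmtN
  dsimp only
  rw [h]
  exact ⟨rfl, rfl⟩

theorem P7_stmt10 {c : ℕ} (h : cKd w k c = 10) : stmtN w k c 0 = cX1 w k c ∧
    stmtN w k c 1 = 5 * qOf w := by
  unfold stmtN
  dsimp only
  rw [h]
  exact ⟨rfl, rfl⟩

/-- All first digits maximal. -/
theorem P7_U_max (F : Fin k → Fin k → ZMod (qOf w) × ZMod (qOf w))
    (h : ∀ e, pcOK k e → P7_dig Prod.fst F e = qOf w - 1) :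
    P7_U F = P7_W (qOf w) k (k * k) - 1 := by
  have := P7_V_max (qOf_pos w) (k * k) (fun e _ he => h e he)
  unfold P7_U
  omega

theorem P7_inv_step (hk : 3 ≤ k) (hN : 4 ≤ w.length) (c : Fin (numC w k))
    (hc : (c : ℕ) ≠ goalC w k)
    (F : Fin k → Fin k → (netOf w (show 2 ≤ k by omega)).Λ)
    (hF : (netOf w (show 2 ≤ k by omega)).IsCtx F)
    (hA : (netOf w (show 2 ≤ k by omega)).Allowed c F)
    (ih : ∀ b, b < nbN w k c → P7_Inv w k (stmtN w k c b)
      (P7_U (w := w) (F + (netOf w (show 2 ≤ k by omega)).sh c b))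
      (P7_Vv (w := w) (F + (netOf w (show 2 ≤ k by omega)).sh c b))) :
    P7_Inv w k (stmtN w k c (nbN w k c)) (P7_U (w := w) F) (P7_Vv (w := w) F) := by
  obtain ⟨hcl, hdig⟩ := (P7_allowed_iff _ c F hF).mp hA
  obtain ⟨c0, cp, c7, c10, c11⟩ := hcl
  have hlt := P7_cKd_lt c.2
  have hq := qOf_pos w
  have hUlt := P7_U_lt (w := w) F
  have e1 : cX1 w k c < qOf w := Nat.mod_lt _ hq
  have e2 : cX2 w k c < qOf w := Nat.mod_lt _ hq
  have e3 : cX3 w k c < qOf w := Nat.mod_lt _ hq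
  have e4 : cX4 w k c < qOf w := Nat.mod_lt _ hq
  have hkk : ∀ {n : ℕ}, cKd w k c = n → nbN w k c = nbKd n := by
    intro n h
    unfold nbN
    rw [h]
  have hkd : cKd w k c = 0 ∨ cKd w k c = 1 ∨ cKd w k c = 2 ∨ cKd w k c = 3 ∨ cKd w k c = 4 ∨
      cKd w k c = 5 ∨ cKd w k c = 6 ∨ cKd w k c = 7 ∨ cKd w k c = 8 ∨ cKd w k c = 9 ∨
      cKd w k c = 10 ∨ cKd w k c = 11 := by omega
  rcases hkd with h | h | h | h | h | h | h | h | h | h | h | h
  · -- kind 0
    have hnb : nbN w k c = 3 := hkk h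
    rw [hnb] at ih ⊢
    have i0 := ih 0 (by omega)
    have i1 := ih 1 (by omega)
    have i2 := ih 2 (by omega)
    rw [P7_sh_zero _ c _ (Or.inr (by rw [h]; rfl))] at i0 i1 i2
    obtain ⟨s0, s1, s2, s3⟩ := P7_stmt0 h
    rw [s0] at i0
    rw [s1] at i1
    rw [s2] at i2
    rw [s3]
    have j0 := (i0 _ e1).1 rfl
    have j1 := (i1 _ e2).2.1 rfl
    have j2 := (i2 _ e3).2.2.1 rfl
    intro x hx
    refine ⟨by omega, by omega, by omega, ?_, by omega, by omega⟩
    intro hxx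
    have hx4 : x = cX4 w k c := by omega
    subst hx4
    refine CAder.step _ _ _ _ _ _ ?_ ?_ ?_ (c0 h)
    · convert j0 using 1
      ring
    · exact j1
    · convert j2 using 1
      ring
  · -- kind 1
    have hnb : nbN w k c = 1 := hkk h
    rw [hnb] at ih ⊢
    have i0 := ih 0 (by omega)
    have hp := cp (Or.inl (by omega))
    have hd1 : ∀ e, pcOK k e → e < cP k c → P7_dig Prod.fst F e = qOf w - 1 :=
      fun e he hlt => ((hdig e he).1 (by rw [h]; rfl)).1 hlt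
    have hd2 : P7_dig Prod.fst F (cP k c) ≠ qOf w - 1 :=
      ((hdig _ hp).1 (by rw [h]; rfl)).2 rfl
    obtain ⟨hU, hV⟩ := P7_shift_u (show 2 ≤ k by omega) c F (by rw [h]; rfl) hp hd1 hd2
    have hUlt' := P7_U_lt (w := w) (F + (netOf w (show 2 ≤ k by omega)).sh c 0)
    rw [hU] at hUlt'
    rw [hU, hV] at i0
    obtain ⟨s0, s1⟩ := P7_stmt1 h
    rw [s0] at i0
    rw [s1]
    have j0 := (i0 _ e1).2.2.2.1 rfl
    intro x hx
    refine ⟨?_, by omega, by omega, by omega, by omega, by omega⟩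
    intro hxx
    subst hxx
    have a1 : P7_W (qOf w) k (k * k) - 1 - (P7_U (w := w) F + 1) + 1 =
        P7_W (qOf w) k (k * k) - 1 - P7_U (w := w) F := by omega
    rw [a1] at j0
    convert j0 using 1
    rw [← a1]
    push_cast
    ring
  · -- kind 2
    have hnb : nbN w k c = 1 := hkk h
    rw [hnb] at ih ⊢
    have i0 := ih 0 (by omega)
    have hp := cp (Or.inl (by omega))
    have hd1 : ∀ e, pcOK k e → e < cP k c → P7_dig Prod.snd F e = qOf w - 1 :=
      fun e he hlt => ((hdig e he).2.1 (by rw [h]; rfl)).1 hlt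
    have hd2 : P7_dig Prod.snd F (cP k c) ≠ qOf w - 1 :=
      ((hdig _ hp).2.1 (by rw [h]; rfl)).2 rfl
    obtain ⟨hU, hV⟩ := P7_shift_v (show 2 ≤ k by omega) c F (by rw [h]; rfl) hp hd1 hd2
    rw [hU, hV] at i0
    obtain ⟨s0, s1⟩ := P7_stmt2 h
    rw [s0] at i0
    rw [s1]
    have j0 := (i0 _ e1).1 rfl
    intro x hx
    refine ⟨by omega, ?_, by omega, by omega, by omega, by omega⟩
    intro hxx
    have hx4 : x = cX1 w k c := by omega
    subst hx4
    convert j0 using 1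
    push_cast
    ring
  · -- kind 3
    have hnb : nbN w k c = 1 := hkk h
    rw [hnb] at ih ⊢
    have i0 := ih 0 (by omega)
    have hp := cp (Or.inl (by omega))
    have hd1 : ∀ e, pcOK k e → e < cP k c → P7_dig Prod.snd F e = qOf w - 1 :=
      fun e he hlt => ((hdig e he).2.1 (by rw [h]; rfl)).1 hlt
    have hd2 : P7_dig Prod.snd F (cP k c) ≠ qOf w - 1 :=
      ((hdig _ hp).2.1 (by rw [h]; rfl)).2 rfl
    obtain ⟨hU, hV⟩ := P7_shift_v (show 2 ≤ k by omega) c F (by rw [h]; rfl) hp hd1 hd2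
    rw [hU, hV] at i0
    obtain ⟨s0, s1⟩ := P7_stmt3 h
    rw [s0] at i0
    rw [s1]
    have j0 := (i0 _ e1).2.1 rfl
    intro x hx
    refine ⟨by omega, by omega, ?_, by omega, by omega, by omega⟩
    intro hxx
    have hx4 : x = cX1 w k c := by omega
    subst hx4
    convert j0 using 1
    push_cast
    ring
  · -- kind 4
    have hnb : nbN w k c = 1 := hkk h
    rw [hnb] at ih ⊢
    have i0 := ih 0 (by omega)
    have hp := cp (Or.inl (by omega))
    have hd1 : ∀ e, pcOK k e → e < cP k c → P7_dig Prod.snd F e = qOf w - 1 :=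
      fun e he hlt => ((hdig e he).2.1 (by rw [h]; rfl)).1 hlt
    have hd2 : P7_dig Prod.snd F (cP k c) ≠ qOf w - 1 :=
      ((hdig _ hp).2.1 (by rw [h]; rfl)).2 rfl
    obtain ⟨hU, hV⟩ := P7_shift_v (show 2 ≤ k by omega) c F (by rw [h]; rfl) hp hd1 hd2
    rw [hU, hV] at i0
    rw [P7_stmt4 h] at i0 ⊢
    have j0 := (i0 0 hq).2.2.2.2.1 rfl
    intro x hx
    exact ⟨by omega, by omega, by omega, by omega, fun _ => j0, by omega⟩
  · -- kind 5
    have hnb : nbN w k c = 1 := hkk h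
    rw [hnb] at ih ⊢
    have i0 := ih 0 (by omega)
    rw [P7_stmt5 h] at i0 ⊢
    have j0 := (i0 0 hq).2.2.2.2.2 rfl
    intro x hx
    exact ⟨by omega, by omega, by omega, by omega, by omega, fun _ => j0⟩
  · -- kind 6
    have hnb : nbN w k c = 1 := hkk h
    rw [hnb] at ih ⊢
    have i0 := ih 0 (by omega)
    rw [P7_stmt6 h] at i0 ⊢
    have j0 := (i0 0 hq).2.2.2.2.2 rfl
    intro x hx
    exact ⟨by omega, by omega, by omega, by omega, by omega, fun _ => j0⟩
  · -- kind 7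
    have hU : P7_U (w := w) F = P7_W (qOf w) k (k * k) - 1 :=
      P7_U_max (w := w) F (fun e he => ((hdig e he).2.2.1 h).1)
    have hV : P7_Vv (w := w) F = cX1 w k c + P7_W (qOf w) k (pTop k) :=
      P7_V_special hk _ (fun e he => ((hdig e he).2.2.1 h).2)
    rw [P7_stmt7 hN h, hU, hV]
    have h7 := c7 h
    have h3 := P7_initSym_lt (w := w) (cX1 w k c)
    have h4 : 3 < qOf w := by unfold qOf; omega
    intro x hx
    refine ⟨?_, by omega, by omega, by omega, by omega, by omega⟩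
    intro hxx
    subst hxx
    have a1 : P7_W (qOf w) k (k * k) - 1 - (P7_W (qOf w) k (k * k) - 1) = 0 := Nat.sub_self _
    rw [a1]
    have a2 : (((cX1 w k c + P7_W (qOf w) k (pTop k) : ℕ) : ℤ) + ((0 : ℕ) : ℤ) -
        (P7_W (qOf w) k (pTop k) : ℕ)) = (cX1 w k c : ℤ) := by
      push_cast
      ring
    rw [a2]
    have a3 := CAder.init (w := w) (cX1 w k c : ℤ)
    unfold initAt at a3
    rw [if_pos ⟨by omega, by exact_mod_cast h7⟩, Int.toNat_natCast] at a3
    exact a3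
  · -- kind 8
    have hU : P7_U (w := w) F = P7_W (qOf w) k (k * k) - 1 :=
      P7_U_max (w := w) F (fun e he => ((hdig e he).2.2.2.1 h).1)
    rw [P7_stmt8 h]
    intro x hx
    exact ⟨by omega, by omega, by omega, by omega, fun _ => hU, by omega⟩
  · -- kind 9
    have hnb : nbN w k c = 1 := hkk h
    rw [hnb] at ih ⊢
    have i0 := ih 0 (by omega)
    rw [P7_sh_zero _ c _ (Or.inr (by rw [h]; rfl))] at i0
    obtain ⟨s0, s1⟩ := P7_stmt9 h
    rw [s0] at i0
    rw [s1]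
    have hU := (i0 0 hq).2.2.2.2.1 rfl
    have hp := cp (Or.inr h)
    have hd := (hdig _ hp).2.2.2.2.1 h rfl
    intro x hx
    refine ⟨?_, by omega, by omega, by omega, by omega, by omega⟩
    intro hxx
    subst hxx
    have a1 : P7_W (qOf w) k (k * k) - 1 - P7_U (w := w) F = 0 := by omega
    rw [a1]
    have a3 := CAder.init (w := w)
      ((P7_Vv (w := w) F : ℤ) + ((0 : ℕ) : ℤ) - (P7_W (qOf w) k (pTop k) : ℕ))
    unfold initAt at a3
    rw [if_neg] at a3
    · exact a3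
    rintro ⟨b1, b2⟩
    obtain ⟨j, hj⟩ : ∃ j : ℕ, P7_Vv (w := w) F = j + P7_W (qOf w) k (pTop k) :=
      ⟨P7_Vv (w := w) F - P7_W (qOf w) k (pTop k), by omega⟩
    have hjl : j < w.length := by
      rw [hj] at b2
      push_cast at b2
      omega
    -- the digits of `j + O`
    have hsp : P7_Vv (w := w) F = P7_V (qOf w) k
        (fun e => if e = 1 then j else if e = pTop k then 1 else 0) (k * k) := by
      rw [hj, P7_V_special hk j (fun e _ => rfl)]
    have hinj := P7_V_inj hq (fun e _ => P7_dig_lt (w := w) Prod.snd F e)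
      (fun e _ => by
        unfold qOf
        split_ifs <;> omega) (k * k) hsp
    have h5 := hinj (cP k c) (P7_pcOK_lt (by omega) hp) hp
    split_ifs at h5 hd with g1 g2
    · omega
    · omega
    · omega
  · -- kind 10
    have hnb : nbN w k c = 1 := hkk h
    rw [hnb] at ih ⊢
    have i0 := ih 0 (by omega)
    obtain ⟨s0, s1⟩ := P7_stmt10 h
    rw [s0] at i0
    rw [s1]
    have j0 := (i0 _ e1).1 rfl
    intro x hx
    exact ⟨by omega, by omega, by omega, by omega, by omega, fun _ => ⟨_, _, _, j0, c10 h⟩⟩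
  · exact absurd (c11 h) hc

end inv

theorem P7_inv_of_der {k : ℕ} (hk : 3 ≤ k) (w : List Bool) (hN : 4 ≤ w.length)
    (st : (netOf w (show 2 ≤ k by omega)).St)
    (F : Fin k → Fin k → (netOf w (show 2 ≤ k by omega)).Λ)
    (h : (netOf w (show 2 ≤ k by omega)).Der st F) :
    P7_Inv w k (Fin.val (n := 6 * qOf w) st) (P7_U (w := w) F) (P7_Vv (w := w) F) := by
  induction h with
  | intro c hc F hF hA hb ih =>
    have h1 := P7_inv_step hk hN c (fun e => hc (Fin.ext e)) F hF hA ih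
    have h2 : F + (netOf w (show 2 ≤ k by omega)).sh c
        ((netOf w (show 2 ≤ k by omega)).nb c) = F := by
      refine P7_sh_zero _ c _ ?_ F
      by_contra hcon
      push Not at hcon
      obtain ⟨h3, h4⟩ := hcon
      have h5 : nbKd (cKd w k (Fin.val (n := numC w k) c)) = 0 := h3
      unfold nbKd at h5
      unfold shComp at h4
      split_ifs at h5 h4 <;> omega
    rw [h2]
    exact h1

theorem acc_of_derGoal {k : ℕ} (hk : 3 ≤ k) (w : List Bool) (hN : 4 ≤ w.length)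
    (h : (netOf w (show 2 ≤ k by omega)).DerGoal) :
    ∃ (t : ℕ) (p : ℤ) (x : ℕ), CAder w t p x ∧ accOK w x := by
  have h1 := P7_inv_of_der hk w hN _ _ h
  have h2 : stmtN w k (goalC w k) 0 = 5 * qOf w := by
    unfold stmtN
    dsimp only
    rw [cKd_goal]
    rfl
  exact (h1 0 (qOf_pos w)).2.2.2.2.2 h2

/-! ## Derivations -/

/-- All contexts with the values `U`, `V` derive the statement `s`. -/
def P7_D (w : List Bool) {k : ℕ} (hk : 2 ≤ k) (s U V : ℕ) : Prop :=
  ∀ (hs : s < 6 * qOf w) (F : Fin k → Fin k → (netOf w hk).Λ), (netOf w hk).IsCtx F →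
    P7_U (w := w) F = U → P7_Vv (w := w) F = V →
      (netOf w hk).Der (⟨s, hs⟩ : Fin (6 * qOf w)) F

section der

variable {w : List Bool} {k : ℕ}

theorem P7_intro (hk : 2 ≤ k) (c : ℕ) (hc : c < numC w k) (hcg : c ≠ goalC w k)
    (hsh : nbN w k c ≠ 0 ∨ shComp (cKd w k c) = 0)
    (F : Fin k → Fin k → (netOf w hk).Λ) (hF : (netOf w hk).IsCtx F) (hcl : clOK w k c)
    (hdig : ∀ e, pcOK k e → digOK w k c e (P7_dig Prod.fst F e) (P7_dig Prod.snd F e))
    (hb : ∀ b, b < nbN w k c → (netOf w hk).Der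
      (⟨stmtN w k c b, stmtN_lt w k c b⟩ : Fin (6 * qOf w))
      (F + (netOf w hk).sh (⟨c, hc⟩ : Fin (numC w k)) b)) (s : ℕ) (hs : s < 6 * qOf w)
    (hss : stmtN w k c (nbN w k c) = s) :
    (netOf w hk).Der (⟨s, hs⟩ : Fin (6 * qOf w)) F := by
  subst hss
  have h1 := Net.Der.intro (N := netOf w hk) (⟨c, hc⟩ : Fin (numC w k))
    (fun e => hcg (congrArg (Fin.val (n := numC w k)) e)) F hF
    ((P7_allowed_iff hk ⟨c, hc⟩ F hF).mpr ⟨hcl, hdig⟩) hb
  have h2 : F + (netOf w hk).sh (⟨c, hc⟩ : Fin (numC w k))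
      ((netOf w hk).nb (⟨c, hc⟩ : Fin (numC w k))) = F :=
    P7_sh_zero hk ⟨c, hc⟩ _ hsh F
  rw [h2] at h1
  exact h1

theorem P7_digOK_u {c e u v : ℕ} (hs : shComp (cKd w k c) = 1)
    (h : (e < cP k c → u = qOf w - 1) ∧ (e = cP k c → u ≠ qOf w - 1)) :
    digOK w k c e u v := by
  have h1 : cKd w k c = 1 ∨ cKd w k c = 5 := by
    unfold shComp at hs
    split_ifs at hs <;> omega
  exact ⟨fun _ => h, by omega, by omega, by omega, by omega, by omega⟩

theorem P7_digOK_v {c e u v : ℕ} (hs : shComp (cKd w k c) = 2)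
    (h : (e < cP k c → v = qOf w - 1) ∧ (e = cP k c → v ≠ qOf w - 1)) :
    digOK w k c e u v := by
  have h1 : cKd w k c = 2 ∨ cKd w k c = 3 ∨ cKd w k c = 4 ∨ cKd w k c = 6 := by
    unfold shComp at hs
    split_ifs at hs <;> omega
  exact ⟨by omega, fun _ => h, by omega, by omega, by omega, by omega⟩

theorem P7_digOK_none {c e u v : ℕ} (hs : cKd w k c = 0 ∨ cKd w k c = 10) :
    digOK w k c e u v := by
  have h1 : shComp (cKd w k c) = 0 := by
    rcases hs with h | h <;> rw [h] <;> rfl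
  exact ⟨by omega, by omega, by omega, by omega, by omega, by omega⟩

theorem P7_goal_ne {kd x₁ x₂ x₃ x₄ p : ℕ} (hkd : kd ≠ 11) (hp : p < pB k) (h4 : x₄ < qOf w)
    (h3 : x₃ < qOf w) (h2 : x₂ < qOf w) (h1 : x₁ < qOf w) :
    cCode w k kd x₁ x₂ x₃ x₄ p ≠ goalC w k := by
  intro h
  have h5 := congrArg (cKd w k) h
  rw [P7_cKd hp h4 h3 h2 h1, cKd_goal] at h5
  exact hkd h5

/-- A clause of one of the kinds `1` and `5`. -/
theorem P7_D_u (hk : 2 ≤ k) (kd x : ℕ) (hkd : kd = 1 ∨ kd = 5) (hx : x < qOf w) (s s' U V : ℕ)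
    (hs : ∀ c, cKd w k c = kd → cX1 w k c = x → stmtN w k c 0 = s ∧ stmtN w k c 1 = s')
    (h : P7_D w hk s (U + 1) V) (hU : U + 1 < P7_W (qOf w) k (k * k)) : P7_D w hk s' U V := by
  intro hs6 F hF hFU hFV
  have hq := qOf_pos w
  obtain ⟨p, hpl, hp, hd1, hd2⟩ := P7_exists_incr hq (fun e _ => P7_dig_lt (w := w) Prod.fst F e)
    (k * k) (by
      have : P7_V (qOf w) k (P7_dig Prod.fst F) (k * k) = U := hFU
      rw [this]
      exact hU)
  have hpB : p < pB k := by unfold pB; omega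
  have hc := P7_cCode_lt (w := w) (kd := kd) (x₁ := x) (by omega) hpB hq hq hq hx
  have e0 := P7_cKd (w := w) (kd := kd) (x₁ := x) hpB hq hq hq hx
  have e1 := P7_cX1 (w := w) (kd := kd) (x₁ := x) hpB hq hq hq hx
  have e5 := P7_cP (w := w) (kd := kd) (x₁ := x) (x₂ := 0) (x₃ := 0) (x₄ := 0) hpB
  have hg := P7_goal_ne (w := w) (kd := kd) (x₁ := x) (by omega) hpB hq hq hq hx
  generalize cCode w k kd x 0 0 0 p = c at hc e0 e1 e5 hg
  obtain ⟨s0, s1⟩ := hs c e0 e1
  have hnb : nbN w k c = 1 := by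
    unfold nbN
    rw [e0]
    rcases hkd with h | h <;> rw [h] <;> rfl
  have hsc : shComp (cKd w k c) = 1 := by
    rw [e0]
    rcases hkd with h | h <;> rw [h] <;> rfl
  refine P7_intro hk c hc hg (Or.inl (by omega)) F hF ?_ ?_ ?_ _ _ (by rw [hnb]; exact s1)
  · unfold clOK
    rw [e0, e5]
    refine ⟨fun h => ?_, fun _ => hp, fun h => ?_, fun h => ?_, fun h => ?_⟩ <;>
    · exfalso
      omega
  · intro e he
    refine P7_digOK_u hsc ?_
    rw [e5]
    refine ⟨fun h => hd1 e h he, fun h => ?_⟩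
    rw [h]
    omega
  · intro b hb
    have hb0 : b = 0 := by omega
    subst hb0
    obtain ⟨g1, g2⟩ := P7_shift_u (w := w) hk ⟨c, hc⟩ F hsc (by rw [e5]; exact hp)
      (fun e he hlt => hd1 e (by rw [← e5]; exact hlt) he) (by
        simp only [e5]
        omega)
    have h3 := h (by rw [← s0]; exact stmtN_lt w k c 0) _ (P7_isCtx_add hk ⟨c, hc⟩ 0 F hF)
      (by rw [g1, hFU]) (by rw [g2, hFV])
    have h4 : (⟨stmtN w k c 0, stmtN_lt w k c 0⟩ : Fin (6 * qOf w)) =
        ⟨s, by rw [← s0]; exact stmtN_lt w k c 0⟩ := Fin.ext s0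
    rw [h4]
    exact h3

/-- A clause of one of the kinds `2`, `3`, `4` and `6`. -/
theorem P7_D_v (hk : 2 ≤ k) (kd x : ℕ) (hkd : kd = 2 ∨ kd = 3 ∨ kd = 4 ∨ kd = 6)
    (hx : x < qOf w) (s s' U V : ℕ)
    (hs : ∀ c, cKd w k c = kd → cX1 w k c = x → stmtN w k c 0 = s ∧ stmtN w k c 1 = s')
    (h : P7_D w hk s U (V + 1)) (hV : V + 1 < P7_W (qOf w) k (k * k)) : P7_D w hk s' U V := by
  intro hs6 F hF hFU hFV
  have hq := qOf_pos w
  obtain ⟨p, hpl, hp, hd1, hd2⟩ := P7_exists_incr hq (fun e _ => P7_dig_lt (w := w) Prod.snd F e)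
    (k * k) (by
      have : P7_V (qOf w) k (P7_dig Prod.snd F) (k * k) = V := hFV
      rw [this]
      exact hV)
  have hpB : p < pB k := by unfold pB; omega
  have hc := P7_cCode_lt (w := w) (kd := kd) (x₁ := x) (by omega) hpB hq hq hq hx
  have e0 := P7_cKd (w := w) (kd := kd) (x₁ := x) hpB hq hq hq hx
  have e1 := P7_cX1 (w := w) (kd := kd) (x₁ := x) hpB hq hq hq hx
  have e5 := P7_cP (w := w) (kd := kd) (x₁ := x) (x₂ := 0) (x₃ := 0) (x₄ := 0) hpB
  have hg := P7_goal_ne (w := w) (kd := kd) (x₁ := x) (by omega) hpB hq hq hq hx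
  generalize cCode w k kd x 0 0 0 p = c at hc e0 e1 e5 hg
  obtain ⟨s0, s1⟩ := hs c e0 e1
  have hnb : nbN w k c = 1 := by
    unfold nbN
    rw [e0]
    rcases hkd with h | h | h | h <;> rw [h] <;> rfl
  have hsc : shComp (cKd w k c) = 2 := by
    rw [e0]
    rcases hkd with h | h | h | h <;> rw [h] <;> rfl
  refine P7_intro hk c hc hg (Or.inl (by omega)) F hF ?_ ?_ ?_ _ _ (by rw [hnb]; exact s1)
  · unfold clOK
    rw [e0, e5]
    refine ⟨fun h => ?_, fun _ => hp, fun h => ?_, fun h => ?_, fun h => ?_⟩ <;>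
    · exfalso
      omega
  · intro e he
    refine P7_digOK_v hsc ?_
    rw [e5]
    refine ⟨fun h => hd1 e h he, fun h => ?_⟩
    rw [h]
    omega
  · intro b hb
    have hb0 : b = 0 := by omega
    subst hb0
    obtain ⟨g1, g2⟩ := P7_shift_v (w := w) hk ⟨c, hc⟩ F hsc (by rw [e5]; exact hp)
      (fun e he hlt => hd1 e (by rw [← e5]; exact hlt) he) (by
        simp only [e5]
        omega)
    have h3 := h (by rw [← s0]; exact stmtN_lt w k c 0) _ (P7_isCtx_add hk ⟨c, hc⟩ 0 F hF)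
      (by rw [g1, hFU]) (by rw [g2, hFV])
    have h4 : (⟨stmtN w k c 0, stmtN_lt w k c 0⟩ : Fin (6 * qOf w)) =
        ⟨s, by rw [← s0]; exact stmtN_lt w k c 0⟩ := Fin.ext s0
    rw [h4]
    exact h3

/-- A clause of kind `0`. -/
theorem P7_D0 (hk : 2 ≤ k) (x₁ x₂ x₃ x₄ U V : ℕ) (ht : tabOK w x₁ x₂ x₃ x₄)
    (h₁ : P7_D w hk x₁ U V) (h₂ : P7_D w hk (qOf w + x₂) U V)
    (h₃ : P7_D w hk (2 * qOf w + x₃) U V) : P7_D w hk (3 * qOf w + x₄) U V := by
  intro hs6 F hF hFU hFV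
  have hq := qOf_pos w
  have hnum : numSym w ≤ w.length := by
    unfold numSym
    exact Nat.sInf_le (Or.inr rfl)
  have hqq : w.length < qOf w := by unfold qOf; omega
  obtain ⟨t1, t2, t3, t4, -⟩ := id ht
  have hpB := pB_pos k
  have hc := P7_cCode_lt (w := w) (kd := 0) (x₁ := x₁) (x₂ := x₂) (x₃ := x₃) (x₄ := x₄)
    (by omega) hpB (by omega) (by omega) (by omega) (by omega)
  have e0 := P7_cKd (w := w) (kd := 0) (x₁ := x₁) (x₂ := x₂) (x₃ := x₃) (x₄ := x₄)
    hpB (by omega) (by omega) (by omega) (by omega)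
  have e1 := P7_cX1 (w := w) (kd := 0) (x₁ := x₁) (x₂ := x₂) (x₃ := x₃) (x₄ := x₄)
    hpB (by omega) (by omega) (by omega) (by omega)
  have e2 := P7_cX2 (w := w) (kd := 0) (x₁ := x₁) (x₂ := x₂) (x₃ := x₃) (x₄ := x₄)
    hpB (by omega) (by omega) (by omega)
  have e3 := P7_cX3 (w := w) (kd := 0) (x₁ := x₁) (x₂ := x₂) (x₃ := x₃) (x₄ := x₄)
    hpB (by omega) (by omega)
  have e4 := P7_cX4 (w := w) (kd := 0) (x₁ := x₁) (x₂ := x₂) (x₃ := x₃) (x₄ := x₄)
    hpB (by omega)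
  have hg := P7_goal_ne (w := w) (kd := 0) (x₁ := x₁) (x₂ := x₂) (x₃ := x₃) (x₄ := x₄)
    (by omega) hpB (by omega) (by omega) (by omega) (by omega)
  generalize cCode w k 0 x₁ x₂ x₃ x₄ 0 = c at hc e0 e1 e2 e3 e4 hg
  obtain ⟨s0, s1, s2, s3⟩ := P7_stmt0 e0
  rw [e1] at s0
  rw [e2] at s1
  rw [e3] at s2
  rw [e4] at s3
  have hnb : nbN w k c = 3 := by
    unfold nbN
    rw [e0]
    rfl
  have hsc : shComp (cKd w k c) = 0 := by
    rw [e0]
    rfl
  refine P7_intro hk c hc hg (Or.inl (by omega)) F hF ?_ ?_ ?_ _ _ (by rw [hnb]; exact s3)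
  · unfold clOK
    rw [e0, e1, e2, e3, e4]
    refine ⟨fun _ => ht, fun h => ?_, fun h => ?_, fun h => ?_, fun h => ?_⟩ <;>
    · exfalso
      omega
  · intro e he
    exact P7_digOK_none (Or.inl e0)
  · intro b hb
    rw [P7_sh_zero hk ⟨c, hc⟩ b (Or.inr hsc)]
    have hb3 : b = 0 ∨ b = 1 ∨ b = 2 := by omega
    rcases hb3 with rfl | rfl | rfl
    · have h4 : (⟨stmtN w k c 0, stmtN_lt w k c 0⟩ : Fin (6 * qOf w)) =
          ⟨x₁, by rw [← s0]; exact stmtN_lt w k c 0⟩ := Fin.ext s0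
      rw [h4]
      exact h₁ _ F hF hFU hFV
    · have h4 : (⟨stmtN w k c 1, stmtN_lt w k c 1⟩ : Fin (6 * qOf w)) =
          ⟨qOf w + x₂, by rw [← s1]; exact stmtN_lt w k c 1⟩ := Fin.ext s1
      rw [h4]
      exact h₂ _ F hF hFU hFV
    · have h4 : (⟨stmtN w k c 2, stmtN_lt w k c 2⟩ : Fin (6 * qOf w)) =
          ⟨2 * qOf w + x₃, by rw [← s2]; exact stmtN_lt w k c 2⟩ := Fin.ext s2
      rw [h4]
      exact h₃ _ F hF hFU hFV

/-- A clause of kind `10`. -/
theorem P7_D10 (hk : 2 ≤ k) (x U V : ℕ) (hx : accOK w x) (h : P7_D w hk x U V) :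
    P7_D w hk (5 * qOf w) U V := by
  intro hs6 F hF hFU hFV
  have hq := qOf_pos w
  have hnum : numSym w ≤ w.length := by
    unfold numSym
    exact Nat.sInf_le (Or.inr rfl)
  have hqq : w.length < qOf w := by unfold qOf; omega
  have t1 := hx.1
  have hpB := pB_pos k
  have hc := P7_cCode_lt (w := w) (kd := 10) (x₁ := x) (by omega) hpB hq hq hq (by omega)
  have e0 := P7_cKd (w := w) (kd := 10) (x₁ := x) hpB hq hq hq (by omega)
  have e1 := P7_cX1 (w := w) (kd := 10) (x₁ := x) hpB hq hq hq (by omega)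
  have hg := P7_goal_ne (w := w) (kd := 10) (x₁ := x) (by omega) hpB hq hq hq (by omega)
  generalize cCode w k 10 x 0 0 0 0 = c at hc e0 e1 hg
  obtain ⟨s0, s1⟩ := P7_stmt10 e0
  rw [e1] at s0
  have hnb : nbN w k c = 1 := by
    unfold nbN
    rw [e0]
    rfl
  have hsc : shComp (cKd w k c) = 0 := by
    rw [e0]
    rfl
  refine P7_intro hk c hc hg (Or.inl (by omega)) F hF ?_ ?_ ?_ _ _ (by rw [hnb]; exact s1)
  · unfold clOK
    rw [e0, e1]
    refine ⟨fun h => ?_, fun h => ?_, fun h => ?_, fun _ => hx, fun h => ?_⟩ <;>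
    · exfalso
      omega
  · intro e he
    exact P7_digOK_none (Or.inr e0)
  · intro b hb
    have hb0 : b = 0 := by omega
    subst hb0
    rw [P7_sh_zero hk ⟨c, hc⟩ 0 (Or.inr hsc)]
    have h4 : (⟨stmtN w k c 0, stmtN_lt w k c 0⟩ : Fin (6 * qOf w)) =
        ⟨x, by rw [← s0]; exact stmtN_lt w k c 0⟩ := Fin.ext s0
    rw [h4]
    exact h _ F hF hFU hFV

/-- All digits are maximal. -/
theorem P7_digits_max (π : ZMod (qOf w) × ZMod (qOf w) → ZMod (qOf w))
    (F : Fin k → Fin k → ZMod (qOf w) × ZMod (qOf w)) (hk : 0 < k)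
    (h : P7_V (qOf w) k (P7_dig π F) (k * k) = P7_W (qOf w) k (k * k) - 1) (e : ℕ)
    (he : pcOK k e) : P7_dig π F e = qOf w - 1 := by
  have hq := qOf_pos w
  have h1 := P7_V_max (k := k) hq (d := fun _ => qOf w - 1) (k * k) (fun _ _ _ => rfl)
  refine P7_V_inj hq (fun e _ => P7_dig_lt (w := w) π F e) (d' := fun _ => qOf w - 1)
    (fun e _ => by omega) (k * k) ?_ e (P7_pcOK_lt hk he) he
  omega

/-- A clause of kind `8`. -/
theorem P7_D8 (hk : 2 ≤ k) :
    P7_D w hk (4 * qOf w) (P7_W (qOf w) k (k * k) - 1) (P7_W (qOf w) k (k * k) - 1) := by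
  intro hs6 F hF hFU hFV
  have hq := qOf_pos w
  have hpB := pB_pos k
  have hc := P7_cCode_lt (w := w) (kd := 8) (by omega) hpB hq hq hq hq
  have e0 := P7_cKd (w := w) (kd := 8) hpB hq hq hq hq
  have hg := P7_goal_ne (w := w) (kd := 8) (by omega) hpB hq hq hq hq
  generalize cCode w k 8 0 0 0 0 0 = c at hc e0 hg
  have hnb : nbN w k c = 0 := by
    unfold nbN
    rw [e0]
    rfl
  have hsc : shComp (cKd w k c) = 0 := by
    rw [e0]
    rfl
  refine P7_intro hk c hc hg (Or.inr hsc) F hF ?_ ?_ ?_ _ _ (P7_stmt8 e0 _)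
  · unfold clOK
    rw [e0]
    refine ⟨fun h => ?_, fun h => ?_, fun h => ?_, fun h => ?_, fun h => ?_⟩ <;>
    · exfalso
      omega
  · intro e he
    exact ⟨by omega, by omega, by omega,
      fun _ => ⟨P7_digits_max _ (w := w) F (by omega) hFU e he,
        P7_digits_max _ (w := w) F (by omega) hFV e he⟩, by omega, by omega⟩
  · intro b hb
    omega

/-- A clause of kind `7`. -/
theorem P7_D7 (hk : 3 ≤ k) (hN : 4 ≤ w.length) (j : ℕ) (hj : j < w.length) :
    P7_D w (show 2 ≤ k by omega) (initSym w j) (P7_W (qOf w) k (k * k) - 1)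
      (j + P7_W (qOf w) k (pTop k)) := by
  intro hs6 F hF hFU hFV
  have hq := qOf_pos w
  have hqq : w.length < qOf w := by unfold qOf; omega
  have hpB := pB_pos k
  have hc := P7_cCode_lt (w := w) (kd := 7) (x₁ := j) (by omega) hpB hq hq hq (by omega)
  have e0 := P7_cKd (w := w) (kd := 7) (x₁ := j) hpB hq hq hq (by omega)
  have e1 := P7_cX1 (w := w) (kd := 7) (x₁ := j) hpB hq hq hq (by omega)
  have hg := P7_goal_ne (w := w) (kd := 7) (x₁ := j) (by omega) hpB hq hq hq (by omega)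
  generalize cCode w k 7 j 0 0 0 0 = c at hc e0 e1 hg
  have hnb : nbN w k c = 0 := by
    unfold nbN
    rw [e0]
    rfl
  have hsc : shComp (cKd w k c) = 0 := by
    rw [e0]
    rfl
  have hdv : ∀ e, pcOK k e → P7_dig Prod.snd F e =
      if e = 1 then j else if e = pTop k then 1 else 0 := by
    intro e he
    refine P7_V_inj hq (fun e _ => P7_dig_lt (w := w) Prod.snd F e)
      (d' := fun e => if e = 1 then j else if e = pTop k then 1 else 0)
      (fun e _ => by
        unfold qOf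
        split_ifs <;> omega) (k * k) ?_ e (P7_pcOK_lt (by omega) he) he
    rw [P7_V_special hk j (fun e _ => rfl)]
    exact hFV
  refine P7_intro (show 2 ≤ k by omega) c hc hg (Or.inr hsc) F hF ?_ ?_ ?_ _ _
    (by rw [P7_stmt7 hN e0, e1])
  · unfold clOK
    rw [e0, e1]
    refine ⟨fun h => ?_, fun h => ?_, fun h => hj, fun h => ?_, fun h => ?_⟩ <;>
    · exfalso
      omega
  · intro e he
    refine ⟨by omega, by omega,
      fun _ => ⟨P7_digits_max _ (w := w) F (by omega) hFU e he, ?_⟩, by omega, by omega, by omega⟩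
    rw [e1]
    exact hdv e he
  · intro b hb
    omega

/-- A clause of kind `9`. -/
theorem P7_D9 (hk : 3 ≤ k) (U V : ℕ) (hV : ∀ j, j < w.length → V ≠ j + P7_W (qOf w) k (pTop k))
    (h : P7_D w (show 2 ≤ k by omega) (4 * qOf w) U V) : P7_D w (show 2 ≤ k by omega) 0 U V := by
  intro hs6 F hF hFU hFV
  have hq := qOf_pos w
  have hex : ∃ p, pcOK k p ∧ (if p = 1 then w.length ≤ P7_dig Prod.snd F p
      else if p = pTop k then P7_dig Prod.snd F p ≠ 1 else P7_dig Prod.snd F p ≠ 0) := by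
    by_contra hcon
    push Not at hcon
    have h1k : pcOK k 1 := by
      unfold pcOK
      rw [Nat.div_eq_of_lt (by omega), Nat.mod_eq_of_lt (by omega)]
      exact Nat.one_pos
    have h1 := hcon 1 h1k
    rw [if_pos rfl, not_le] at h1
    refine hV _ h1 ?_
    rw [← hFV]
    refine P7_V_special hk _ (fun e he => ?_)
    have h2 := hcon e he
    split_ifs at h2 ⊢ with g1 g2
    · rw [g1]
    · exact not_not.mp h2
    · exact not_not.mp h2
  obtain ⟨p, hp, hpd⟩ := hex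
  have hpB : p < pB k := by
    have := P7_pcOK_lt (show 0 < k by omega) hp
    unfold pB
    omega
  have hc := P7_cCode_lt (w := w) (kd := 9) (by omega) hpB hq hq hq hq
  have e0 := P7_cKd (w := w) (kd := 9) hpB hq hq hq hq
  have e5 := P7_cP (w := w) (kd := 9) (x₁ := 0) (x₂ := 0) (x₃ := 0) (x₄ := 0) hpB
  have hg := P7_goal_ne (w := w) (kd := 9) (by omega) hpB hq hq hq hq
  generalize cCode w k 9 0 0 0 0 p = c at hc e0 e5 hg
  obtain ⟨s0, s1⟩ := P7_stmt9 e0
  have hnb : nbN w k c = 1 := by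
    unfold nbN
    rw [e0]
    rfl
  have hsc : shComp (cKd w k c) = 0 := by
    rw [e0]
    rfl
  refine P7_intro (show 2 ≤ k by omega) c hc hg (Or.inr hsc) F hF ?_ ?_ ?_ _ _
    (by rw [hnb]; exact s1)
  · unfold clOK
    rw [e0, e5]
    refine ⟨fun h => ?_, fun h => hp, fun h => ?_, fun h => ?_, fun h => ?_⟩ <;>
    · exfalso
      omega
  · intro e he
    refine ⟨by omega, by omega, by omega, by omega, ?_, by omega⟩
    intro _ hee
    rw [e5] at hee
    subst hee
    exact hpd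
  · intro b hb
    have hb0 : b = 0 := by omega
    subst hb0
    rw [P7_sh_zero (show 2 ≤ k by omega) ⟨c, hc⟩ 0 (Or.inr hsc)]
    have h4 : (⟨stmtN w k c 0, stmtN_lt w k c 0⟩ : Fin (6 * qOf w)) =
        ⟨4 * qOf w, by rw [← s0]; exact stmtN_lt w k c 0⟩ := Fin.ext s0
    rw [h4]
    exact h _ F hF hFU hFV

theorem P7_Z (hk : 2 ≤ k) (d : ℕ) : ∀ V, V + d = P7_W (qOf w) k (k * k) - 1 →
    P7_D w hk (4 * qOf w) (P7_W (qOf w) k (k * k) - 1) V := by
  have hW := P7_W_pos (k := k) (qOf_pos w) (k * k)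
  induction d with
  | zero =>
    intro V hV
    rw [Nat.add_zero] at hV
    rw [hV]
    exact P7_D8 hk
  | succ d ih =>
    intro V hV
    refine P7_D_v hk 4 0 (by omega) (qOf_pos w) (4 * qOf w) (4 * qOf w) _ V
      (fun c hc _ => ⟨P7_stmt4 hc 0, P7_stmt4 hc 1⟩) (ih (V + 1) (by omega)) (by omega)

theorem P7_sym_lt (hN : 4 ≤ w.length) {t : ℕ} {p : ℤ} {x : ℕ} (h : CAder w t p x) :
    x < qOf w := by
  have hnum : numSym w ≤ w.length := by
    unfold numSym
    exact Nat.sInf_le (Or.inr rfl)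
  cases h with
  | init p =>
    unfold initAt qOf
    split_ifs
    · have := P7_initSym_lt (w := w) p.toNat
      omega
    · omega
  | step t p x₁ x₂ x₃ x₄ h₁ h₂ h₃ h =>
    have := h.2.2.2.1
    unfold qOf
    omega

theorem P7_der_of_CA (hk : 3 ≤ k) (hN : 4 ≤ w.length) {t : ℕ} {p : ℤ} {x : ℕ}
    (h : CAder w t p x) : ∀ v : ℕ, (v : ℤ) = p - t + (P7_W (qOf w) k (pTop k) : ℕ) →
      v + 2 * t < P7_W (qOf w) k (k * k) →
        P7_D w (show 2 ≤ k by omega) x (P7_W (qOf w) k (k * k) - 1 - t) v := by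
  induction h with
  | init p =>
    intro v hv hM
    rw [Nat.sub_zero]
    by_cases hp : 0 ≤ p ∧ p < w.length
    · have h1 : initAt w p = initSym w p.toNat := if_pos hp
      rw [h1]
      have h2 : v = p.toNat + P7_W (qOf w) k (pTop k) := by
        have := Int.toNat_of_nonneg hp.1
        omega
      rw [h2]
      refine P7_D7 hk hN _ ?_
      have := Int.toNat_of_nonneg hp.1
      omega
    · have h1 : initAt w p = 0 := if_neg hp
      rw [h1]
      refine P7_D9 hk _ v (fun j hj hvj => hp ?_) (P7_Z _ (P7_W (qOf w) k (k * k) - 1 - v) v (by omega))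
      omega
  | step t p x₁ x₂ x₃ x₄ h₁ h₂ h₃ ht ih1 ih2 ih3 =>
    intro v hv hM
    have a1 := ih1 v (by push_cast at hv ⊢; omega) (by omega)
    have a2 := ih2 (v + 1) (by push_cast at hv ⊢; omega) (by omega)
    have a3 := ih3 (v + 2) (by push_cast at hv ⊢; omega) (by omega)
    have l2 := P7_sym_lt hN h₂
    have l3 := P7_sym_lt hN h₃
    have b2 : P7_D w (show 2 ≤ k by omega) (qOf w + x₂) (P7_W (qOf w) k (k * k) - 1 - t) v :=
      P7_D_v _ 2 x₂ (by omega) l2 x₂ (qOf w + x₂) _ v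
        (fun c hc hx => by rw [(P7_stmt2 hc).1, (P7_stmt2 hc).2, hx]; exact ⟨rfl, rfl⟩) a2 (by omega)
    have b3 : P7_D w (show 2 ≤ k by omega) (qOf w + x₃) (P7_W (qOf w) k (k * k) - 1 - t)
        (v + 1) :=
      P7_D_v _ 2 x₃ (by omega) l3 x₃ (qOf w + x₃) _ (v + 1)
        (fun c hc hx => by rw [(P7_stmt2 hc).1, (P7_stmt2 hc).2, hx]; exact ⟨rfl, rfl⟩) a3 (by omega)
    have c3 : P7_D w (show 2 ≤ k by omega) (2 * qOf w + x₃) (P7_W (qOf w) k (k * k) - 1 - t) v :=
      P7_D_v _ 3 x₃ (by omega) l3 (qOf w + x₃) (2 * qOf w + x₃) _ v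
        (fun c hc hx => by rw [(P7_stmt3 hc).1, (P7_stmt3 hc).2, hx]; exact ⟨rfl, rfl⟩) b3 (by omega)
    have l4 := P7_sym_lt hN (CAder.step t p x₁ x₂ x₃ x₄ h₁ h₂ h₃ ht)
    have d4 := P7_D0 (show 2 ≤ k by omega) x₁ x₂ x₃ x₄ _ v ht a1 b2 c3
    have e1 : P7_W (qOf w) k (k * k) - 1 - t = P7_W (qOf w) k (k * k) - 1 - (t + 1) + 1 := by omega
    rw [e1] at d4
    exact P7_D_u _ 1 x₄ (by omega) l4 (3 * qOf w + x₄) x₄ _ v
      (fun c hc hx => by rw [(P7_stmt1 hc).1, (P7_stmt1 hc).2, hx]; exact ⟨rfl, rfl⟩) d4 (by omega)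

theorem P7_G_v (hk : 2 ≤ k) (U V : ℕ) (hV : V < P7_W (qOf w) k (k * k))
    (h : P7_D w hk (5 * qOf w) U V) : P7_D w hk (5 * qOf w) U 0 := by
  induction V with
  | zero => exact h
  | succ V ih =>
    refine ih (by omega) ?_
    exact P7_D_v hk 6 0 (by omega) (qOf_pos w) (5 * qOf w) (5 * qOf w) _ V
      (fun c hc _ => ⟨P7_stmt6 hc 0, P7_stmt6 hc 1⟩) h (by omega)

theorem P7_G_u (hk : 2 ≤ k) (U V : ℕ) (hU : U < P7_W (qOf w) k (k * k))
    (h : P7_D w hk (5 * qOf w) U V) : P7_D w hk (5 * qOf w) 0 V := by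
  induction U with
  | zero => exact h
  | succ U ih =>
    refine ih (by omega) ?_
    exact P7_D_u hk 5 0 (by omega) (qOf_pos w) (5 * qOf w) (5 * qOf w) _ V
      (fun c hc _ => ⟨P7_stmt5 hc 0, P7_stmt5 hc 1⟩) h (by omega)

end der

theorem derGoal_of_acc {k : ℕ} (hk : 3 ≤ k) (w : List Bool) (hN : 4 ≤ w.length) {t : ℕ} {p : ℤ}
    {x : ℕ} (h : CAder w t p x) (hx : accOK w x) (hp : |p| ≤ t)
    (ht : 4 * (t + w.length + 1) ≤ (w.length + 2) ^ (k * (k - 1) / 2 - 1)) :
    (netOf w (show 2 ≤ k by omega)).DerGoal := by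
  have hq := qOf_pos w
  have hO : P7_W (qOf w) k (pTop k) = (w.length + 2) ^ (k * (k - 1) / 2 - 1) :=
    P7_W_pTop_eq hk hq
  rw [← hO] at ht
  have hM := P7_W_pTop (q := qOf w) (k := k) (by omega)
  have hM2 : 2 * P7_W (qOf w) k (pTop k) ≤ P7_W (qOf w) k (k * k) := by
    rw [← hM, Nat.mul_comm]
    exact Nat.mul_le_mul_left _ (by unfold qOf; omega)
  have habs := abs_le.mp hp
  obtain ⟨v, hv⟩ : ∃ v : ℕ, (v : ℤ) = p - t + (P7_W (qOf w) k (pTop k) : ℕ) :=
    ⟨(p - t + (P7_W (qOf w) k (pTop k) : ℕ)).toNat, by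
      rw [Int.toNat_of_nonneg]
      omega⟩
  have h1 := P7_der_of_CA hk hN h v hv (by omega)
  have h2 := P7_D10 (show 2 ≤ k by omega) x _ v hx h1
  have h3 := P7_G_v (show 2 ≤ k by omega) _ v (by omega) h2
  have h4 := P7_G_u (show 2 ≤ k by omega) _ 0 (by omega) h3
  unfold Net.DerGoal
  have h5 : (netOf w (show 2 ≤ k by omega)).gctx + (netOf w (show 2 ≤ k by omega)).sh
      (netOf w (show 2 ≤ k by omega)).goal 0 = (netOf w (show 2 ≤ k by omega)).gctx := by
    refine P7_sh_zero (w := w) (show 2 ≤ k by omega) ⟨goalC w k, goalC_lt w k⟩ 0 (Or.inr ?_) _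
    simp only [cKd_goal]
    rfl
  rw [h5]
  have h6 : stmtN w k (goalC w k) 0 = 5 * qOf w := by
    unfold stmtN
    dsimp only
    rw [cKd_goal]
    rfl
  have h7 : (netOf w (show 2 ≤ k by omega)).stmt (netOf w (show 2 ≤ k by omega)).goal 0 =
      (⟨5 * qOf w, by omega⟩ : Fin (6 * qOf w)) := Fin.ext h6
  rw [h7]
  have h8 : ∀ (π : ZMod (qOf w) × ZMod (qOf w) → ZMod (qOf w)) (_ : π 0 = 0) (e : ℕ),
      P7_dig π ((netOf w (show 2 ≤ k by omega)).gctx) e = 0 := by
    intro π hπ e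
    unfold P7_dig
    split_ifs
    · have : (netOf w (show 2 ≤ k by omega)).gctx = 0 := rfl
      rw [this]
      have h9 : π ((0 : Fin k → Fin k → ZMod (qOf w) × ZMod (qOf w)) ⟨e / k, by omega⟩
        ⟨e % k, by omega⟩) = 0 := hπ
      exact (congrArg ZMod.val h9).trans ZMod.val_zero
    · rfl
  refine h4 _ _ ⟨(netOf w (show 2 ≤ k by omega)).gctx_symm,
    (netOf w (show 2 ≤ k by omega)).gctx_diag⟩ ?_ ?_
  · exact P7_V_zero _ (fun e _ _ => h8 Prod.fst rfl e)
  · exact P7_V_zero _ (fun e _ _ => h8 Prod.snd rfl e)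

end Vale.Agent.P310
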