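import Vale.Agent.P310.Sys

/-!
# P310: the network of a word (numeric definitions)

`w : List Bool` codes a one-dimensional cellular automaton with radius `1`:
`w = 1^E 0 (table: E^4 bits) (accepting: E bits) (padding)`.
-/

namespace Vale.Agent.P310

/-! ## Reading the word -/

/-- The `i`-th bit of the word as a number. -/
def bitAt (w : List Bool) (i : ℕ) : ℕ := if w[i]? = some true then 1 else 0

/-- The number of leading ones: the number of symbols of the automaton. -/
noncomputable def numSym (w : List Bool) : ℕ :=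
  sInf ({a | a < w.length ∧ bitAt w a = 0} ∪ {w.length})

/-- The rule `x₁ x₂ x₃ ↦ x₄`. -/
def tabOK (w : List Bool) (x₁ x₂ x₃ x₄ : ℕ) : Prop :=
  x₁ < numSym w ∧ x₂ < numSym w ∧ x₃ < numSym w ∧ x₄ < numSym w ∧
    bitAt w (numSym w + 1 + (((x₁ * numSym w + x₂) * numSym w + x₃) * numSym w + x₄)) = 1

/-- `x` is accepting. -/
def accOK (w : List Bool) (x : ℕ) : Prop :=
  x < numSym w ∧ bitAt w (numSym w + 1 + numSym w * numSym w * numSym w * numSym w + x) = 1

/-- The initial symbol in the cell `j` of the input zone: `3` for the first cell (the head on the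
symbol `1`), otherwise `1` or `2`. -/
def initSym (w : List Bool) (j : ℕ) : ℕ := if j = 0 then 3 else 1 + bitAt w j

/-- The initial symbol in the cell `p`. -/
noncomputable def initAt (w : List Bool) (p : ℤ) : ℕ :=
  if 0 ≤ p ∧ p < w.length then initSym w p.toNat else 0

/-- `CAder w t p x`: at time `t` the cell `p` contains `x`. -/
inductive CAder (w : List Bool) : ℕ → ℤ → ℕ → Prop where
  | init (p : ℤ) : CAder w 0 p (initAt w p)
  | step (t : ℕ) (p : ℤ) (x₁ x₂ x₃ x₄ : ℕ) (h₁ : CAder w t (p - 1) x₁) (h₂ : CAder w t p x₂)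
      (h₃ : CAder w t (p + 1) x₃) (h : tabOK w x₁ x₂ x₃ x₄) : CAder w (t + 1) p x₄

/-! ## Parameters -/

/-- The base of the digits. -/
def qOf (w : List Bool) : ℕ := w.length + 2

/-- The bound for pair codes. -/
def pB (k : ℕ) : ℕ := k * k + 1

/-- The code of the pair `{i, j}` of rows. -/
def pc (k i j : ℕ) : ℕ := min i j * k + max i j

/-- `p` is the code of a pair. -/
def pcOK (k p : ℕ) : Prop := p / k < p % k

/-- The code of the top pair. -/
def pTop (k : ℕ) : ℕ := k * k - k - 1

/-- The number of clauses. -/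
def numC (w : List Bool) (k : ℕ) : ℕ := 12 * (qOf w * qOf w * qOf w * qOf w) * pB k

/-! ## Decoding a clause -/

def cP (k c : ℕ) : ℕ := c % pB k
def cX4 (w : List Bool) (k c : ℕ) : ℕ := c / pB k % qOf w
def cX3 (w : List Bool) (k c : ℕ) : ℕ := c / pB k / qOf w % qOf w
def cX2 (w : List Bool) (k c : ℕ) : ℕ := c / pB k / qOf w / qOf w % qOf w
def cX1 (w : List Bool) (k c : ℕ) : ℕ := c / pB k / qOf w / qOf w / qOf w % qOf w
def cKd (w : List Bool) (k c : ℕ) : ℕ := c / pB k / qOf w / qOf w / qOf w / qOf w

/-- Coding a clause. -/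
def cCode (w : List Bool) (k kd x₁ x₂ x₃ x₄ p : ℕ) : ℕ :=
  ((((kd * qOf w + x₁) * qOf w + x₂) * qOf w + x₃) * qOf w + x₄) * pB k + p

/-- The goal clause. -/
def goalC (w : List Bool) (k : ℕ) : ℕ := cCode w k 11 0 0 0 0 0

/-- The number of body statements by kind. -/
def nbKd (kd : ℕ) : ℕ := if kd = 0 then 3 else if kd = 7 ∨ kd = 8 ∨ 11 ≤ kd then 0 else 1

def nbN (w : List Bool) (k c : ℕ) : ℕ := nbKd (cKd w k c)

/-- The shift component of the kinds `1, …, 6`: `1` for `u`, `2` for `v`, `0` for no shift. -/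
def shComp (kd : ℕ) : ℕ :=
  if kd = 1 ∨ kd = 5 then 1 else if kd = 2 ∨ kd = 3 ∨ kd = 4 ∨ kd = 6 then 2 else 0

/-- The kind and the index of the `b`-th statement of a clause. -/
noncomputable def stmtN (w : List Bool) (k c b : ℕ) : ℕ :=
  let q := qOf w
  let kd := cKd w k c
  if kd = 0 then
    (if b = 0 then cX1 w k c else if b = 1 then q + cX2 w k c else if b = 2 then 2 * q + cX3 w k c
      else 3 * q + cX4 w k c)
  else if kd = 1 then (if b = 0 then 3 * q + cX1 w k c else cX1 w k c)
  else if kd = 2 then (if b = 0 then cX1 w k c else q + cX1 w k c)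
  else if kd = 3 then (if b = 0 then q + cX1 w k c else 2 * q + cX1 w k c)
  else if kd = 4 then 4 * q
  else if kd = 5 then 5 * q
  else if kd = 6 then 5 * q
  else if kd = 7 then initSym w (cX1 w k c) % q
  else if kd = 8 then 4 * q
  else if kd = 9 then (if b = 0 then 4 * q else 0)
  else if kd = 10 then (if b = 0 then cX1 w k c else 5 * q)
  else 5 * q

/-- The digit of the shift of the `b`-th statement at the pair code `e` in the component
`comp = 1` (for `u`) or `2` (for `v`). -/
def shN (w : List Bool) (k c b e comp : ℕ) : ℕ :=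
  if b = 0 ∧ shComp (cKd w k c) = comp ∧ e ≤ cP k c then 1 else 0

/-- Which clauses exist at all. -/
def clOK (w : List Bool) (k c : ℕ) : Prop :=
  (cKd w k c = 0 → tabOK w (cX1 w k c) (cX2 w k c) (cX3 w k c) (cX4 w k c)) ∧
  (1 ≤ cKd w k c ∧ cKd w k c ≤ 6 ∨ cKd w k c = 9 → pcOK k (cP k c)) ∧
  (cKd w k c = 7 → cX1 w k c < w.length) ∧
  (cKd w k c = 10 → accOK w (cX1 w k c)) ∧
  (cKd w k c = 11 → c = goalC w k)

/-- The condition on the digits `u`, `v` at the pair code `e`. -/
def digOK (w : List Bool) (k c e u v : ℕ) : Prop :=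
  (shComp (cKd w k c) = 1 → (e < cP k c → u = qOf w - 1) ∧ (e = cP k c → u ≠ qOf w - 1)) ∧
  (shComp (cKd w k c) = 2 → (e < cP k c → v = qOf w - 1) ∧ (e = cP k c → v ≠ qOf w - 1)) ∧
  (cKd w k c = 7 → u = qOf w - 1 ∧
    v = if e = 1 then cX1 w k c else if e = pTop k then 1 else 0) ∧
  (cKd w k c = 8 → u = qOf w - 1 ∧ v = qOf w - 1) ∧
  (cKd w k c = 9 → e = cP k c →
    if e = 1 then w.length ≤ v else if e = pTop k then v ≠ 1 else v ≠ 0) ∧
  (cKd w k c = 11 → u = 0 ∧ v = 0)

def condN (w : List Bool) (k c e u v : ℕ) : Prop := clOK w k c ∧ digOK w k c e u v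

/-! ## The network -/

theorem qOf_pos (w : List Bool) : 0 < qOf w := by unfold qOf; omega

instance (w : List Bool) : NeZero (qOf w) := ⟨(qOf_pos w).ne'⟩

theorem pB_pos (k : ℕ) : 0 < pB k := by unfold pB; omega

theorem goalC_lt (w : List Bool) (k : ℕ) : goalC w k < numC w k := by
  unfold goalC cCode numC
  have h1 := qOf_pos w
  have h2 := pB_pos k
  have : 0 < qOf w * qOf w * qOf w * qOf w * pB k := by positivity
  nlinarith [this]

theorem cKd_goal (w : List Bool) (k : ℕ) : cKd w k (goalC w k) = 11 := by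
  unfold goalC cCode cKd
  have h1 := qOf_pos w
  have h2 := pB_pos k
  simp only [add_zero]
  rw [Nat.mul_div_cancel _ h2, Nat.mul_div_cancel _ h1, Nat.mul_div_cancel _ h1,
    Nat.mul_div_cancel _ h1, Nat.mul_div_cancel _ h1]

theorem stmtN_lt (w : List Bool) (k c b : ℕ) : stmtN w k c b < 6 * qOf w := by
  have h1 := qOf_pos w
  have e1 : cX1 w k c < qOf w := Nat.mod_lt _ h1
  have e2 : cX2 w k c < qOf w := Nat.mod_lt _ h1
  have e3 : cX3 w k c < qOf w := Nat.mod_lt _ h1
  have e4 : cX4 w k c < qOf w := Nat.mod_lt _ h1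
  have e5 : initSym w (cX1 w k c) % qOf w < qOf w := Nat.mod_lt _ h1
  unfold stmtN
  dsimp only
  generalize initSym w (cX1 w k c) % qOf w = y5 at *
  generalize cX1 w k c = y1 at *
  generalize cX2 w k c = y2 at *
  generalize cX3 w k c = y3 at *
  generalize cX4 w k c = y4 at *
  generalize qOf w = q at *
  by_cases g0 : cKd w k c = 0
  · rw [if_pos g0]; split_ifs <;> omega
  rw [if_neg g0]
  by_cases g1 : cKd w k c = 1
  · rw [if_pos g1]; split_ifs <;> omega
  rw [if_neg g1]
  by_cases g2 : cKd w k c = 2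
  · rw [if_pos g2]; split_ifs <;> omega
  rw [if_neg g2]
  by_cases g3 : cKd w k c = 3
  · rw [if_pos g3]; split_ifs <;> omega
  rw [if_neg g3]
  split_ifs <;> omega

theorem nbN_le (w : List Bool) (k c : ℕ) : nbN w k c ≤ 3 := by
  unfold nbN nbKd
  split_ifs <;> omega

theorem pc_symm (k i j : ℕ) : pc k i j = pc k j i := by
  unfold pc
  rw [min_comm, max_comm]

/-- The network of the word `w` (over `k` rows). -/
noncomputable def netOf (w : List Bool) {k : ℕ} (hk : 2 ≤ k) : Net k where
  C := Fin (numC w k)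
  St := Fin (6 * qOf w)
  Λ := ZMod (qOf w) × ZMod (qOf w)
  grp := inferInstance
  fC := inferInstance
  fSt := inferInstance
  fΛ := inferInstance
  nb c := nbN w k c
  nb_le c := nbN_le w k c
  goal := ⟨goalC w k, goalC_lt w k⟩
  nb_goal := by
    unfold nbN
    rw [cKd_goal]
    rfl
  stmt c b := ⟨stmtN w k c b, stmtN_lt w k c b⟩
  sh c b i j := if i = j then 0 else
    ((shN w k c b (pc k i j) 1 : ℕ), (shN w k c b (pc k i j) 2 : ℕ))
  sh_symm := by
    intro c b i j
    by_cases h : i = j
    · subst h; rfl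
    · rw [if_neg h, if_neg (fun e => h e.symm), pc_symm]
  sh_diag := by intro c b i; rw [if_pos rfl]
  cond c i j d := condN w k c (pc k i j) d.1.val d.2.val
  cond_symm := by
    intro c i j d h
    rw [pc_symm]
    exact h
  single := by
    intro c hc i j hij d d' h h'
    have hkd : cKd w k c = 7 ∨ cKd w k c = 8 ∨ 11 ≤ cKd w k c := by
      unfold nbN nbKd at hc
      split_ifs at hc with h1 h2
      exact h2
    have hlt : cKd w k c < 12 := by
      have := c.2
      unfold numC at this
      unfold cKd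
      have h1 := qOf_pos w
      have h2 := pB_pos k
      rw [Nat.div_div_eq_div_mul, Nat.div_div_eq_div_mul, Nat.div_div_eq_div_mul,
        Nat.div_div_eq_div_mul]
      rw [Nat.div_lt_iff_lt_mul (by positivity)]
      calc (c : ℕ) < _ := this
        _ = _ := by ring
    obtain ⟨-, h⟩ := h
    obtain ⟨-, h'⟩ := h'
    unfold digOK at h h'
    obtain ⟨-, -, g1, g2, -, g3⟩ := h
    obtain ⟨-, -, g1', g2', -, g3'⟩ := h'
    refine Prod.ext (ZMod.val_injective _ ?_) (ZMod.val_injective _ ?_)
    · rcases hkd with h | h | h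
      · rw [(g1 h).1, (g1' h).1]
      · rw [(g2 h).1, (g2' h).1]
      · rw [(g3 (by omega)).1, (g3' (by omega)).1]
    · rcases hkd with h | h | h
      · rw [(g1 h).2, (g1' h).2]
      · rw [(g2 h).2, (g2' h).2]
      · rw [(g3 (by omega)).2, (g3' (by omega)).2]
  gctx := 0
  gctx_symm := fun _ _ => rfl
  gctx_diag := fun _ => rfl
  gctx_cond := by
    intro i j hij
    refine ⟨?_, ?_⟩
    · unfold clOK
      rw [cKd_goal]
      refine ⟨by omega, by omega, by omega, by omega, fun _ => rfl⟩
    · unfold digOK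
      rw [cKd_goal]
      refine ⟨fun h => absurd h (by decide), fun h => absurd h (by decide), by omega, by omega,
        by omega, fun _ => ⟨?_, ?_⟩⟩ <;>
      simp
  body_ne_goal := by
    intro c b hb F hF hF0 hcond h
    obtain ⟨h1, h2⟩ := h
    have hq := qOf_pos w
    have h1' : stmtN w k c b = 5 * qOf w := by
      have := congrArg Fin.val h1
      simp only at this
      rw [this]
      unfold stmtN
      dsimp only
      rw [cKd_goal]
      norm_num
    replace hb : b < nbN w k c := hb
    have e1 : cX1 w k c < qOf w := Nat.mod_lt _ hq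
    have e2 : cX2 w k c < qOf w := Nat.mod_lt _ hq
    have e3 : cX3 w k c < qOf w := Nat.mod_lt _ hq
    have hkd : (cKd w k c = 5 ∨ cKd w k c = 6) ∧ b = 0 := by
      unfold nbN nbKd at hb
      unfold stmtN at h1'
      dsimp only at h1'
      by_cases g0 : cKd w k c = 0
      · rw [if_pos g0] at h1' hb
        split_ifs at h1' <;> omega
      rw [if_neg g0] at h1' hb
      split_ifs at hb with g7
      · omega
      have hb0 : b = 0 := by omega
      subst hb0
      simp only [if_true] at h1'
      refine ⟨?_, rfl⟩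
      split_ifs at h1' <;> omega
    obtain ⟨hkd, rfl⟩ := hkd
    have key : pcOK k (cP k c) → False := by
      intro hp
      have hk0 : 0 < k := by
        rcases Nat.eq_zero_or_pos k with h | h
        · subst h
          unfold pcOK at hp
          simp only [Nat.div_zero, Nat.mod_zero] at hp
          unfold cP pB at hp
          omega
        · exact h
      have hlt : cP k c % k < k := Nat.mod_lt _ hk0
      have hlt' : cP k c / k < k := lt_trans hp hlt
      have h3 := h2 ⟨cP k c / k, hlt'⟩ ⟨cP k c % k, hlt⟩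
      have hne : (⟨cP k c / k, hlt'⟩ : Fin k) ≠ ⟨cP k c % k, hlt⟩ := by
        intro e
        have := congrArg Fin.val e
        simp only at this
        unfold pcOK at hp
        omega
      have h4 := hcond _ _ hne
      rw [if_neg hne, if_neg hne] at h3
      have epc : pc k (cP k c / k) (cP k c % k) = cP k c := by
        unfold pc
        unfold pcOK at hp
        rw [min_eq_left hp.le, max_eq_right hp.le]
        rw [mul_comm]
        exact Nat.div_add_mod _ _
      simp only [epc] at h3 h4
      obtain ⟨-, h4⟩ := h4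
      unfold digOK at h4
      obtain ⟨g1, g2, -, -, -, -⟩ := h4
      have hz : ∀ e comp, shN w k (goalC w k) 0 e comp = 0 ∨ comp = 0 := by
        intro e comp
        by_cases hc : comp = 0
        · exact Or.inr hc
        left
        unfold shN
        rw [cKd_goal, if_neg]
        rintro ⟨-, h, -⟩
        exact hc (by rw [← h]; rfl)
      have hzm : ∀ x : ZMod (qOf w), x + 1 = 0 → x.val = qOf w - 1 := by
        intro x hx
        have : x = ((qOf w - 1 : ℕ) : ZMod (qOf w)) := by
          rw [Nat.cast_sub (by omega), ZMod.natCast_self]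
          rw [eq_neg_of_add_eq_zero_left hx]
          simp
        rw [this, ZMod.val_natCast, Nat.mod_eq_of_lt (by omega)]
      have hz1 : shN w k (goalC w k) 0 (cP k c) 1 = 0 := by
        rcases hz (cP k c) 1 with h | h
        · exact h
        · omega
      have hz2 : shN w k (goalC w k) 0 (cP k c) 2 = 0 := by
        rcases hz (cP k c) 2 with h | h
        · exact h
        · omega
      rw [hz1, hz2] at h3
      simp only [Pi.zero_apply, Nat.cast_zero, zero_add] at h3
      rcases hkd with hk5 | hk6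
      · have hs : shN w k c 0 (cP k c) 1 = 1 := by
          unfold shN
          rw [hk5, if_pos ⟨rfl, rfl, le_refl _⟩]
        have h5 := congrArg Prod.fst h3
        simp only [Prod.fst_add, hs, Nat.cast_one] at h5
        exact (g1 (by rw [hk5]; rfl)).2 rfl (hzm _ h5)
      · have hs : shN w k c 0 (cP k c) 2 = 1 := by
          unfold shN
          rw [hk6, if_pos ⟨rfl, rfl, le_refl _⟩]
        have h5 := congrArg Prod.snd h3
        simp only [Prod.snd_add, hs, Nat.cast_one] at h5
        exact (g2 (by rw [hk6]; rfl)).2 rfl (hzm _ h5)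
    apply key
    by_contra hp
    have h4 : ∃ i j : Fin k, i ≠ j :=
      ⟨⟨0, by omega⟩, ⟨1, by omega⟩, by simp⟩
    obtain ⟨i, j, hij⟩ := h4
    have := (hcond i j hij).1.2.1
    exact hp (this (by omega))

end Vale.Agent.P310
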