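import Vale.Agent.P310.Num

/-!
# P310: the numeric graphs (definitions)

An axiom `(c, (l, s), i, a)` of `netOf w` (with `ℓ = k + 2`) is coded by the number
`((c * (7 * (k + 3)) + (l * (k + 3) + s)) * k + i) * Q ^ k + ∑ j, a j * Q ^ j`, `Q = q ^ 2`, where the
digit `(u, v) : ZMod q × ZMod q` is coded by `u * q + v`.  The vertex `(x, τ, m)` is coded by
`(x * T + τ) * (NX + 3) + m'`, `T = 2 ^ (k + 7)`, `NX` = number of axioms, `m' = 0` for `none` and
`m' = m + 1` for `some m`.
-/

namespace Vale.Agent.P310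

variable (w : List Bool) (k : ℕ)

/-- The base for contents. -/
def qq : ℕ := qOf w * qOf w

/-- The number of codes of nodes of a clause. -/
def ndB : ℕ := 7 * (k + 3)

/-- The number of codes of axioms. -/
def numX : ℕ := numC w k * ndB k * k * qq w ^ k

/-- The number of vertices. -/
def numV : ℕ := numX w k * 2 ^ (k + 7) * (numX w k + 3)

def xDig (x j : ℕ) : ℕ := x / qq w ^ j % qq w
def xI (x : ℕ) : ℕ := x / qq w ^ k % k
def xL (x : ℕ) : ℕ := x / qq w ^ k / k % ndB k / (k + 3)
def xS (x : ℕ) : ℕ := x / qq w ^ k / k % ndB k % (k + 3)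
def xC (x : ℕ) : ℕ := x / qq w ^ k / k / ndB k

/-- validity -/
def validN (x : ℕ) : Prop :=
  (xS w k x = 0 → xL w k x = 0) ∧ xL w k x ≤ 2 * nbN w k (xC w k x) ∧ xDig w x (xI w k x) = 0 ∧
    ∀ j < k, j ≠ xI w k x → condN w k (xC w k x) (pc k (xI w k x) j)
      (xDig w x j / qOf w) (xDig w x j % qOf w)

/-- The part of the code of the variable in slot `b` without the content (`0`: no variable). -/
noncomputable def slotH (x b : ℕ) : ℕ :=
  if b < k then
    (if b = xI w k x then 0
      else 1 + 3 * ((xC w k x * ndB k + (xL w k x * (k + 3) + xS w k x)) * pB k + pc k (xI w k x) b))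
  else if xS w k x = 0 then
    (if b - k ≤ 2 * nbN w k (xC w k x) then
      2 + 3 * ((xC w k x * ndB k + (b - k) * (k + 3)) * k + xI w k x) else 0)
  else if b - k = 0 then
    2 + 3 * ((xC w k x * ndB k + (xL w k x * (k + 3) + (xS w k x - 1))) * k + xI w k x)
  else if b - k = 1 then
    (if xS w k x < k + 2 then
      2 + 3 * ((xC w k x * ndB k + (xL w k x * (k + 3) + xS w k x)) * k + xI w k x)
    else 3 + 3 * (stmtN w k (xC w k x) (xL w k x / 2) * k + xI w k x))
  else 0

/-- The `j`-th digit of the content of the variable in slot `b`. -/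
def slotD (x b j : ℕ) : ℕ :=
  if b < k then xDig w x b
  else if xS w k x ≠ 0 ∧ b - k = 1 ∧ ¬ xS w k x < k + 2 ∧ j ≠ xI w k x then
    (xDig w x j / qOf w + shN w k (xC w k x) (xL w k x / 2) (pc k (xI w k x) j) 1) % qOf w * qOf w +
      (xDig w x j % qOf w + shN w k (xC w k x) (xL w k x / 2) (pc k (xI w k x) j) 2) % qOf w
  else xDig w x j

/-- The slots `b` of `x` and `b'` of `x'` hold the same variable. -/
def sameN (x b x' b' : ℕ) : Prop :=
  slotH w k x b ≠ 0 ∧ slotH w k x b = slotH w k x' b' ∧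
    ∀ j < k, slotD w k x b j = slotD w k x' b' j

def twN (x : ℕ) : ℕ :=
  if xC w k x = goalC w k ∧ xL w k x = 0 ∧ xS w k x = 0 ∧ xI w k x = 0 then 1 else 0

/-- `τ` is a solution of the axiom `x` (twisted if `t = 1`). -/
def goodN (t x τ : ℕ) : Prop :=
  validN w k x ∧ (∀ b < k + 7, slotH w k x b = 0 → τ / 2 ^ b % 2 = 0) ∧
    (∑ b ∈ Finset.range (k + 7), τ / 2 ^ b % 2) % 2 = t * twN w k x

def shareN (x x' : ℕ) : Prop := ∃ b < k + 7, ∃ b' < k + 7, sameN w k x b x' b'

def agreeN (x τ x' τ' : ℕ) : Prop :=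
  ∀ b < k + 7, ∀ b' < k + 7, sameN w k x b x' b' → τ / 2 ^ b % 2 = τ' / 2 ^ b' % 2

/-- Adjacency on numbers; `NX`, `T` are the number of axioms and `2 ^ (k + 7)`. -/
def adjN (NX T t v v' : ℕ) : Prop :=
  let m := v % (NX + 3)
  let x := v / (NX + 3) / T
  let τ := v / (NX + 3) % T
  let m' := v' % (NX + 3)
  let x' := v' / (NX + 3) / T
  let τ' := v' / (NX + 3) % T
  (m = 0 ∧ m' = 0 ∧ goodN w k t x τ ∧ goodN w k t x' τ' ∧ x ≠ x' ∧ shareN w k x x' ∧
      agreeN w k x τ x' τ') ∨
    (((m = 0 ∧ 0 < m' ∧ m' < x + 3) ∨ (m' = 0 ∧ 0 < m ∧ m < x + 3)) ∧ goodN w k t x τ ∧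
      x = x' ∧ τ = τ')

/-- The number of additional isolated vertices: the number whose binary expansion is at the end of
`w` (the last bit is the lowest digit), digits `i` with `2 ^ i ≤ X`. -/
def padN (w : List Bool) (X : ℕ) : ℕ :=
  ∑ i ∈ Finset.range w.length, if min (2 ^ i) (X + 1) ≤ X then
    bitAt w (w.length - 1 - i) * min (2 ^ i) (X + 1) else 0

/-- The `h`-th bit of the output word: the adjacency matrix of the untwisted graph, then of the
twisted graph, both with `Z` additional isolated vertices. -/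
def outP (NX T Z h : ℕ) : Prop :=
  let n := NX * T * (NX + 3)
  let n' := n + Z
  (h < n' * n' ∧ h / n' < n ∧ h % n' < n ∧ adjN w k NX T 0 (h / n') (h % n')) ∨
    (n' * n' ≤ h ∧ (h - n' * n') / n' < n ∧ (h - n' * n') % n' < n ∧
      adjN w k NX T 1 ((h - n' * n') / n') ((h - n' * n') % n'))

open Classical in
/-- The same with clamped parameters (computable by counter programs). -/
noncomputable def outBit (X h : ℕ) : ℕ :=
  if outP w k (numC w k * ndB k * k * min (qq w ^ k) X) (min (2 ^ (k + 7)) X) (padN w X) h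
    then 1 else 0

/-- The length of the output word, clamped. -/
def outLen (X : ℕ) : ℕ :=
  let NX := numC w k * ndB k * k * min (qq w ^ k) X
  let n := NX * min (2 ^ (k + 7)) X * (NX + 3)
  let n' := n + padN w X
  2 * (n' * n')

end Vale.Agent.P310
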