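import Vale.Agent.P310.NumG

/-!
# P310, package P9: the numeric graphs are the graphs of the network
-/

namespace Vale.Agent.P310

open Finset

namespace P9

/-! ## Small arithmetic -/

theorem div_pow_add (Q k j D y : ℕ) (hQ : 0 < Q) (hj : j < k) :
    (D + Q ^ k * y) / Q ^ j % Q = D / Q ^ j % Q := by
  obtain ⟨e, rfl⟩ : ∃ e, k = j + 1 + e := ⟨k - (j + 1), by omega⟩
  have h : Q ^ (j + 1 + e) * y = Q ^ j * (Q * (Q ^ e * y)) := by ring
  rw [h, Nat.add_mul_div_left _ _ (by positivity), Nat.add_mul_mod_self_left]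

/-- `ZMod n` and `Fin n`. -/
def zf (n : ℕ) [NeZero n] : ZMod n ≃ Fin n where
  toFun x := ⟨x.val, ZMod.val_lt x⟩
  invFun i := ((i : ℕ) : ZMod n)
  left_inv x := ZMod.natCast_zmod_val x
  right_inv i := Fin.ext (ZMod.val_cast_of_lt i.2)

variable (w : List Bool) (k : ℕ)

/-- The codes of the labels. -/
def lamE : ZMod (qOf w) × ZMod (qOf w) ≃ Fin (qq w) :=
  (Equiv.prodCongr (zf (qOf w)) (zf (qOf w))).trans finProdFinEquiv

theorem lamE_val (d : ZMod (qOf w) × ZMod (qOf w)) :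
    (lamE w d : ℕ) = d.2.val + qOf w * d.1.val := rfl

theorem lamE_div (d : ZMod (qOf w) × ZMod (qOf w)) : (lamE w d : ℕ) / qOf w = d.1.val := by
  rw [lamE_val, Nat.add_mul_div_left _ _ (qOf_pos w), Nat.div_eq_of_lt (ZMod.val_lt _), zero_add]

theorem lamE_mod (d : ZMod (qOf w) × ZMod (qOf w)) : (lamE w d : ℕ) % qOf w = d.2.val := by
  rw [lamE_val, Nat.add_mul_mod_self_left, Nat.mod_eq_of_lt (ZMod.val_lt _)]

theorem qq_pos : 0 < qq w := Nat.mul_pos (qOf_pos w) (qOf_pos w)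

/-- The codes of the contents. -/
def conE : (Fin k → ZMod (qOf w) × ZMod (qOf w)) ≃ Fin (qq w ^ k) :=
  (Equiv.arrowCongr (Equiv.refl (Fin k)) (lamE w)).trans finFunctionFinEquiv

theorem conE_dig (a : Fin k → ZMod (qOf w) × ZMod (qOf w)) (j : Fin k) :
    (conE w k a : ℕ) / qq w ^ (j : ℕ) % qq w = lamE w (a j) := by
  have h : finFunctionFinEquiv.symm (conE w k a) j = lamE w (a j) := by
    unfold conE
    rw [Equiv.trans_apply, Equiv.symm_apply_apply]
    rfl
  exact congrArg Fin.val h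

/-- The axioms, concretely. -/
abbrev AxW : Type :=
  Fin (numC w k) × (Fin 7 × Fin (k + 3)) × Fin k × (Fin k → ZMod (qOf w) × ZMod (qOf w))

/-- Reassociation. -/
def asE : AxW w k ≃ ((Fin (numC w k) × (Fin 7 × Fin (k + 3))) × Fin k) ×
    (Fin k → ZMod (qOf w) × ZMod (qOf w)) where
  toFun x := (((x.1, x.2.1), x.2.2.1), x.2.2.2)
  invFun y := (y.1.1.1, y.1.1.2, y.1.2, y.2)
  left_inv _ := rfl
  right_inv _ := rfl

/-- The codes of the axioms. -/
def axE : AxW w k ≃ Fin (numX w k) :=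
  (asE w k).trans ((Equiv.prodCongr
    ((Equiv.prodCongr ((Equiv.prodCongr (Equiv.refl _)
      (finProdFinEquiv (m := 7) (n := k + 3))).trans (finProdFinEquiv (m := numC w k)
        (n := ndB k))) (Equiv.refl _)).trans (finProdFinEquiv (m := numC w k * ndB k) (n := k)))
    (conE w k)).trans (finProdFinEquiv (m := numC w k * ndB k * k) (n := qq w ^ k)))

theorem axE_val (x : AxW w k) : (axE w k x : ℕ) =
    (conE w k x.2.2.2 : ℕ) + qq w ^ k * ((x.2.2.1 : ℕ) + k * (((x.2.1.2 : ℕ) +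
      (k + 3) * (x.2.1.1 : ℕ)) + ndB k * (x.1 : ℕ))) := rfl

theorem ax_div1 (x : AxW w k) : (axE w k x : ℕ) / qq w ^ k = (x.2.2.1 : ℕ) +
    k * (((x.2.1.2 : ℕ) + (k + 3) * (x.2.1.1 : ℕ)) + ndB k * (x.1 : ℕ)) := by
  rw [axE_val, Nat.add_mul_div_left _ _ (pow_pos (qq_pos w) k),
    Nat.div_eq_of_lt (conE w k x.2.2.2).2, zero_add]

theorem ndB_lt (ls : Fin 7 × Fin (k + 3)) : (ls.2 : ℕ) + (k + 3) * (ls.1 : ℕ) < ndB k := by
  have h1 := ls.1.2
  have h2 := ls.2.2
  unfold ndB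
  have : (k + 3) * (ls.1 : ℕ) ≤ (k + 3) * 6 := Nat.mul_le_mul_left _ (by omega)
  omega

theorem ndB_pos : 0 < ndB k := by unfold ndB; omega

theorem ax_div2 (x : AxW w k) : (axE w k x : ℕ) / qq w ^ k / k =
    ((x.2.1.2 : ℕ) + (k + 3) * (x.2.1.1 : ℕ)) + ndB k * (x.1 : ℕ) := by
  have hk : 0 < k := lt_of_le_of_lt (Nat.zero_le _) x.2.2.1.2
  rw [ax_div1, Nat.add_mul_div_left _ _ hk, Nat.div_eq_of_lt x.2.2.1.2, zero_add]

theorem ax_I (x : AxW w k) : xI w k (axE w k x) = x.2.2.1 := by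
  unfold xI
  rw [ax_div1, Nat.add_mul_mod_self_left, Nat.mod_eq_of_lt x.2.2.1.2]

theorem ax_C (x : AxW w k) : xC w k (axE w k x) = x.1 := by
  unfold xC
  rw [ax_div2, Nat.add_mul_div_left _ _ (ndB_pos k), Nat.div_eq_of_lt (ndB_lt k x.2.1), zero_add]

theorem ax_mod (x : AxW w k) : (axE w k x : ℕ) / qq w ^ k / k % ndB k =
    (x.2.1.2 : ℕ) + (k + 3) * (x.2.1.1 : ℕ) := by
  rw [ax_div2, Nat.add_mul_mod_self_left, Nat.mod_eq_of_lt (ndB_lt k x.2.1)]

theorem ax_L (x : AxW w k) : xL w k (axE w k x) = x.2.1.1 := by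
  unfold xL
  rw [ax_mod, Nat.add_mul_div_left _ _ (by omega), Nat.div_eq_of_lt x.2.1.2.2, zero_add]

theorem ax_S (x : AxW w k) : xS w k (axE w k x) = x.2.1.2 := by
  unfold xS
  rw [ax_mod, Nat.add_mul_mod_self_left, Nat.mod_eq_of_lt x.2.1.2.2]

theorem ax_Dig (x : AxW w k) (j : Fin k) : xDig w (axE w k x) j = lamE w (x.2.2.2 j) := by
  unfold xDig
  rw [axE_val, div_pow_add _ _ _ _ _ (qq_pos w) j.2, conE_dig]

theorem ax_Dig' (x : AxW w k) (j : ℕ) (hj : j < k) :
    xDig w (axE w k x) j = lamE w (x.2.2.2 ⟨j, hj⟩) := ax_Dig w k x ⟨j, hj⟩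

theorem lamE_zero (d : ZMod (qOf w) × ZMod (qOf w)) : (lamE w d : ℕ) = 0 ↔ d = 0 := by
  rw [lamE_val]
  have hq := qOf_pos w
  constructor
  · intro h
    have h1 : d.2.val = 0 := by omega
    have h2 : d.1.val = 0 := by
      rcases Nat.eq_zero_or_pos d.1.val with h' | h'
      · exact h'
      · have := Nat.mul_pos hq h'; omega
    exact Prod.ext ((ZMod.val_eq_zero _).mp h2) ((ZMod.val_eq_zero _).mp h1)
  · rintro rfl
    simp

/-! ## The codes of the variables -/

variable {w} {k} (hk : 2 ≤ k)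

/-- The code of a pair of rows. -/
def pcS (k : ℕ) (e : Sym2 (Fin k)) : ℕ :=
  Sym2.lift ⟨fun i j : Fin k => pc k i j, fun i j => pc_symm k i j⟩ e

theorem pcS_mk (i j : Fin k) : pcS k s(i, j) = pc k i j := rfl

theorem pc_lt (i j : Fin k) : pc k i j < pB k := by
  unfold pc pB
  have h1 := i.2
  have h2 := j.2
  have h3 : min (i : ℕ) j ≤ k - 1 := by omega
  have h4 : max (i : ℕ) j < k := by omega
  have h5 : min (i : ℕ) j * k ≤ (k - 1) * k := Nat.mul_le_mul_right _ h3
  have h6 : (k - 1) * k + k = k * k := by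
    obtain ⟨m, rfl⟩ : ∃ m, k = m + 1 := ⟨k - 1, by omega⟩
    simp only [Nat.add_sub_cancel]
    ring
  omega

theorem pcS_lt (e : Sym2 (Fin k)) : pcS k e < pB k := by
  induction e using Sym2.ind with
  | _ i j => exact pc_lt i j

theorem pcS_inj (e e' : Sym2 (Fin k)) (h : pcS k e = pcS k e') : e = e' := by
  induction e using Sym2.ind with
  | _ i j =>
    induction e' using Sym2.ind with
    | _ i' j' =>
      rw [pcS_mk, pcS_mk] at h
      unfold pc at h
      have hk : 0 < k := lt_of_le_of_lt (Nat.zero_le _) i.2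
      have h1 : max (i : ℕ) j < k := max_lt i.2 j.2
      have h1' : max (i' : ℕ) j' < k := max_lt i'.2 j'.2
      have h2 : min (i : ℕ) j = min (i' : ℕ) j' := by
        have e1 : (min (i : ℕ) j * k + max (i : ℕ) j) / k = min (i : ℕ) j := by
          rw [Nat.add_comm, Nat.add_mul_div_right _ _ hk, Nat.div_eq_of_lt h1, zero_add]
        have e2 : (min (i' : ℕ) j' * k + max (i' : ℕ) j') / k = min (i' : ℕ) j' := by
          rw [Nat.add_comm, Nat.add_mul_div_right _ _ hk, Nat.div_eq_of_lt h1', zero_add]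
        rw [← e1, ← e2, h]
      have h3 : max (i : ℕ) j = max (i' : ℕ) j' := by
        rw [h2] at h
        omega
      rw [Sym2.eq_iff]
      by_cases c1 : (i : ℕ) = i'
      · exact Or.inl ⟨Fin.ext c1, Fin.ext (by omega)⟩
      · exact Or.inr ⟨Fin.ext (by omega), Fin.ext (by omega)⟩

/-- The number of a clause. -/
def cN (hk : 2 ≤ k) (c : (netOf w hk).C) : ℕ := Fin.val (n := numC w k) c

/-- The number of a statement. -/
def stN (hk : 2 ≤ k) (st : (netOf w hk).St) : ℕ := Fin.val (n := 6 * qOf w) st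

/-- The type of variables. -/
abbrev VrW (w : List Bool) (hk : 2 ≤ k) : Type := (netOf w hk).Vr (k + 2)

/-- The head part of the code of a variable. -/
def Hc (hk : 2 ≤ k) : VrW w hk → ℕ
  | .vert c l s e _ => 1 + 3 * ((cN hk c * ndB k +
      ((l : ℕ) * (k + 3) + (s : ℕ))) * pB k + pcS k e)
  | .inner c l s i _ => 2 + 3 * ((cN hk c * ndB k +
      ((l : ℕ) * (k + 3) + (s : ℕ))) * k + (i : ℕ))
  | .main st i _ => 3 + 3 * (stN hk st * k + (i : ℕ))

/-- The content part of the code of a variable. -/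
def Dc (hk : 2 ≤ k) : VrW w hk → Fin k → ℕ
  | .vert _ _ _ _ d, _ => (lamE w d : ℕ)
  | .inner _ _ _ _ a, j => (lamE w (a j) : ℕ)
  | .main _ _ a, j => (lamE w (a j) : ℕ)

theorem Hc_pos (v : VrW w hk) : Hc hk v ≠ 0 := by
  cases v <;> simp [Hc]

theorem mul_add_inj {B a b a' b' : ℕ} (hb : b < B) (hb' : b' < B)
    (h : a * B + b = a' * B + b') : a = a' ∧ b = b' := by
  have hB : 0 < B := by omega
  have e1 : (a * B + b) / B = a := by
    rw [Nat.add_comm, Nat.add_mul_div_right _ _ hB, Nat.div_eq_of_lt hb, zero_add]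
  have e2 : (a' * B + b') / B = a' := by
    rw [Nat.add_comm, Nat.add_mul_div_right _ _ hB, Nat.div_eq_of_lt hb', zero_add]
  have h1 : a = a' := by rw [← e1, ← e2, h]
  subst h1
  exact ⟨rfl, by omega⟩

theorem node_inj {c c' : ℕ} {l l' : Fin 7} {s s' : Fin (k + 3)}
    (h : c * ndB k + ((l : ℕ) * (k + 3) + (s : ℕ)) = c' * ndB k + ((l' : ℕ) * (k + 3) + (s' : ℕ))) :
    c = c' ∧ l = l' ∧ s = s' := by
  have h1 : (l : ℕ) * (k + 3) + (s : ℕ) < ndB k := by
    have := ndB_lt k (l, s)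
    simp only at this
    rw [mul_comm]
    omega
  have h2 : (l' : ℕ) * (k + 3) + (s' : ℕ) < ndB k := by
    have := ndB_lt k (l', s')
    simp only at this
    rw [mul_comm]
    omega
  obtain ⟨e1, e2⟩ := mul_add_inj h1 h2 h
  obtain ⟨e3, e4⟩ := mul_add_inj s.2 s'.2 e2
  exact ⟨e1, Fin.ext e3, Fin.ext e4⟩

theorem lamE_inj {d d' : ZMod (qOf w) × ZMod (qOf w)} (h : (lamE w d : ℕ) = lamE w d') : d = d' :=
  (lamE w).injective (Fin.ext h)

theorem code_inj (v v' : VrW w hk) (h : Hc hk v = Hc hk v') (h' : ∀ j, Dc hk v j = Dc hk v' j) :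
    v = v' := by
  cases v with
  | vert c l s e d =>
    cases v' with
    | vert c' l' s' e' d' =>
      simp only [Hc] at h
      have h1 := mul_add_inj (pcS_lt e) (pcS_lt e') (by omega :
        (cN hk c * ndB k + ((l : ℕ) * (k + 3) + (s : ℕ))) * pB k + pcS k e
        = (cN hk c' * ndB k + ((l' : ℕ) * (k + 3) + (s' : ℕ))) * pB k +
          pcS k e')
      obtain ⟨e1, e2, e3⟩ := node_inj h1.1
      have e4 := pcS_inj _ _ h1.2
      have e5 : d = d' := lamE_inj (h' ⟨0, by omega⟩)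
      have e6 : c = c' := Fin.ext e1
      rw [e6, e2, e3, e4, e5]
    | inner c' l' s' i' a' => simp only [Hc] at h; omega
    | main st' i' a' => simp only [Hc] at h; omega
  | inner c l s i a =>
    cases v' with
    | vert c' l' s' e' d' => simp only [Hc] at h; omega
    | inner c' l' s' i' a' =>
      simp only [Hc] at h
      have h1 := mul_add_inj i.2 i'.2 (by omega :
        (cN hk c * ndB k + ((l : ℕ) * (k + 3) + (s : ℕ))) * k + (i : ℕ)
        = (cN hk c' * ndB k + ((l' : ℕ) * (k + 3) + (s' : ℕ))) * k +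
          (i' : ℕ))
      obtain ⟨e1, e2, e3⟩ := node_inj h1.1
      have e4 := Fin.ext h1.2
      have e5 : a = a' := funext fun j => lamE_inj (h' j)
      have e6 : c = c' := Fin.ext e1
      rw [e6, e2, e3, e4, e5]
    | main st' i' a' => simp only [Hc] at h; omega
  | main st i a =>
    cases v' with
    | vert c' l' s' e' d' => simp only [Hc] at h; omega
    | inner c' l' s' i' a' => simp only [Hc] at h; omega
    | main st' i' a' =>
      simp only [Hc] at h
      have h1 := mul_add_inj i.2 i'.2 (by omega :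
        stN hk st * k + (i : ℕ)
        = stN hk st' * k + (i' : ℕ))
      have e4 := Fin.ext h1.2
      have e5 : a = a' := funext fun j => lamE_inj (h' j)
      have e6 : st = st' := Fin.ext h1.1
      rw [e6, e4, e5]

/-! ## Slots -/

theorem add_nat_val (x : ZMod (qOf w)) (n : ℕ) : (x + (n : ZMod (qOf w))).val =
    (x.val + n) % qOf w := by
  rw [ZMod.val_add, ZMod.val_natCast, Nat.add_mod_mod]

theorem slot_none (x : AxW w k) (b : Fin (k + 7)) (h : (netOf w hk).axSlot (k + 2) x b = none) :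
    slotH w k (axE w k x) b = 0 := by
  have hI := ax_I w k x
  have hL := ax_L w k x
  have hS := ax_S w k x
  have hC := ax_C w k x
  generalize (axE w k x : ℕ) = n at *
  obtain ⟨c, ⟨l, s⟩, i, a⟩ := x
  unfold Net.axSlot at h
  dsimp only at h hI hL hS hC
  unfold slotH
  rw [hI, hL, hS, hC]
  by_cases h1 : (b : ℕ) < k
  · rw [dif_pos h1] at h
    rw [if_pos h1]
    by_cases h2 : (⟨b, h1⟩ : Fin k) = i
    · rw [if_pos (by rw [← h2])]
    · rw [if_neg h2] at h; cases h
  rw [dif_neg h1] at h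
  rw [if_neg h1]
  by_cases h3 : (s : ℕ) = 0
  · rw [if_pos h3] at h ⊢
    by_cases h4 : (b : ℕ) - k ≤ 2 * nbN w k c
    · rw [if_pos (show (b : ℕ) - k ≤ 2 * (netOf w hk).nb c from h4)] at h; cases h
    · rw [if_neg h4]
  rw [if_neg h3] at h ⊢
  by_cases h4 : (b : ℕ) - k = 0
  · rw [if_pos h4] at h; cases h
  rw [if_neg h4] at h ⊢
  by_cases h5 : (b : ℕ) - k = 1
  · rw [if_pos h5] at h
    by_cases h6 : (s : ℕ) < k + 2
    · rw [if_pos h6] at h; cases h
    · rw [if_neg h6] at h; cases h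
  rw [if_neg h5]

/-- The shift, with its concrete type. -/
noncomputable def shE (hk : 2 ≤ k) (c : Fin (numC w k)) (b : ℕ) (i j : Fin k) :
    ZMod (qOf w) × ZMod (qOf w) := (netOf w hk).sh c b i j

theorem slot_some (x : AxW w k) (b : Fin (k + 7)) (v : VrW w hk)
    (h : (netOf w hk).axSlot (k + 2) x b = some v) :
    slotH w k (axE w k x) b = Hc hk v ∧
      ∀ j : Fin k, slotD w k (axE w k x) b j = Dc hk v j := by
  have hI := ax_I w k x
  have hL := ax_L w k x
  have hS := ax_S w k x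
  have hC := ax_C w k x
  have hD := ax_Dig' w k x
  generalize (axE w k x : ℕ) = n at *
  obtain ⟨c, ⟨l, s⟩, i, a⟩ := x
  unfold Net.axSlot at h
  dsimp only at h hI hL hS hC hD
  unfold slotH slotD
  rw [hI, hL, hS, hC]
  have hDj : ∀ j : Fin k, xDig w n j = lamE w (a j) := fun j => hD j j.2
  by_cases h1 : (b : ℕ) < k
  · rw [dif_pos h1] at h
    rw [if_pos h1]
    by_cases h2 : (⟨b, h1⟩ : Fin k) = i
    · rw [if_pos h2] at h; cases h
    · rw [if_neg h2] at h
      rw [if_neg (fun e => h2 (Fin.ext e))]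
      cases h
      refine ⟨rfl, fun j => ?_⟩
      rw [if_pos h1, hD b h1]
      rfl
  rw [dif_neg h1] at h
  rw [if_neg h1]
  by_cases h3 : (s : ℕ) = 0
  · rw [if_pos h3] at h ⊢
    by_cases h4 : (b : ℕ) - k ≤ 2 * nbN w k c
    · rw [if_pos (show (b : ℕ) - k ≤ 2 * (netOf w hk).nb c from h4)] at h
      rw [if_pos h4]
      cases h
      refine ⟨rfl, fun j => ?_⟩
      rw [if_neg h1, if_neg (fun e => e.1 h3), hDj]
      rfl
    · rw [if_neg (show ¬ (b : ℕ) - k ≤ 2 * (netOf w hk).nb c from h4)] at h; cases h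
  rw [if_neg h3] at h ⊢
  by_cases h4 : (b : ℕ) - k = 0
  · rw [if_pos h4] at h ⊢
    cases h
    refine ⟨rfl, fun j => ?_⟩
    rw [if_neg h1, if_neg (fun e => by omega), hDj]
    rfl
  rw [if_neg h4] at h ⊢
  by_cases h5 : (b : ℕ) - k = 1
  · rw [if_pos h5] at h ⊢
    by_cases h6 : (s : ℕ) < k + 2
    · rw [if_pos h6] at h ⊢
      cases h
      refine ⟨rfl, fun j => ?_⟩
      rw [if_neg h1, if_neg (fun e => e.2.2.1 h6), hDj]
      rfl
    · rw [if_neg h6] at h ⊢
      cases h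
      refine ⟨rfl, fun j => ?_⟩
      rw [if_neg h1, hDj, lamE_div, lamE_mod]
      show _ = (lamE w (a j + shE hk c ((l : ℕ) / 2) i j) : ℕ)
      by_cases h7 : (j : ℕ) = (i : ℕ)
      · rw [if_neg (fun e => e.2.2.2 h7)]
        have h8 : shE hk c ((l : ℕ) / 2) i j = 0 := by
          have : i = j := Fin.ext h7.symm
          subst this
          exact (netOf w hk).sh_diag _ _ _
        rw [h8, add_zero]
      · rw [if_pos ⟨h3, h5, h6, h7⟩]
        have h8 : shE hk c ((l : ℕ) / 2) i j =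
            (((shN w k c ((l : ℕ) / 2) (pc k i j) 1 : ℕ) : ZMod (qOf w)),
              ((shN w k c ((l : ℕ) / 2) (pc k i j) 2 : ℕ) : ZMod (qOf w))) := by
          show (if i = j then _ else _) = _
          rw [if_neg (fun e => h7 (by rw [e]))]
        rw [h8, lamE_val]
        show _ = ((a j).2 + ((shN w k c ((l : ℕ) / 2) (pc k i j) 2 : ℕ) : ZMod (qOf w))).val +
          qOf w * ((a j).1 + ((shN w k c ((l : ℕ) / 2) (pc k i j) 1 : ℕ) : ZMod (qOf w))).val
        rw [add_nat_val, add_nat_val]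
        ring
  rw [if_neg h5] at h
  cases h

theorem same_iff (x x' : AxW w k) (b b' : Fin (k + 7)) :
    (∃ v, (netOf w hk).axSlot (k + 2) x b = some v ∧
      (netOf w hk).axSlot (k + 2) x' b' = some v) ↔
    sameN w k (axE w k x) b (axE w k x') b' := by
  constructor
  · rintro ⟨v, h, h'⟩
    obtain ⟨h1, h2⟩ := slot_some hk x b v h
    obtain ⟨h1', h2'⟩ := slot_some hk x' b' v h'
    refine ⟨?_, ?_, fun j hj => ?_⟩
    · rw [h1]; exact Hc_pos hk v
    · rw [h1, h1']
    · have e1 := h2 ⟨j, hj⟩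
      have e2 := h2' ⟨j, hj⟩
      simp only at e1 e2
      rw [e1, e2]
  · rintro ⟨h1, h2, h3⟩
    cases hv : (netOf w hk).axSlot (k + 2) x b with
    | none => exact absurd (slot_none hk x b hv) h1
    | some v =>
      cases hv' : (netOf w hk).axSlot (k + 2) x' b' with
      | none =>
        rw [slot_none hk x' b' hv'] at h2
        exact absurd h2 h1
      | some v' =>
        obtain ⟨e1, e2⟩ := slot_some hk x b v hv
        obtain ⟨e1', e2'⟩ := slot_some hk x' b' v' hv'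
        refine ⟨v, rfl, ?_⟩
        rw [code_inj hk v v' (by rw [← e1, ← e1', h2])
          (fun j => by rw [← e2, ← e2', h3 j j.2])]

theorem none_iff (x : AxW w k) (b : Fin (k + 7)) :
    (netOf w hk).axSlot (k + 2) x b = none ↔ slotH w k (axE w k x) b = 0 := by
  constructor
  · exact slot_none hk x b
  · intro h
    cases hv : (netOf w hk).axSlot (k + 2) x b with
    | none => rfl
    | some v => exact absurd ((slot_some hk x b v hv).1.symm.trans h) (Hc_pos hk v)

/-! ## Validity, twist, solutions -/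

theorem valid_iff (x : AxW w k) :
    (netOf w hk).AxValid (k + 2) x ↔ validN w k (axE w k x) := by
  have hI := ax_I w k x
  have hL := ax_L w k x
  have hS := ax_S w k x
  have hC := ax_C w k x
  have hD := ax_Dig' w k x
  generalize (axE w k x : ℕ) = n at *
  obtain ⟨c, ⟨l, s⟩, i, a⟩ := x
  unfold Net.AxValid validN
  dsimp only at hI hL hS hC hD
  rw [hI, hL, hS, hC, hD i i.2]
  refine and_congr ?_ (and_congr Iff.rfl (and_congr ?_ ?_))
  · constructor
    · intro h h0
      have := h (Fin.ext h0)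
      simp only at this
      rw [this]; rfl
    · intro h h0
      simp only at h0
      exact Fin.ext (h (by rw [h0]; rfl))
  · exact (lamE_zero w (a i)).symm
  · constructor
    · intro h j hj hne
      have h1 := h ⟨j, hj⟩ (fun e => hne (congrArg Fin.val e))
      rw [hD j hj, lamE_div, lamE_mod]
      exact h1
    · intro h j hne
      have h1 := h j j.2 (fun e => hne (Fin.ext e))
      rw [hD j j.2, lamE_div, lamE_mod] at h1
      exact h1

theorem tw_eq (x : AxW w k) : (netOf w hk).tw (k + 2) x = ((twN w k (axE w k x) : ℕ) : ZMod 2) := by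
  have hI := ax_I w k x
  have hL := ax_L w k x
  have hS := ax_S w k x
  have hC := ax_C w k x
  generalize (axE w k x : ℕ) = n at *
  obtain ⟨c, ⟨l, s⟩, i, a⟩ := x
  dsimp only at hI hL hS hC
  unfold twN
  rw [hI, hL, hS, hC]
  by_cases h : (c : ℕ) = goalC w k ∧ (l : ℕ) = 0 ∧ (s : ℕ) = 0 ∧ (i : ℕ) = 0
  · rw [if_pos h, Nat.cast_one]
    obtain ⟨h1, h2, h3, h4⟩ := h
    exact if_pos ⟨Fin.ext h1, Prod.ext (Fin.ext h2) (Fin.ext h3), h4⟩
  · rw [if_neg h, Nat.cast_zero]
    refine if_neg ?_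
    rintro ⟨h1, h2, h3⟩
    refine h ⟨congrArg Fin.val h1, ?_, ?_, h3⟩
    · exact congrArg (fun p => (Prod.fst p : Fin 7).val) h2
    · exact congrArg (fun p => (Prod.snd p : Fin (k + 3)).val) h2

variable (k) in
/-- The codes of local assignments. -/
def tauE : (Fin (k + 7) → ZMod 2) ≃ Fin (2 ^ (k + 7)) :=
  (Equiv.arrowCongr (Equiv.refl (Fin (k + 7))) (zf 2)).trans finFunctionFinEquiv

theorem tauE_bit (τ : Fin (k + 7) → ZMod 2) (b : Fin (k + 7)) :
    (tauE k τ : ℕ) / 2 ^ (b : ℕ) % 2 = (τ b).val := by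
  have h : finFunctionFinEquiv.symm (tauE k τ) b = zf 2 (τ b) := by
    unfold tauE
    rw [Equiv.trans_apply, Equiv.symm_apply_apply]
    rfl
  exact congrArg Fin.val h

theorem twN_le (n : ℕ) : twN w k n ≤ 1 := by
  unfold twN
  split_ifs <;> omega

/-- The twist, as a function on the axioms. -/
noncomputable def twT (hk : 2 ≤ k) (t : ℕ) (x : AxW w k) : ZMod 2 :=
  (t : ZMod 2) * (netOf w hk).tw (k + 2) x

/-- The axiom system. -/
noncomputable def SS (w : List Bool) (hk : 2 ≤ k) : ASys :=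
  (netOf w hk).sys (k + 2) (fun x => (axE w k x : ℕ))
    (fun _ _ h => (axE w k).injective (Fin.ext h)) (numX w k + 2)
    (fun x => by have := (axE w k x).2; omega)

theorem good_iff (t : ℕ) (ht : t ≤ 1) (x : AxW w k) (τ : Fin (k + 7) → ZMod 2) :
    (SS w hk).good (twT hk t) x τ ↔ goodN w k t (axE w k x) (tauE k τ) := by
  unfold ASys.good goodN
  refine and_congr (valid_iff hk x) (and_congr ?_ ?_)
  · constructor
    · intro h b hb h0
      have h1 := h ⟨b, hb⟩ ((none_iff hk x ⟨b, hb⟩).mpr h0)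
      have h2 : (tauE k τ : ℕ) / 2 ^ b % 2 = (τ ⟨b, hb⟩).val := tauE_bit τ ⟨b, hb⟩
      exact h2.trans ((ZMod.val_eq_zero _).mpr h1)
    · intro h b h0
      have h1 := h b b.2 ((none_iff hk x b).mp h0)
      exact (ZMod.val_eq_zero _).mp ((tauE_bit τ b).symm.trans h1)
  · have h1 : (∑ b ∈ Finset.range (k + 7), (tauE k τ : ℕ) / 2 ^ b % 2) =
        ∑ b : Fin (k + 7), (τ b).val := by
      rw [Finset.sum_range]
      exact Finset.sum_congr rfl fun b _ => tauE_bit τ b
    have h2 : ∑ b : Fin (k + 7), τ b = ((∑ b : Fin (k + 7), (τ b).val : ℕ) : ZMod 2) := by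
      rw [Nat.cast_sum]
      exact Finset.sum_congr rfl fun b _ => (ZMod.natCast_zmod_val (τ b)).symm
    have h3 : twT hk t x = ((t * twN w k (axE w k x) : ℕ) : ZMod 2) := by
      unfold twT
      rw [tw_eq, Nat.cast_mul]
    have h4 : t * twN w k (axE w k x) < 2 := by
      have := twN_le (w := w) (k := k) (axE w k x)
      have : t * twN w k (axE w k x) ≤ 1 * 1 := Nat.mul_le_mul ht this
      omega
    rw [h1]
    have h5 : (∑ b : Fin (k + 7), τ b = twT hk t x) ↔
        (∑ b : Fin (k + 7), (τ b).val) % 2 = t * twN w k (axE w k x) := by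
      rw [h2, h3, ZMod.natCast_eq_natCast_iff', Nat.mod_eq_of_lt h4]
    exact h5

theorem share_iff (x x' : AxW w k) :
    (SS w hk).share x x' ↔ shareN w k (axE w k x) (axE w k x') := by
  constructor
  · rintro ⟨b, b', v, h, h'⟩
    exact ⟨b, b.2, b', b'.2, (same_iff hk x x' b b').mp ⟨v, h, h'⟩⟩
  · rintro ⟨b, hb, b', hb', h⟩
    obtain ⟨v, h1, h2⟩ := (same_iff hk x x' ⟨b, hb⟩ ⟨b', hb'⟩).mpr h
    exact ⟨⟨b, hb⟩, ⟨b', hb'⟩, v, h1, h2⟩

theorem agree_iff (x x' : AxW w k) (τ τ' : Fin (k + 7) → ZMod 2) :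
    (SS w hk).agree x τ x' τ' ↔
      agreeN w k (axE w k x) (tauE k τ) (axE w k x') (tauE k τ') := by
  constructor
  · intro h b hb b' hb' hs
    obtain ⟨v, h1, h2⟩ := (same_iff hk x x' ⟨b, hb⟩ ⟨b', hb'⟩).mpr hs
    have h3 : τ ⟨b, hb⟩ = τ' ⟨b', hb'⟩ := h _ _ v h1 h2
    have e1 := tauE_bit τ ⟨b, hb⟩
    have e2 := tauE_bit τ' ⟨b', hb'⟩
    simp only at e1 e2
    rw [e1, e2, h3]
  · intro h b b' v h1 h2
    have h3 := h b b.2 b' b'.2 ((same_iff hk x x' b b').mp ⟨v, h1, h2⟩)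
    exact ZMod.val_injective 2 ((tauE_bit τ b).symm.trans (h3.trans (tauE_bit τ' b')))

/-! ## The vertices -/

variable (w) (k) in
/-- The codes of the vertices. -/
def vE : AxW w k × (Fin (k + 7) → ZMod 2) × Option (Fin (numX w k + 2)) ≃ Fin (numV w k) :=
  (Equiv.prodAssoc _ _ _).symm.trans ((Equiv.prodCongr
    ((Equiv.prodCongr (axE w k) (tauE k)).trans (finProdFinEquiv (m := numX w k)
      (n := 2 ^ (k + 7)))) (finSuccEquiv (numX w k + 2)).symm).trans
    (finProdFinEquiv (m := numX w k * 2 ^ (k + 7)) (n := numX w k + 3)))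

variable (w) (k) in
/-- The code of a leaf. -/
def mC (m : Option (Fin (numX w k + 2))) : ℕ := ((finSuccEquiv (numX w k + 2)).symm m : ℕ)

theorem mC_none : mC w k none = 0 := rfl

theorem mC_some (m : Fin (numX w k + 2)) : mC w k (some m) = (m : ℕ) + 1 := by
  unfold mC
  rw [finSuccEquiv_symm_some]
  rfl

theorem mC_lt (m : Option (Fin (numX w k + 2))) : mC w k m < numX w k + 3 :=
  ((finSuccEquiv (numX w k + 2)).symm m).2

theorem vE_val (x : AxW w k) (τ : Fin (k + 7) → ZMod 2) (m : Option (Fin (numX w k + 2))) :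
    (vE w k (x, τ, m) : ℕ) = mC w k m + (numX w k + 3) *
      ((tauE k τ : ℕ) + 2 ^ (k + 7) * (axE w k x : ℕ)) := rfl

theorem vE_m (x : AxW w k) (τ : Fin (k + 7) → ZMod 2) (m : Option (Fin (numX w k + 2))) :
    (vE w k (x, τ, m) : ℕ) % (numX w k + 3) = mC w k m := by
  rw [vE_val, Nat.add_mul_mod_self_left, Nat.mod_eq_of_lt (mC_lt m)]

theorem vE_d (x : AxW w k) (τ : Fin (k + 7) → ZMod 2) (m : Option (Fin (numX w k + 2))) :
    (vE w k (x, τ, m) : ℕ) / (numX w k + 3) = (tauE k τ : ℕ) + 2 ^ (k + 7) * (axE w k x : ℕ) := by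
  rw [vE_val, Nat.add_mul_div_left _ _ (by omega), Nat.div_eq_of_lt (mC_lt m), zero_add]

theorem vE_t (x : AxW w k) (τ : Fin (k + 7) → ZMod 2) (m : Option (Fin (numX w k + 2))) :
    (vE w k (x, τ, m) : ℕ) / (numX w k + 3) % 2 ^ (k + 7) = tauE k τ := by
  rw [vE_d, Nat.add_mul_mod_self_left, Nat.mod_eq_of_lt (tauE k τ).2]

theorem vE_x (x : AxW w k) (τ : Fin (k + 7) → ZMod 2) (m : Option (Fin (numX w k + 2))) :
    (vE w k (x, τ, m) : ℕ) / (numX w k + 3) / 2 ^ (k + 7) = axE w k x := by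
  rw [vE_d, Nat.add_mul_div_left _ _ (by positivity), Nat.div_eq_of_lt (tauE k τ).2, zero_add]

theorem adj_iff (t : ℕ) (ht : t ≤ 1) (p p' : AxW w k × (Fin (k + 7) → ZMod 2) ×
    Option (Fin (numX w k + 2))) :
    (SS w hk).adj (twT hk t) p p' ↔
      adjN w k (numX w k) (2 ^ (k + 7)) t (vE w k p) (vE w k p') := by
  obtain ⟨x, τ, m⟩ := p
  obtain ⟨x', τ', m'⟩ := p'
  unfold adjN
  rw [vE_m, vE_m, vE_x, vE_x, vE_t, vE_t]
  dsimp only
  have hx : (axE w k x : ℕ) = axE w k x' ↔ x = x' :=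
    ⟨fun h => (axE w k).injective (Fin.ext h), fun h => by rw [h]⟩
  have hτ : (tauE k τ : ℕ) = tauE k τ' ↔ τ = τ' :=
    ⟨fun h => (tauE k).injective (Fin.ext h), fun h => by rw [h]⟩
  cases m with
  | none =>
    cases m' with
    | none =>
      rw [mC_none]
      constructor
      · rintro ⟨h1, h2, h3, h4, h5⟩
        exact Or.inl ⟨rfl, rfl, (good_iff hk t ht x τ).mp h1, (good_iff hk t ht x' τ').mp h2,
          fun e => h3 (hx.mp e), (share_iff hk x x').mp h4, (agree_iff hk x x' τ τ').mp h5⟩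
      · rintro (⟨-, -, h1, h2, h3, h4, h5⟩ | ⟨h, -⟩)
        · exact ⟨(good_iff hk t ht x τ).mpr h1, (good_iff hk t ht x' τ').mpr h2,
            fun e => h3 (hx.mpr e), (share_iff hk x x').mpr h4, (agree_iff hk x x' τ τ').mpr h5⟩
        · omega
    | some m' =>
      rw [mC_none, mC_some]
      constructor
      · rintro ⟨h1, h2, h3, h4⟩
        refine Or.inr ⟨Or.inl ⟨rfl, by omega, ?_⟩, (good_iff hk t ht x τ).mp h1, hx.mpr h2,
          hτ.mpr h3⟩
        have h5 : (m' : ℕ) < (axE w k x : ℕ) + 2 := h4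
        omega
      · rintro (⟨-, h, -⟩ | ⟨h, h1, h2, h3⟩)
        · omega
        · refine ⟨(good_iff hk t ht x τ).mpr h1, hx.mp h2, hτ.mp h3, ?_⟩
          show (m' : ℕ) < (axE w k x : ℕ) + 2
          omega
  | some m =>
    cases m' with
    | none =>
      rw [mC_none, mC_some]
      constructor
      · rintro ⟨h1, h2, h3, h4⟩
        refine Or.inr ⟨Or.inr ⟨rfl, by omega, ?_⟩, (good_iff hk t ht x τ).mp h1, hx.mpr h2,
          hτ.mpr h3⟩
        have h5 : (m : ℕ) < (axE w k x : ℕ) + 2 := h4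
        omega
      · rintro (⟨h, -⟩ | ⟨h, h1, h2, h3⟩)
        · omega
        · refine ⟨(good_iff hk t ht x τ).mpr h1, hx.mp h2, hτ.mp h3, ?_⟩
          show (m : ℕ) < (axE w k x : ℕ) + 2
          omega
    | some m' =>
      rw [mC_some, mC_some]
      constructor
      · intro h
        exact absurd h (fun h => h)
      · rintro (⟨h, -⟩ | ⟨h, -⟩)
        · omega
        · omega

/-- The numeric graph. -/
noncomputable def nG (w : List Bool) (hk : 2 ≤ k) (tw : AxW w k → ZMod 2) :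
    SimpleGraph (Fin (numV w k)) :=
  ((SS w hk).graph tw).comap (vE w k).symm

/-- The isomorphism. -/
noncomputable def nIso (w : List Bool) (hk : 2 ≤ k) (tw : AxW w k → ZMod 2) :
    (SS w hk).graph tw ≃g nG w hk tw where
  toEquiv := vE w k
  map_rel_iff' := by
    intro p p'
    exact iff_of_eq (congrArg₂ ((SS w hk).graph tw).Adj (Equiv.symm_apply_apply (vE w k) p)
      (Equiv.symm_apply_apply (vE w k) p'))

theorem nG_adj (t : ℕ) (ht : t ≤ 1) (v v' : Fin (numV w k)) :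
    (nG w hk (twT hk t)).Adj v v' ↔ adjN w k (numX w k) (2 ^ (k + 7)) t v v' := by
  have h := adj_iff hk t ht ((vE w k).symm v) ((vE w k).symm v')
  rw [Equiv.apply_symm_apply, Equiv.apply_symm_apply] at h
  exact h

end P9

theorem exists_numGraphs {k : ℕ} (hk : 2 ≤ k) (w : List Bool) :
    ∃ (ix : (netOf w hk).Ax (k + 2) → ℕ) (hix : Function.Injective ix) (M : ℕ)
      (hM : ∀ x, ix x + 2 ≤ M) (G₀ G₁ : SimpleGraph (Fin (numV w k))),
      Nonempty (((netOf w hk).sys (k + 2) ix hix M hM).graph 0 ≃g G₀) ∧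
      Nonempty (((netOf w hk).sys (k + 2) ix hix M hM).graph ((netOf w hk).tw (k + 2)) ≃g G₁) ∧
      (∀ v v', G₀.Adj v v' ↔ adjN w k (numX w k) (2 ^ (k + 7)) 0 v v') ∧
      (∀ v v', G₁.Adj v v' ↔ adjN w k (numX w k) (2 ^ (k + 7)) 1 v v') := by
  have h0 : P9.twT (w := w) hk 0 = 0 := by
    funext x
    unfold P9.twT
    rw [Nat.cast_zero, zero_mul]
    rfl
  have h1 : P9.twT (w := w) hk 1 = (netOf w hk).tw (k + 2) := by
    funext x
    unfold P9.twT
    rw [Nat.cast_one, one_mul]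
  refine ⟨fun x => (P9.axE w k x : ℕ), fun _ _ h => (P9.axE w k).injective (Fin.ext h),
    numX w k + 2, fun x => by
      have := (P9.axE w k x).2
      show (P9.axE w k x : ℕ) + 2 ≤ _
      omega,
    P9.nG w hk (P9.twT hk 0), P9.nG w hk (P9.twT hk 1), ?_, ?_, P9.nG_adj hk 0 (by omega),
    P9.nG_adj hk 1 (by omega)⟩
  · have := P9.nIso w hk (P9.twT hk 0)
    rw [h0] at this ⊢
    exact ⟨this⟩
  · have := P9.nIso w hk (P9.twT hk 1)
    rw [h1] at this ⊢
    exact ⟨this⟩

end Vale.Agent.P310
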