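import Vale.Agent.P310.WL

/-!
# P310, package P14: adding isolated vertices
-/

namespace Vale.Agent.P310

open Finset

/-- Adding `z` isolated vertices to a graph on `Fin n`. -/
def padGraph {n : ℕ} (G : SimpleGraph (Fin n)) (z : ℕ) : SimpleGraph (Fin (n + z)) where
  Adj v v' := ∃ (h : (v : ℕ) < n) (h' : (v' : ℕ) < n), G.Adj ⟨v, h⟩ ⟨v', h'⟩
  symm := ⟨fun _ _ ⟨h, h', e⟩ => ⟨h', h, e.symm⟩⟩
  loopless := ⟨fun _ ⟨_, _, e⟩ => e.ne rfl⟩

theorem P14_adj_cast {n z : ℕ} (G : SimpleGraph (Fin n)) (v w : Fin n) :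
    (padGraph G z).Adj (Fin.castAdd z v) (Fin.castAdd z w) ↔ G.Adj v w :=
  ⟨fun ⟨_, _, h⟩ => h, fun h => ⟨v.2, w.2, h⟩⟩

theorem P14_not_adj_left {n z : ℕ} (G : SimpleGraph (Fin n)) (w : Fin z) (u : Fin (n + z)) :
    ¬ (padGraph G z).Adj (Fin.natAdd n w) u := by
  rintro ⟨h, _, _⟩
  simp only [Fin.val_natAdd] at h
  omega

theorem P14_not_adj_right {n z : ℕ} (G : SimpleGraph (Fin n)) (w : Fin z) (u : Fin (n + z)) :
    ¬ (padGraph G z).Adj u (Fin.natAdd n w) := by
  rintro ⟨_, h, _⟩
  simp only [Fin.val_natAdd] at h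
  omega

/-- A bijection of the old vertices, extended by the identity on the new ones. -/
def P14_ext {n : ℕ} (z : ℕ) (f : Fin n ≃ Fin n) : Fin (n + z) ≃ Fin (n + z) :=
  (finSumFinEquiv.symm.trans (Equiv.sumCongr f (Equiv.refl (Fin z)))).trans finSumFinEquiv

theorem P14_ext_cast {n z : ℕ} (f : Fin n ≃ Fin n) (v : Fin n) :
    P14_ext z f (Fin.castAdd z v) = Fin.castAdd z (f v) := by
  simp [P14_ext]

theorem P14_ext_nat {n z : ℕ} (f : Fin n ≃ Fin n) (w : Fin z) :
    P14_ext z f (Fin.natAdd n w) = Fin.natAdd n w := by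
  simp [P14_ext]

theorem P14_cast_ne_nat {n z : ℕ} (v : Fin n) (w : Fin z) :
    Fin.castAdd z v ≠ Fin.natAdd n w := by
  intro h
  have := congrArg Fin.val h
  simp only [Fin.val_castAdd, Fin.val_natAdd] at this
  omega

/-- The easy direction. -/
theorem P14_pad_of {k : ℕ} (hk : 1 ≤ k) {n : ℕ} (hn : 0 < n) (G H : SimpleGraph (Fin n)) (z : ℕ)
    (h : WLEquiv k G H) : WLEquiv k (padGraph G z) (padGraph H z) := by
  obtain ⟨R, hR, hex⟩ := h.exists_BF
  obtain ⟨y₀, hy₀⟩ := hex (fun _ => ⟨0, hn⟩)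
  let R' : (Fin k → Fin (n + z)) → (Fin k → Fin (n + z)) → Prop := fun x y =>
    ∃ x0 y0, R x0 y0 ∧ ∀ i, (x i = Fin.castAdd z (x0 i) ∧ y i = Fin.castAdd z (y0 i)) ∨
      ∃ w : Fin z, x i = Fin.natAdd n w ∧ y i = Fin.natAdd n w
  have hBF : BF k (padGraph G z) (padGraph H z) R' := by
    refine ⟨?_, ?_, ?_⟩
    · rintro x y ⟨x0, y0, hr, hi⟩ i j
      rcases hi i with ⟨a, b⟩ | ⟨w, a, b⟩ <;> rcases hi j with ⟨a', b'⟩ | ⟨w', a', b'⟩ <;>
        rw [a, b, a', b']
      · rw [Fin.castAdd_inj, Fin.castAdd_inj]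
        exact hR.eq_iff x0 y0 hr i j
      · exact ⟨fun e => absurd e (P14_cast_ne_nat _ _), fun e => absurd e (P14_cast_ne_nat _ _)⟩
      · exact ⟨fun e => absurd e.symm (P14_cast_ne_nat _ _),
          fun e => absurd e.symm (P14_cast_ne_nat _ _)⟩
    · rintro x y ⟨x0, y0, hr, hi⟩ i j
      rcases hi i with ⟨a, b⟩ | ⟨w, a, b⟩ <;> rcases hi j with ⟨a', b'⟩ | ⟨w', a', b'⟩ <;>
        rw [a, b, a', b']
      · rw [P14_adj_cast, P14_adj_cast]
        exact hR.adj_iff x0 y0 hr i j
      · exact ⟨fun e => absurd e (P14_not_adj_right _ _ _),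
          fun e => absurd e (P14_not_adj_right _ _ _)⟩
      · exact ⟨fun e => absurd e (P14_not_adj_left _ _ _),
          fun e => absurd e (P14_not_adj_left _ _ _)⟩
      · exact ⟨fun e => absurd e (P14_not_adj_left _ _ _),
          fun e => absurd e (P14_not_adj_left _ _ _)⟩
    · rintro x y ⟨x0, y0, hr, hi⟩
      obtain ⟨f, hf⟩ := hR.ext x0 y0 hr
      refine ⟨P14_ext z f, fun u i => ?_⟩
      induction u using Fin.addCases with
      | left v =>
        refine ⟨Function.update x0 i v, Function.update y0 i (f v), hf v i, fun j => ?_⟩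
        by_cases hj : j = i
        · subst hj
          left
          simp [P14_ext_cast]
        · rw [Function.update_of_ne hj, Function.update_of_ne hj, Function.update_of_ne hj,
            Function.update_of_ne hj]
          exact hi j
      | right w =>
        refine ⟨x0, y0, hr, fun j => ?_⟩
        by_cases hj : j = i
        · subst hj
          right
          exact ⟨w, by simp, by simp [P14_ext_nat]⟩
        · rw [Function.update_of_ne hj, Function.update_of_ne hj]
          exact hi j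
  exact WLEquiv.of_BF hk hBF (x := fun _ => Fin.castAdd z ⟨0, hn⟩)
    (y := fun i => Fin.castAdd z (y₀ i)) ⟨_, _, hy₀, fun i => Or.inl ⟨rfl, rfl⟩⟩

/-- Isolated vertices. -/
def P14_Iso {V : Type} (G : SimpleGraph V) (v : V) : Prop := ∀ u, ¬ G.Adj v u

theorem P14_iso_nat {n z : ℕ} (G : SimpleGraph (Fin n)) (w : Fin z) :
    P14_Iso (padGraph G z) (Fin.natAdd n w) := fun u => P14_not_adj_left G w u

theorem P14_iso_cast {n z : ℕ} (G : SimpleGraph (Fin n)) (v : Fin n) :
    P14_Iso (padGraph G z) (Fin.castAdd z v) ↔ P14_Iso G v := by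
  constructor
  · intro h u hu
    exact h (Fin.castAdd z u) ((P14_adj_cast G v u).mpr hu)
  · intro h u hu
    induction u using Fin.addCases with
    | left u => exact h u ((P14_adj_cast G v u).mp hu)
    | right w => exact P14_not_adj_right G w _ hu

/-- Isolatedness of a pebbled vertex is preserved. -/
theorem P14_iso_iff {k : ℕ} (hk : 2 ≤ k) {V W : Type} {G : SimpleGraph V} {H : SimpleGraph W}
    {R : (Fin k → V) → (Fin k → W) → Prop} (hR : BF k G H R) {x : Fin k → V} {y : Fin k → W}
    (h : R x y) (i : Fin k) : P14_Iso G (x i) ↔ P14_Iso H (y i) := by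
  obtain ⟨j, hj⟩ : ∃ j : Fin k, j ≠ i := by
    have : Nontrivial (Fin k) := Fin.nontrivial_iff_two_le.mpr hk
    exact exists_ne i
  obtain ⟨f, hf⟩ := hR.ext x y h
  have key : ∀ u, G.Adj (x i) u ↔ H.Adj (y i) (f u) := by
    intro u
    have h1 := hR.adj_iff _ _ (hf u j) i j
    rwa [Function.update_of_ne hj.symm, Function.update_of_ne hj.symm, Function.update_self,
      Function.update_self] at h1
  constructor
  · intro hi w hw
    obtain ⟨u, rfl⟩ := f.surjective w
    exact hi u ((key u).mpr hw)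
  · intro hi u hu
    exact hi (f u) ((key u).mp hu)

theorem P14_iso_ext {k : ℕ} (hk : 2 ≤ k) {V W : Type} {G : SimpleGraph V} {H : SimpleGraph W}
    {R : (Fin k → V) → (Fin k → W) → Prop} (hR : BF k G H R) {x : Fin k → V} {y : Fin k → W}
    {f : V ≃ W} (hf : ∀ u i, R (Function.update x i u) (Function.update y i (f u))) (u : V) :
    P14_Iso G u ↔ P14_Iso H (f u) := by
  have h1 := P14_iso_iff hk hR (hf u ⟨0, by omega⟩) ⟨0, by omega⟩
  rwa [Function.update_self, Function.update_self] at h1

theorem P14_of_not_iso {n z : ℕ} (G : SimpleGraph (Fin n)) (u : Fin (n + z))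
    (h : ¬ P14_Iso (padGraph G z) u) : ∃ v : Fin n, u = Fin.castAdd z v ∧ ¬ P14_Iso G v := by
  induction u using Fin.addCases with
  | left v => exact ⟨v, rfl, fun hv => h ((P14_iso_cast G v).mpr hv)⟩
  | right w => exact absurd (P14_iso_nat G w) h

/-- The non-isolated vertices of the padded graph are those of the graph. -/
theorem P14_card {n z : ℕ} (G : SimpleGraph (Fin n)) :
    Nat.card {u // ¬ P14_Iso (padGraph G z) u} = Nat.card {v // ¬ P14_Iso G v} := by
  symm
  refine Nat.card_congr (Equiv.ofBijective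
    (fun v : {v // ¬ P14_Iso G v} => (⟨Fin.castAdd z v.1,
      fun h => v.2 ((P14_iso_cast G v.1).mp h)⟩ : {u // ¬ P14_Iso (padGraph G z) u})) ⟨?_, ?_⟩)
  · intro v w h
    have := congrArg Subtype.val h
    exact Subtype.ext (Fin.castAdd_injective n z this)
  · rintro ⟨u, hu⟩
    obtain ⟨v, rfl, hv⟩ := P14_of_not_iso G u hu
    exact ⟨⟨v, hv⟩, rfl⟩

/-- The other direction. -/
theorem P14_of_pad {k : ℕ} (hk : 2 ≤ k) {n : ℕ} (hn : 0 < n) (G H : SimpleGraph (Fin n)) (z : ℕ)
    (h : WLEquiv k (padGraph G z) (padGraph H z)) : WLEquiv k G H := by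
  classical
  obtain ⟨R', hR, hex⟩ := h.exists_BF
  let v₀ : Fin n := ⟨0, hn⟩
  obtain ⟨y₀, hy₀⟩ := hex (fun _ => Fin.castAdd z v₀)
  -- a bijection of the vertices of `G` and `H` preserving isolatedness
  obtain ⟨B, hB⟩ : ∃ B : Fin n ≃ Fin n, ∀ v, P14_Iso G v ↔ P14_Iso H (B v) := by
    obtain ⟨f, hf⟩ := hR.ext _ _ hy₀
    have h1 : ∀ u, P14_Iso (padGraph G z) u ↔ P14_Iso (padGraph H z) (f u) :=
      P14_iso_ext hk hR hf
    have h2 : Nat.card {u // ¬ P14_Iso (padGraph G z) u} =
        Nat.card {u // ¬ P14_Iso (padGraph H z) u} :=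
      Nat.card_congr (f.subtypeEquiv fun u => not_congr (h1 u))
    rw [P14_card, P14_card] at h2
    obtain ⟨e⟩ : Nonempty ({v // ¬ P14_Iso G v} ≃ {v // ¬ P14_Iso H v}) :=
      Finite.card_eq.mp h2
    refine ⟨e.extendSubtype, fun v => ?_⟩
    by_cases hv : P14_Iso G v
    · have := e.extendSubtype_not_mem v (not_not.mpr hv)
      exact ⟨fun _ => not_not.mp this, fun _ => hv⟩
    · have := e.extendSubtype_mem v hv
      exact ⟨fun h => absurd h hv, fun h => absurd h this⟩
  let R : (Fin k → Fin n) → (Fin k → Fin n) → Prop := fun x y =>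
    ∃ x' y', R' x' y' ∧ ∀ i,
      (¬ P14_Iso G (x i) ∧ ¬ P14_Iso H (y i) ∧ x' i = Fin.castAdd z (x i) ∧
        y' i = Fin.castAdd z (y i)) ∨
      (P14_Iso G (x i) ∧ P14_Iso H (y i) ∧ y i = B (x i))
  have hBF : BF k G H R := by
    refine ⟨?_, ?_, ?_⟩
    · rintro x y ⟨x', y', hr, hi⟩ i j
      rcases hi i with ⟨a, b, c, d⟩ | ⟨a, b, c⟩ <;>
        rcases hi j with ⟨a', b', c', d'⟩ | ⟨a', b', c'⟩
      · have h1 := hR.eq_iff x' y' hr i j
        rwa [c, d, c', d', Fin.castAdd_inj, Fin.castAdd_inj] at h1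
      · exact ⟨fun e => absurd (e ▸ a') a, fun e => absurd (e ▸ b') b⟩
      · exact ⟨fun e => absurd (e ▸ a) a', fun e => absurd (e ▸ b) b'⟩
      · rw [c, c']
        exact B.injective.eq_iff.symm
    · rintro x y ⟨x', y', hr, hi⟩ i j
      rcases hi i with ⟨a, b, c, d⟩ | ⟨a, b, c⟩ <;>
        rcases hi j with ⟨a', b', c', d'⟩ | ⟨a', b', c'⟩
      · have h1 := hR.adj_iff x' y' hr i j
        rwa [c, d, c', d', P14_adj_cast, P14_adj_cast] at h1
      · exact ⟨fun e => absurd e.symm (a' _), fun e => absurd e.symm (b' _)⟩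
      · exact ⟨fun e => absurd e (a _), fun e => absurd e (b _)⟩
      · exact ⟨fun e => absurd e (a _), fun e => absurd e (b _)⟩
    · rintro x y ⟨x', y', hr, hi⟩
      obtain ⟨f', hf'⟩ := hR.ext x' y' hr
      have h1 : ∀ u, P14_Iso (padGraph G z) u ↔ P14_Iso (padGraph H z) (f' u) :=
        P14_iso_ext hk hR hf'
      have h2 : ∀ v, ¬ P14_Iso G v → ∃ w, f' (Fin.castAdd z v) = Fin.castAdd z w ∧
          ¬ P14_Iso H w := by
        intro v hv
        refine P14_of_not_iso H _ ?_
        rw [← h1, P14_iso_cast]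
        exact hv
      choose g hg hg' using h2
      let F : Fin n → Fin n := fun v => if hv : ¬ P14_Iso G v then g v hv else B v
      have hF : ∀ v, P14_Iso G v ↔ P14_Iso H (F v) := by
        intro v
        by_cases hv : P14_Iso G v
        · have : F v = B v := dif_neg (not_not.mpr hv)
          rw [this]
          exact hB v
        · have : F v = g v hv := dif_pos hv
          rw [this]
          exact ⟨fun h => absurd h hv, fun h => absurd h (hg' v hv)⟩
      have hinj : Function.Injective F := by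
        intro v w hvw
        by_cases hv : P14_Iso G v
        · have hw : P14_Iso G w := (hF w).mpr (hvw ▸ (hF v).mp hv)
          have e1 : F v = B v := dif_neg (not_not.mpr hv)
          have e2 : F w = B w := dif_neg (not_not.mpr hw)
          rw [e1, e2] at hvw
          exact B.injective hvw
        · have hw : ¬ P14_Iso G w := fun hw => hv ((hF v).mpr (hvw ▸ (hF w).mp hw))
          have e1 : F v = g v hv := dif_pos hv
          have e2 : F w = g w hw := dif_pos hw
          rw [e1, e2] at hvw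
          have h3 : f' (Fin.castAdd z v) = f' (Fin.castAdd z w) := by
            rw [hg v hv, hg w hw, hvw]
          exact Fin.castAdd_injective n z (f'.injective h3)
      refine ⟨Equiv.ofBijective F (Finite.injective_iff_bijective.mp hinj), fun u i => ?_⟩
      rw [Equiv.ofBijective_apply]
      by_cases hu : P14_Iso G u
      · refine ⟨x', y', hr, fun j => ?_⟩
        by_cases hj : j = i
        · subst hj
          right
          rw [Function.update_self, Function.update_self]
          exact ⟨hu, (hF u).mp hu, dif_neg (not_not.mpr hu)⟩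
        · rw [Function.update_of_ne hj, Function.update_of_ne hj]
          exact hi j
      · refine ⟨_, _, hf' (Fin.castAdd z u) i, fun j => ?_⟩
        by_cases hj : j = i
        · subst hj
          left
          rw [Function.update_self, Function.update_self, Function.update_self,
            Function.update_self]
          refine ⟨hu, fun h => hu ((hF u).mpr h), rfl, ?_⟩
          have e1 : F u = g u hu := dif_pos hu
          rw [e1]
          exact hg u hu
        · rw [Function.update_of_ne hj, Function.update_of_ne hj, Function.update_of_ne hj,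
            Function.update_of_ne hj]
          exact hi j
  by_cases hv₀ : P14_Iso G v₀
  · exact WLEquiv.of_BF (by omega) hBF (x := fun _ => v₀) (y := fun _ => B v₀)
      ⟨_, _, hy₀, fun i => Or.inr ⟨hv₀, (hB v₀).mp hv₀, rfl⟩⟩
  · have h1 : ∀ i, ∃ w, y₀ i = Fin.castAdd z w ∧ ¬ P14_Iso H w := by
      intro i
      refine P14_of_not_iso H _ ?_
      rw [← P14_iso_iff hk hR hy₀ i, P14_iso_cast]
      exact hv₀
    choose w hw hw' using h1
    exact WLEquiv.of_BF (by omega) hBF (x := fun _ => v₀) (y := w)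
      ⟨_, _, hy₀, fun i => Or.inl ⟨hv₀, hw' i, rfl, hw i⟩⟩

theorem P14_zero {k : ℕ} {V W : Type} [Fintype V] [DecidableEq V] [Fintype W] [DecidableEq W]
    (G : SimpleGraph V) (H : SimpleGraph W) (e : G ≃g H) : WLEquiv k G H := by
  rw [WLEquiv.congr e (SimpleGraph.Iso.refl (G := H))]
  exact fun r => rfl

/-- Adding isolated vertices does not change `k`-WL equivalence. -/
theorem wlEquiv_pad {k : ℕ} (hk : 2 ≤ k) {n : ℕ} (G H : SimpleGraph (Fin n)) (z : ℕ) :
    WLEquiv k (padGraph G z) (padGraph H z) ↔ WLEquiv k G H := by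
  rcases Nat.eq_zero_or_pos n with hn | hn
  · subst hn
    have e : G = H := Subsingleton.elim _ _
    subst e
    exact ⟨fun _ => fun r => rfl, fun _ => fun r => rfl⟩
  · exact ⟨P14_of_pad hk hn G H z, P14_pad_of (by omega) hn G H z⟩

end Vale.Agent.P310
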