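import Vale.Agent.P310.Core

/-!
# P310, package P5b: the elements of `V_W ∩ A_j` for a critical-minus-one position
-/

namespace Vale.Agent.P310

namespace Net

open Finset

variable {k : ℕ} (N : Net k) (ℓ : ℕ)

namespace P5b

/-- Incidence of a node `(c, l, s)` and an edge, with the shift. -/
def Inc (c : N.C) (l : Fin 7) (s : Fin (ℓ + 1)) : N.Ed ℓ → (Fin k → Fin k → N.Λ) → Prop
  | .inner c' l' s', σ => σ = 0 ∧ c' = c ∧
      (((s : ℕ) = 0 ∧ (s' : ℕ) = 0 ∧ (l' : ℕ) ≤ 2 * N.nb c) ∨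
        ((s : ℕ) ≠ 0 ∧ l' = l ∧ ((s' : ℕ) + 1 = s ∨ ((s' : ℕ) = s ∧ (s : ℕ) < ℓ))))
  | .main st, σ => σ = N.sh c ((l : ℕ) / 2) ∧ (s : ℕ) ≠ 0 ∧ ¬ (s : ℕ) < ℓ ∧
      st = N.stmt c ((l : ℕ) / 2)

variable {N} {ℓ}

lemma Inc.unique {c : N.C} {l : Fin 7} {s : Fin (ℓ + 1)} {E : N.Ed ℓ}
    {σ σ' : Fin k → Fin k → N.Λ} (h : Inc N ℓ c l s E σ) (h' : Inc N ℓ c l s E σ') : σ = σ' := by
  cases E with
  | inner c' l' s' => rw [h.1, h'.1]
  | main st => rw [h.1, h'.1]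

lemma see_vert_iff (x : N.Ax ℓ) (c : N.C) (l : Fin 7) (s : Fin (ℓ + 1)) (e : Sym2 (Fin k))
    (d : N.Λ) : (∃ b, N.axSlot ℓ x b = some (.vert c l s e d)) ↔
      x.1 = c ∧ x.2.1 = (l, s) ∧ ∃ m, m ≠ row x ∧ e = s(row x, m) ∧ x.2.2.2 m = d := by
  obtain ⟨c', ⟨l', s'⟩, i, a⟩ := x
  constructor
  · rintro ⟨b, hb⟩
    unfold axSlot at hb
    dsimp only at hb
    split_ifs at hb with h1 h2 h3 h4 h5 h6 h7
    · have h8 := Option.some.inj hb
      injection h8 with e1 e2 e3 e4 e5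
      exact ⟨e1, by rw [e2, e3], ⟨b, h1⟩, h2, e4.symm, e5⟩
    all_goals (have h8 := Option.some.inj hb; cases h8)
  · rintro ⟨h1, h2, m, h3, h4, h5⟩
    refine ⟨⟨m, by omega⟩, ?_⟩
    unfold axSlot
    dsimp only at h1 h2 h3 h4 h5 ⊢
    rw [dif_pos m.2]
    have h6 : (⟨(m : ℕ), m.2⟩ : Fin k) = m := rfl
    simp only [h6]
    have h3' : ¬ m = i := h3
    rw [if_neg h3']
    simp only [row] at h4
    rw [h4, ← h1]
    have h7 := congrArg Prod.fst h2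
    have h8 := congrArg Prod.snd h2
    dsimp only at h7 h8
    rw [← h7, ← h8, ← h5]

lemma see_hvar_iff (x : N.Ax ℓ) (E : N.Ed ℓ) (i : Fin k) (a : Fin k → N.Λ) :
    (∃ b, N.axSlot ℓ x b = some (N.hvar ℓ E i a)) ↔
      row x = i ∧ ∃ σ, Inc N ℓ x.1 x.2.1.1 x.2.1.2 E σ ∧ a = x.2.2.2 + σ i := by
  obtain ⟨c, ⟨l, s⟩, i', a'⟩ := x
  have hlt := l.2
  cases E with
  | inner c' l' s' =>
    constructor
    · rintro ⟨b, hb⟩
      have hbl := b.2
      unfold axSlot hvar at hb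
      dsimp only at hb
      split_ifs at hb with h1 h2 h3 h4 h5 h6 h7
      · have h8 := Option.some.inj hb
        cases h8
      · have h8 := Option.some.inj hb
        injection h8 with e1 e2 e3 e4 e5
        refine ⟨e4, 0, ⟨rfl, e1.symm, Or.inl ⟨h3, ?_, ?_⟩⟩, ?_⟩
        · rw [← e3]; rfl
        · rw [← e2]; exact h4
        · rw [← e5]; simp
      · have h8 := Option.some.inj hb
        injection h8 with e1 e2 e3 e4 e5
        refine ⟨e4, 0, ⟨rfl, e1.symm, Or.inr ⟨h3, e2.symm, Or.inl ?_⟩⟩, ?_⟩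
        · rw [← e3]
          show (s : ℕ) - 1 + 1 = s
          omega
        · rw [← e5]; simp
      · have h8 := Option.some.inj hb
        injection h8 with e1 e2 e3 e4 e5
        refine ⟨e4, 0, ⟨rfl, e1.symm, Or.inr ⟨h3, e2.symm, Or.inr ⟨?_, h7⟩⟩⟩, ?_⟩
        · rw [← e3]
        · rw [← e5]; simp
      · have h8 := Option.some.inj hb
        cases h8
    · rintro ⟨h1, σ, ⟨h2, h3, h4⟩, h5⟩
      dsimp only at h3 h4 h5
      have h1' : i' = i := h1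
      subst h1' h2 h3
      have h6 : a = a' := by rw [h5]; simp
      subst h6
      rcases h4 with ⟨h7, h8, h9⟩ | ⟨h7, h8, h9 | ⟨h9, h10⟩⟩
      · refine ⟨⟨k + l', by omega⟩, ?_⟩
        unfold axSlot hvar
        dsimp only
        rw [dif_neg (by omega), if_pos h7, if_pos (by omega)]
        congr 2
        · apply Fin.ext
          simp
        · apply Fin.ext
          simp [h8]
      · refine ⟨⟨k, by omega⟩, ?_⟩
        unfold axSlot hvar
        dsimp only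
        rw [dif_neg (by omega), if_neg h7, if_pos (by omega), h8]
        congr 2
        apply Fin.ext
        show (s : ℕ) - 1 = s'
        omega
      · refine ⟨⟨k + 1, by omega⟩, ?_⟩
        unfold axSlot hvar
        dsimp only
        rw [dif_neg (by omega), if_neg h7, if_neg (by omega), if_pos (by omega), if_pos h10, h8]
        congr 2
        apply Fin.ext
        exact h9.symm
  | main st =>
    constructor
    · rintro ⟨b, hb⟩
      have hbl := b.2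
      unfold axSlot hvar at hb
      dsimp only at hb
      split_ifs at hb with h1 h2 h3 h4 h5 h6 h7
      · have h8 := Option.some.inj hb
        cases h8
      · have h8 := Option.some.inj hb
        cases h8
      · have h8 := Option.some.inj hb
        cases h8
      · have h8 := Option.some.inj hb
        cases h8
      · have h8 := Option.some.inj hb
        injection h8 with e1 e2 e3
        exact ⟨e2, _, ⟨rfl, h3, h7, e1.symm⟩, by rw [← e3, ← e2]⟩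
    · rintro ⟨h1, σ, ⟨h2, h3, h4, h5⟩, h6⟩
      dsimp only at h2 h3 h4 h5 h6
      have h1' : i' = i := h1
      subst h1' h2 h5 h6
      refine ⟨⟨k + 1, by omega⟩, ?_⟩
      unfold axSlot hvar
      dsimp only
      rw [dif_neg (by omega), if_neg h3, if_neg (by omega), if_pos (by omega), if_neg h4]

/-- The axiom `x` sees the variable `v`. -/
def See (x : N.Ax ℓ) (v : N.Vr ℓ) : Prop := ∃ b, N.axSlot ℓ x b = some v

lemma vec_some_of_see {x : N.Ax ℓ} {v : N.Vr ℓ} (h : See x v) : N.vec ℓ x (some v) = 1 := by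
  unfold vec
  exact if_pos h

lemma vec_some_of_not_see {x : N.Ax ℓ} {v : N.Vr ℓ} (h : ¬ See x v) :
    N.vec ℓ x (some v) = 0 := by
  unfold vec
  exact if_neg h

lemma hvar_inj {E E' : N.Ed ℓ} {i i' : Fin k} {a a' : Fin k → N.Λ}
    (h : N.hvar ℓ E i a = N.hvar ℓ E' i' a') : E = E' ∧ i = i' ∧ a = a' := by
  cases E <;> cases E' <;> simp only [hvar] at h
  · injection h with h1 h2 h3 h4 h5
    subst h1 h2 h3 h4 h5
    exact ⟨rfl, rfl, rfl⟩
  · cases h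
  · cases h
  · injection h with h1 h2 h3
    subst h1 h2 h3
    exact ⟨rfl, rfl, rfl⟩

lemma horVec_vert (E : N.Ed ℓ) (z : Fin k → (Fin k → N.Λ) → ZMod 2) (c : N.C) (l : Fin 7)
    (s : Fin (ℓ + 1)) (e : Sym2 (Fin k)) (d : N.Λ) :
    N.horVec ℓ E z (some (.vert c l s e d)) = 0 := by
  unfold horVec
  dsimp only
  rw [dif_neg]
  rintro ⟨p, hp⟩
  cases E <;> simp only [hvar] at hp <;> cases hp

lemma horVec_hvar_self (E : N.Ed ℓ) (z : Fin k → (Fin k → N.Λ) → ZMod 2) (i : Fin k)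
    (a : Fin k → N.Λ) : N.horVec ℓ E z (some (N.hvar ℓ E i a)) = z i a := by
  unfold horVec
  dsimp only
  have h : ∃ p : Fin k × (Fin k → N.Λ), N.hvar ℓ E p.1 p.2 = N.hvar ℓ E i a := ⟨(i, a), rfl⟩
  rw [dif_pos h]
  have h2 := hvar_inj h.choose_spec
  rw [h2.2.1, h2.2.2]

lemma horVec_hvar_ne {E E' : N.Ed ℓ} (hE : E ≠ E') (z : Fin k → (Fin k → N.Λ) → ZMod 2)
    (i : Fin k) (a : Fin k → N.Λ) : N.horVec ℓ E z (some (N.hvar ℓ E' i a)) = 0 := by
  unfold horVec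
  dsimp only
  rw [dif_neg]
  rintro ⟨p, hp⟩
  exact hE (hvar_inj hp).1

/-- The value of a normal form at a vertical variable. -/
lemma nf_vert (S : Finset (N.Ax ℓ)) (y : N.Ed ℓ → Fin k → (Fin k → N.Λ) → ZMod 2) (c : N.C)
    (l : Fin 7) (s : Fin (ℓ + 1)) (e : Sym2 (Fin k)) (d : N.Λ) :
    (∑ x ∈ S, N.vec ℓ x + ∑ E, N.horVec ℓ E (y E)) (some (.vert c l s e d))
      = ∑ x ∈ S, N.vec ℓ x (some (.vert c l s e d)) := by
  rw [Pi.add_apply, Finset.sum_apply, Finset.sum_apply]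
  have : ∑ E, N.horVec ℓ E (y E) (some (.vert c l s e d)) = 0 :=
    Finset.sum_eq_zero fun E _ => horVec_vert E (y E) c l s e d
  rw [this, add_zero]

/-- The value of a normal form at a horizontal variable. -/
lemma nf_hvar (S : Finset (N.Ax ℓ)) (y : N.Ed ℓ → Fin k → (Fin k → N.Λ) → ZMod 2)
    (E : N.Ed ℓ) (i : Fin k) (a : Fin k → N.Λ) :
    (∑ x ∈ S, N.vec ℓ x + ∑ E, N.horVec ℓ E (y E)) (some (N.hvar ℓ E i a))
      = ∑ x ∈ S, N.vec ℓ x (some (N.hvar ℓ E i a)) + y E i a := by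
  rw [Pi.add_apply, Finset.sum_apply, Finset.sum_apply]
  congr 1
  rw [Finset.sum_eq_single E, horVec_hvar_self]
  · intro E' _ hE'
    exact horVec_hvar_ne hE' _ _ _
  · intro h
    exact absurd (Finset.mem_univ E) h

/-- If exactly one member of `S` sees the vertical variable, the value is `1`. -/
lemma nf_vert_one {S : Finset (N.Ax ℓ)} (y : N.Ed ℓ → Fin k → (Fin k → N.Λ) → ZMod 2) {c : N.C}
    {l : Fin 7} {s : Fin (ℓ + 1)} {e : Sym2 (Fin k)} {d : N.Λ} {x : N.Ax ℓ} (hx : x ∈ S)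
    (hxs : See x (.vert c l s e d)) (huniq : ∀ x' ∈ S, See x' (.vert c l s e d) → x' = x) :
    (∑ x ∈ S, N.vec ℓ x + ∑ E, N.horVec ℓ E (y E)) (some (.vert c l s e d)) = 1 := by
  rw [nf_vert, Finset.sum_eq_single x, vec_some_of_see hxs]
  · intro x' hx' hne
    exact vec_some_of_not_see fun h => hne (huniq x' hx' h)
  · intro h
    exact absurd hx h

lemma nf_hvar_zero {S : Finset (N.Ax ℓ)} (y : N.Ed ℓ → Fin k → (Fin k → N.Λ) → ZMod 2)
    {E : N.Ed ℓ} {i : Fin k} {a : Fin k → N.Λ} (h : ∀ x' ∈ S, ¬ See x' (N.hvar ℓ E i a)) :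
    (∑ x ∈ S, N.vec ℓ x + ∑ E, N.horVec ℓ E (y E)) (some (N.hvar ℓ E i a)) = y E i a := by
  rw [nf_hvar, Finset.sum_eq_zero, zero_add]
  intro x' hx'
  exact vec_some_of_not_see (h x' hx')

lemma nf_hvar_one {S : Finset (N.Ax ℓ)} (y : N.Ed ℓ → Fin k → (Fin k → N.Λ) → ZMod 2)
    {E : N.Ed ℓ} {i : Fin k} {a : Fin k → N.Λ} {x : N.Ax ℓ} (hx : x ∈ S)
    (hxs : See x (N.hvar ℓ E i a)) (huniq : ∀ x' ∈ S, See x' (N.hvar ℓ E i a) → x' = x) :
    (∑ x ∈ S, N.vec ℓ x + ∑ E, N.horVec ℓ E (y E)) (some (N.hvar ℓ E i a)) = 1 + y E i a := by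
  rw [nf_hvar, Finset.sum_eq_single x, vec_some_of_see hxs]
  · intro x' hx' hne
    exact vec_some_of_not_see fun h => hne (huniq x' hx' h)
  · intro h
    exact absurd hx h

lemma vec_mem_VW {W : Finset (N.Ax ℓ)} {x : N.Ax ℓ} (hx : x ∈ W) : N.vec ℓ x ∈ N.VW ℓ W := by
  intro v hv
  exact vec_some_of_not_see fun h => hv ⟨x, hx, h⟩

/-- If `f ∈ V_W` does not vanish at `v`, some member of `W` sees `v`. -/
lemma exists_see {W : Finset (N.Ax ℓ)} {f : N.Form ℓ} (hf : f ∈ N.VW ℓ W) {v : N.Vr ℓ}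
    (hv : f (some v) ≠ 0) : ∃ w ∈ W, See w v := by
  by_contra hcon
  exact hv (hf v hcon)

lemma see_vert_pair {x : N.Ax ℓ} {c : N.C} {l : Fin 7} {s : Fin (ℓ + 1)} {i m : Fin k} {d : N.Λ}
    (h : See x (.vert c l s s(i, m) d)) : x.1 = c ∧ x.2.1 = (l, s) ∧
      ((row x = i ∧ x.2.2.2 m = d) ∨ (row x = m ∧ x.2.2.2 i = d)) := by
  obtain ⟨h1, h2, m', _, h4, h5⟩ := (see_vert_iff x c l s s(i, m) d).1 h
  refine ⟨h1, h2, ?_⟩
  rw [Sym2.eq_iff] at h4
  rcases h4 with ⟨h6, h7⟩ | ⟨h6, h7⟩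
  · exact Or.inl ⟨h6.symm, by rw [h7]; exact h5⟩
  · exact Or.inr ⟨h7.symm, by rw [h6]; exact h5⟩

lemma see_vert_self (x : N.Ax ℓ) {m : Fin k} (hm : m ≠ row x) :
    See x (.vert x.1 x.2.1.1 x.2.1.2 s(row x, m) (x.2.2.2 m)) :=
  (see_vert_iff x _ _ _ _ _).2 ⟨rfl, rfl, m, hm, rfl, rfl⟩

lemma ax_ext {x y : N.Ax ℓ} (h1 : x.1 = y.1) (h2 : x.2.1 = y.2.1) (h3 : row x = row y)
    (h4 : x.2.2.2 = y.2.2.2) : x = y := by
  obtain ⟨c, ν, i, a⟩ := x
  obtain ⟨c', ν', i', a'⟩ := y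
  have h3' : i = i' := h3
  dsimp only at h1 h2 h4
  subst h1 h2 h3' h4
  rfl

/-- Step 1. -/
lemma mem_of_unique {W S : Finset (N.Ax ℓ)} {j : Fin k} (hj : N.FreeRow ℓ W j)
    {y : N.Ed ℓ → Fin k → (Fin k → N.Λ) → ZMod 2}
    (hf : (∑ x ∈ S, N.vec ℓ x + ∑ E, N.horVec ℓ E (y E)) ∈ N.VW ℓ W)
    (hSj : ∀ x ∈ S, row x ≠ j)
    (hcl : ∀ x ∈ S, ∃ w ∈ W, w.1 = x.1 ∧ w.2.2 = x.2.2) {x : N.Ax ℓ} (hx : x ∈ S)
    (hu : ∀ w ∈ W, w.1 = x.1 → row w = row x → w.2.2.2 j = x.2.2.2 j → w.2.2.2 = x.2.2.2) :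
    x ∈ W := by
  have hxj := hSj x hx
  have h1 := see_vert_self x (m := j) (fun h => hxj h.symm)
  have h2 := nf_vert_one y hx h1 (fun x' hx' h' => by
    obtain ⟨e1, e2, e3⟩ := see_vert_pair h'
    rcases e3 with ⟨e4, e5⟩ | ⟨e4, _⟩
    · obtain ⟨w, hw, e6, e7⟩ := hcl x' hx'
      have e8 : row w = row x := by rw [← e4]; exact congrArg Prod.fst e7
      have e9 : w.2.2.2 = x'.2.2.2 := congrArg Prod.snd e7
      have e10 := hu w hw (e6.trans e1) e8 (by rw [e9]; exact e5)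
      exact ax_ext e1 e2 e4 (e9.symm.trans e10)
    · exact absurd e4 (hSj x' hx'))
  obtain ⟨w, hw, h3⟩ := exists_see hf (by rw [h2]; exact one_ne_zero)
  obtain ⟨e1, e2, e3⟩ := see_vert_pair h3
  rcases e3 with ⟨e4, e5⟩ | ⟨e4, _⟩
  · have e10 := hu w hw e1 e4 e5
    have : w = x := ax_ext e1 e2 e4 e10
    rwa [← this]
  · exact absurd e4 (hj w hw)

/-- A vertical sum with only one contribution. -/
lemma sum_vert_single {z : (Fin k → N.Λ) → ZMod 2} {m : Fin k} {a : Fin k → N.Λ}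
    (h : ∀ a', a' ≠ a → a' m = a m → z a' = 0) :
    (∑ a' : Fin k → N.Λ, if a' m = a m then z a' else 0) = z a := by
  rw [Finset.sum_eq_single a]
  · rw [if_pos rfl]
  · intro a' _ hne
    by_cases h1 : a' m = a m
    · rw [if_pos h1]; exact h a' hne h1
    · rw [if_neg h1]
  · intro h1
    exact absurd (Finset.mem_univ a) h1

/-- A closed chain with empty row `m` and only one content with a given `m`-digit in row `i`. -/
lemma isZ_single {z : Fin k → (Fin k → N.Λ) → ZMod 2} (hz : N.IsZ z) {i m : Fin k} (him : i ≠ m)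
    (hm : ∀ a, z m a = 0) {a : Fin k → N.Λ} (h : ∀ a', a' ≠ a → a' m = a m → z i a' = 0) :
    z i a = 0 := by
  have h1 := hz.2 i m him (a m)
  rw [sum_vert_single h] at h1
  have h2 : (∑ a' : Fin k → N.Λ, if a' i = a m then z m a' else 0) = 0 :=
    Finset.sum_eq_zero fun a' _ => by rw [hm]; split_ifs <;> rfl
  rw [h2, add_zero] at h1
  exact h1

/-- Step 2. -/
lemma row_zero {W S : Finset (N.Ax ℓ)} {j : Fin k}
    {y : N.Ed ℓ → Fin k → (Fin k → N.Λ) → ZMod 2}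
    (hf : (∑ x ∈ S, N.vec ℓ x + ∑ E, N.horVec ℓ E (y E)) ∈ N.VW ℓ W)
    (hy : ∀ E, N.IsZ (y E) ∧ ∀ a, y E j a = 0) {m : Fin k} (hmj : m ≠ j)
    (hSm : ∀ x ∈ S, row x ≠ m)
    (hu : ∀ u ∈ W, ∀ v ∈ W, row u = m → row v = m → u = v) (E : N.Ed ℓ) (a : Fin k → N.Λ) :
    y E m a = 0 := by
  have key : ∀ a, y E m a ≠ 0 → ∃ w ∈ W, See w (N.hvar ℓ E m a) := by
    intro a ha
    refine exists_see hf ?_
    rw [nf_hvar_zero y (fun x' hx' h => hSm x' hx' ((see_hvar_iff x' E m a).1 h).1)]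
    exact ha
  refine isZ_single (hy E).1 hmj (hy E).2 fun a' hne _ => ?_
  by_contra ha'
  by_cases ha : y E m a = 0
  · -- apply the argument with `a'` in place of `a`
    obtain ⟨w', hw', h1⟩ := key a' ha'
    refine ha' (isZ_single (hy E).1 hmj (hy E).2 fun a'' hne' _ => ?_)
    by_contra ha''
    obtain ⟨w'', hw'', h2⟩ := key a'' ha''
    obtain ⟨r1, σ1, i1, q1⟩ := (see_hvar_iff w' E m a').1 h1
    obtain ⟨r2, σ2, i2, q2⟩ := (see_hvar_iff w'' E m a'').1 h2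
    have h3 := hu w'' hw'' w' hw' r2 r1
    subst h3
    have h4 := i1.unique i2
    subst h4
    exact hne' (q2.trans q1.symm)
  · obtain ⟨w, hw, h1⟩ := key a ha
    obtain ⟨w', hw', h2⟩ := key a' ha'
    obtain ⟨r1, σ1, i1, q1⟩ := (see_hvar_iff w E m a).1 h1
    obtain ⟨r2, σ2, i2, q2⟩ := (see_hvar_iff w' E m a').1 h2
    have h3 := hu w' hw' w hw r2 r1
    subst h3
    have h4 := i1.unique i2
    subst h4
    exact hne (q2.trans q1.symm)

/-- The structure of `W` when a row has two pebbles. -/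
lemma inj_erase {W : Finset (N.Ax ℓ)} {j : Fin k} (hW : W.card ≤ k)
    (hocc : ∀ i, i ≠ j → ∃ x ∈ W, row x = i) {u w : N.Ax ℓ} (hu : u ∈ W) (hw : w ∈ W)
    (huw : u ≠ w) (hrow : row u = row w) :
    ∀ p ∈ W, ∀ q ∈ W, p ≠ w → q ≠ w → row p = row q → p = q := by
  have h1 : (Finset.univ.erase j : Finset (Fin k)) ⊆ (W.erase w).image row := by
    intro i hi
    obtain ⟨x, hx, hxi⟩ := hocc i (Finset.ne_of_mem_erase hi)
    rw [Finset.mem_image]
    by_cases hxw : x = w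
    · exact ⟨u, Finset.mem_erase.2 ⟨huw, hu⟩, by rw [hrow, ← hxw, hxi]⟩
    · exact ⟨x, Finset.mem_erase.2 ⟨hxw, hx⟩, hxi⟩
  have h2 := Finset.card_le_card h1
  rw [Finset.card_erase_of_mem (Finset.mem_univ j), Finset.card_univ, Fintype.card_fin] at h2
  have h3 : (W.erase w).card = W.card - 1 := Finset.card_erase_of_mem hw
  have h4 : ((W.erase w).image row).card ≤ (W.erase w).card := Finset.card_image_le
  have h5 : ((W.erase w).image row).card = (W.erase w).card := by omega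
  have h6 := Finset.card_image_iff.1 h5
  intro p hp q hq hpw hqw hpq
  exact h6 (Finset.mem_coe.2 (Finset.mem_erase.2 ⟨hpw, hp⟩))
    (Finset.mem_coe.2 (Finset.mem_erase.2 ⟨hqw, hq⟩)) hpq

/-- Step 3: the node of a bad element. -/
lemma bad_node {W S : Finset (N.Ax ℓ)} {j : Fin k} (hj : N.FreeRow ℓ W j)
    {y : N.Ed ℓ → Fin k → (Fin k → N.Λ) → ZMod 2}
    (hf : (∑ x ∈ S, N.vec ℓ x + ∑ E, N.horVec ℓ E (y E)) ∈ N.VW ℓ W)
    {i₀ l₁ : Fin k} {c : N.C} {a a' : Fin k → N.Λ} (hij : i₀ ≠ j)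
    (hS : ∀ x ∈ S, x ∉ W ∧ x.1 = c ∧ row x = i₀ ∧ (x.2.2.2 = a ∨ x.2.2.2 = a'))
    {u w : N.Ax ℓ} (hua : u.1 = c ∧ row u = i₀ ∧ u.2.2.2 = a)
    (hwa : w.1 = c ∧ row w = i₀ ∧ w.2.2.2 = a')
    (hl : l₁ ≠ i₀) (hal : a l₁ ≠ a' l₁) (hW0 : ∀ p ∈ W, row p = i₀ → p = u ∨ p = w)
    (hW1 : ∀ p ∈ W, ∀ q ∈ W, row p = l₁ → row q = l₁ → p = q)
    {x : N.Ax ℓ} (hx : x ∈ S) (hxa : x.2.2.2 = a) : w.2.1 = x.2.1 := by
  obtain ⟨hxW, hxc, hxr, _⟩ := hS x hx
  have hux : ∀ p ∈ W, p.1 = c → p.2.1 = x.2.1 → row p = i₀ → p.2.2.2 = a → False := by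
    intro p hp h1 h2 h3 h4
    have : p = x := ax_ext (h1.trans hxc.symm) h2 (h3.trans hxr.symm) (h4.trans hxa.symm)
    exact hxW (this ▸ hp)
  -- the vertical variable at the label `l₁`
  have hsee : ∀ z ∈ S, z.2.1 = x.2.1 → See z (.vert c x.2.1.1 x.2.1.2 s(i₀, l₁) (z.2.2.2 l₁)) := by
    intro z hz hzx
    obtain ⟨_, hzc, hzr, _⟩ := hS z hz
    exact (see_vert_iff z _ _ _ _ _).2 ⟨hzc, hzx, l₁, by rw [hzr]; exact hl, by rw [hzr], rfl⟩
  have hgen : ∀ z ∈ S, z.2.1 = x.2.1 → ∃ t ∈ W,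
      t.2.1 = x.2.1 ∧ ((row t = i₀ ∧ t.2.2.2 l₁ = z.2.2.2 l₁) ∨
        (row t = l₁ ∧ t.2.2.2 i₀ = z.2.2.2 l₁)) := by
    intro z hz hzx
    obtain ⟨_, hzc, hzr, hza⟩ := hS z hz
    have h2 := nf_vert_one y hz (hsee z hz hzx) (fun x' hx' h' => by
      obtain ⟨e1, e2, e3⟩ := see_vert_pair h'
      obtain ⟨_, _, hr', ha'⟩ := hS x' hx'
      rcases e3 with ⟨_, e5⟩ | ⟨e4, _⟩
      · refine ax_ext (e1.trans hzc.symm) (e2.trans hzx.symm) (hr'.trans hzr.symm) ?_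
        rcases ha' with ha' | ha' <;> rcases hza with hza | hza
        · rw [ha', hza]
        · rw [ha', hza] at e5; exact absurd e5 hal
        · rw [ha', hza] at e5; exact absurd e5.symm hal
        · rw [ha', hza]
      · exact absurd (e4.symm.trans hr') hl)
    obtain ⟨t, ht, h3⟩ := exists_see hf (by rw [h2]; exact one_ne_zero)
    obtain ⟨_, e2, e3⟩ := see_vert_pair h3
    exact ⟨t, ht, e2, e3⟩
  obtain ⟨t, ht, ht2, ht3⟩ := hgen x hx rfl
  have ht4 : row t = l₁ ∧ t.2.2.2 i₀ = a l₁ := by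
    rcases ht3 with ⟨h1, h2⟩ | ⟨h1, h2⟩
    · exfalso
      rcases hW0 t ht h1 with h3 | h3
      · exact hux t ht (by rw [h3]; exact hua.1) ht2 h1 (by rw [h3]; exact hua.2.2)
      · rw [h3, hwa.2.2, hxa] at h2
        exact hal h2.symm
    · exact ⟨h1, by rw [h2, hxa]⟩
  by_contra hwx
  -- the vertical variable at the label `j`
  have hV2 : ¬ ∃ p ∈ W, See p (.vert c x.2.1.1 x.2.1.2 s(i₀, j) (a j)) := by
    rintro ⟨p, hp, h1⟩
    obtain ⟨e1, e2, e3⟩ := see_vert_pair h1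
    rcases e3 with ⟨e4, e5⟩ | ⟨e4, _⟩
    · rcases hW0 p hp e4 with h3 | h3
      · exact hux p hp e1 e2 e4 (by rw [h3]; exact hua.2.2)
      · rw [h3] at e2; exact hwx e2
    · exact hj p hp e4
  have hx2 : ∃ z ∈ S, z ≠ x ∧ See z (.vert c x.2.1.1 x.2.1.2 s(i₀, j) (a j)) := by
    by_contra hcon
    have h1 : See x (.vert c x.2.1.1 x.2.1.2 s(i₀, j) (a j)) :=
      (see_vert_iff x _ _ _ _ _).2 ⟨hxc, rfl, j, by rw [hxr]; exact hij.symm, by rw [hxr],
        by rw [hxa]⟩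
    have h2 := nf_vert_one y hx h1 (fun x' hx' h' => by
      by_contra hne
      exact hcon ⟨x', hx', hne, h'⟩)
    have h3 := hf _ hV2
    rw [h2] at h3
    exact one_ne_zero h3
  obtain ⟨z, hz, hzx, h1⟩ := hx2
  obtain ⟨e1, e2, e3⟩ := see_vert_pair h1
  obtain ⟨_, hzc, hzr, hza⟩ := hS z hz
  have hza' : z.2.2.2 = a' := by
    rcases hza with h | h
    · exact absurd (ax_ext (hzc.trans hxc.symm) e2 (hzr.trans hxr.symm) (h.trans hxa.symm)) hzx
    · exact h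
  obtain ⟨t', ht', ht2', ht3'⟩ := hgen z hz e2
  rcases ht3' with ⟨h3, h4⟩ | ⟨h3, h4⟩
  · rcases hW0 t' ht' h3 with h5 | h5
    · rw [h5, hua.2.2, hza'] at h4
      exact hal h4
    · rw [h5] at ht2'; exact hwx ht2'
  · have h5 := hW1 t' ht' t ht h3 ht4.1
    rw [h5, ht4.2, hza'] at h4
    exact hal h4

/-- A node has an edge that does not meet a given other node. -/
lemma exists_edge {c : N.C} {ν ν' : Fin 7 × Fin (ℓ + 1)} (hne : ν ≠ ν')
    (h1 : ν.2 = 0 → ν.1 = 0) (h2 : (ν.1 : ℕ) ≤ 2 * N.nb c) (h3 : ν'.2 = 0 → ν'.1 = 0)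
    (h4 : ν.2 = 0 → 1 ≤ N.nb c) (hℓ : 1 ≤ ℓ) :
    ∃ (E : N.Ed ℓ) (σ : Fin k → Fin k → N.Λ), Inc N ℓ c ν.1 ν.2 E σ ∧
      ∀ σ', ¬ Inc N ℓ c ν'.1 ν'.2 E σ' := by
  obtain ⟨l, s⟩ := ν
  obtain ⟨l', s'⟩ := ν'
  dsimp only at h1 h2 h3 h4 ⊢
  have hs := s.2
  have hs' := s'.2
  by_cases hs0 : (s : ℕ) = 0
  · have e1 : s = 0 := Fin.ext hs0
    have e2 : l = 0 := h1 e1
    have e3 := h4 e1
    subst e1 e2
    have e4 : (s' : ℕ) ≠ 0 := by
      intro h
      have h5 : s' = 0 := Fin.ext h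
      exact hne (by rw [h5, h3 h5])
    by_cases hl' : l' = 0
    · refine ⟨.inner c 1 0, 0, ⟨rfl, rfl, Or.inl ⟨rfl, rfl, ?_⟩⟩, ?_⟩
      · show 1 ≤ 2 * N.nb c
        omega
      · rintro σ' ⟨_, _, ⟨h5, _⟩ | ⟨_, h5, _⟩⟩
        · exact e4 h5
        · rw [hl'] at h5
          exact absurd (congrArg Fin.val h5) (by decide)
    · refine ⟨.inner c 0 0, 0, ⟨rfl, rfl, Or.inl ⟨rfl, rfl, ?_⟩⟩, ?_⟩
      · show 0 ≤ 2 * N.nb c
        omega
      · rintro σ' ⟨_, _, ⟨h5, _⟩ | ⟨_, h5, _⟩⟩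
        · exact e4 h5
        · exact hl' h5.symm
  · by_cases hinc : ∃ σ', Inc N ℓ c l' s' (.inner c l ⟨(s : ℕ) - 1, by omega⟩) σ'
    · obtain ⟨σ', _, _, h5⟩ := hinc
      have h6 : (s' : ℕ) + 1 = s := by
        rcases h5 with ⟨h5, h6, _⟩ | ⟨h5, h6, h7 | ⟨h7, _⟩⟩
        · have h8 : (s : ℕ) - 1 = 0 := h6
          omega
        · exfalso
          have h8 : (s : ℕ) - 1 + 1 = s' := h7
          apply hne
          rw [h6]
          congr 1
          apply Fin.ext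
          omega
        · have h8 : (s : ℕ) - 1 = s' := h7
          omega
      by_cases hsl : (s : ℕ) < ℓ
      · refine ⟨.inner c l s, 0, ⟨rfl, rfl, Or.inr ⟨hs0, rfl, Or.inr ⟨rfl, hsl⟩⟩⟩, ?_⟩
        rintro σ'' ⟨_, _, ⟨_, h7, _⟩ | ⟨_, _, h7 | ⟨h7, _⟩⟩⟩
        · exact hs0 h7
        · omega
        · omega
      · refine ⟨.main (N.stmt c ((l : ℕ) / 2)), _, ⟨rfl, hs0, hsl, rfl⟩, ?_⟩
        rintro σ'' ⟨_, _, h7, _⟩
        omega
    · refine ⟨.inner c l ⟨(s : ℕ) - 1, by omega⟩, 0, ⟨rfl, rfl, Or.inr ⟨hs0, rfl, Or.inl ?_⟩⟩,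
        fun σ' h => hinc ⟨σ', h⟩⟩
      show (s : ℕ) - 1 + 1 = s
      omega

/-- Step 4: there is no bad element. -/
lemma no_bad (hℓ : 1 ≤ ℓ) {W S : Finset (N.Ax ℓ)} {j : Fin k} (hj : N.FreeRow ℓ W j)
    (hWv : ∀ y ∈ W, N.AxValid ℓ y)
    {y : N.Ed ℓ → Fin k → (Fin k → N.Λ) → ZMod 2}
    (hf : (∑ x ∈ S, N.vec ℓ x + ∑ E, N.horVec ℓ E (y E)) ∈ N.VW ℓ W)
    (hy : ∀ E, N.IsZ (y E) ∧ ∀ a, y E j a = 0)
    {i₀ l₁ : Fin k} {c : N.C} {a a' : Fin k → N.Λ} (hij : i₀ ≠ j)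
    (hS : ∀ x ∈ S, x ∉ W ∧ x.1 = c ∧ row x = i₀ ∧ (x.2.2.2 = a ∨ x.2.2.2 = a'))
    {u w : N.Ax ℓ} (hu : u ∈ W) (hw : w ∈ W) (hua : u.1 = c ∧ row u = i₀ ∧ u.2.2.2 = a)
    (hwa : w.1 = c ∧ row w = i₀ ∧ w.2.2.2 = a')
    (hl : l₁ ≠ i₀) (hlj : l₁ ≠ j) (hal : a l₁ ≠ a' l₁)
    (hW0 : ∀ p ∈ W, row p = i₀ → p = u ∨ p = w)
    (hW1 : ∀ p ∈ W, ∀ q ∈ W, row p = l₁ → row q = l₁ → p = q)
    {x : N.Ax ℓ} (hx : x ∈ S) (hxa : x.2.2.2 = a) : False := by
  obtain ⟨hxW, hxc, hxr, _⟩ := hS x hx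
  have hwx : w.2.1 = x.2.1 := bad_node hj hf hij hS hua hwa hl hal hW0 hW1 hx hxa
  have hux : u.2.1 ≠ x.2.1 := by
    intro h
    apply hxW
    have : x = u := ax_ext (hxc.trans hua.1.symm) h.symm (hxr.trans hua.2.1.symm)
      (hxa.trans hua.2.2.symm)
    rw [this]; exact hu
  -- the other elements of `S`
  have hSx : ∀ z ∈ S, z = x ∨ z.2.1 = u.2.1 := by
    intro z hz
    obtain ⟨_, hzc, hzr, hza⟩ := hS z hz
    rcases hza with hza | hza
    · have h1 : w.2.1 = z.2.1 := bad_node hj hf hij hS hua hwa hl hal hW0 hW1 hz hza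
      exact Or.inl (ax_ext (hzc.trans hxc.symm) (h1.symm.trans hwx) (hzr.trans hxr.symm)
        (hza.trans hxa.symm))
    · refine Or.inr (bad_node hj hf hij (fun z hz => ?_) hwa hua hl (fun h => hal h.symm)
        (fun p hp hpr => (hW0 p hp hpr).symm) hW1 hz hza).symm
      obtain ⟨h1, h2, h3, h4⟩ := hS z hz
      exact ⟨h1, h2, h3, h4.symm⟩
  have hwv := hWv w hw
  have huv := hWv u hu
  have hcond : ∀ m, m ≠ i₀ → N.cond c i₀ m (a m) ∧ N.cond c i₀ m (a' m) := by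
    intro m hm
    constructor
    · have := huv.2.2.2 m (by rw [show u.2.2.1 = i₀ from hua.2.1]; exact hm)
      rw [hua.1, show u.2.2.1 = i₀ from hua.2.1, hua.2.2] at this
      exact this
    · have := hwv.2.2.2 m (by rw [show w.2.2.1 = i₀ from hwa.2.1]; exact hm)
      rw [hwa.1, show w.2.2.1 = i₀ from hwa.2.1, hwa.2.2] at this
      exact this
  have hnb : 1 ≤ N.nb c := by
    by_contra h0
    have h1 : N.nb c = 0 := by omega
    exact hal (N.single c h1 i₀ l₁ hl.symm _ _ (hcond l₁ hl).1 (hcond l₁ hl).2)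
  obtain ⟨E, σ, hE, hE'⟩ := exists_edge (N := N) (c := c) (ν := x.2.1) (ν' := u.2.1) hux.symm
    (by rw [← hwx]; exact hwv.1)
    (by rw [← hwx, ← hwa.1]; exact hwv.2.1) huv.1 (fun _ => hnb) hℓ
  -- who sees the variables of `E` in row `i₀`
  have hseeS : ∀ z ∈ S, ∀ a'', See z (N.hvar ℓ E i₀ a'') → z = x ∧ a'' = a + σ i₀ := by
    intro z hz a'' h
    obtain ⟨_, σ', h1, h2⟩ := (see_hvar_iff z E i₀ a'').1 h
    rw [(hS z hz).2.1] at h1
    rcases hSx z hz with h3 | h3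
    · refine ⟨h3, ?_⟩
      rw [h3] at h1 h2
      rw [h2, hxa, h1.unique hE]
    · rw [h3] at h1
      exact absurd h1 (hE' σ')
  have hseeW : ∀ p ∈ W, ∀ a'', See p (N.hvar ℓ E i₀ a'') → a'' = a' + σ i₀ := by
    intro p hp a'' h
    obtain ⟨h0, σ', h1, h2⟩ := (see_hvar_iff p E i₀ a'').1 h
    rcases hW0 p hp h0 with h3 | h3
    · rw [h3, hua.1] at h1
      exact absurd h1 (hE' σ')
    · rw [h3, hwa.1, hwx] at h1
      rw [h3] at h2
      rw [h2, hwa.2.2, h1.unique hE]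
  have hneq : a + σ i₀ ≠ a' + σ i₀ := fun h => hal (congrFun (add_right_cancel h) l₁)
  have hH1 : (1 : ZMod 2) + y E i₀ (a + σ i₀) = 0 := by
    rw [← nf_hvar_one y hx ((see_hvar_iff x E i₀ (a + σ i₀)).2
      ⟨hxr, σ, by rw [hxc]; exact hE, by rw [hxa]⟩) (fun x' hx' h' => (hseeS x' hx' _ h').1)]
    apply hf
    rintro ⟨p, hp, h⟩
    exact hneq (hseeW p hp _ h)
  have hH2 : y E i₀ (a + σ i₀) = 0 := by
    refine isZ_single (hy E).1 (m := l₁) hl.symm ?_ ?_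
    · intro b
      exact row_zero hf hy hlj (fun z hz h => hl (h.symm.trans (hS z hz).2.2.1)) hW1 E b
    · intro b hb hbl
      rw [← nf_hvar_zero y (fun x' hx' h' => hb (hseeS x' hx' _ h').2)]
      apply hf
      rintro ⟨p, hp, h⟩
      have h1 := hseeW p hp _ h
      rw [h1] at hbl
      exact hal (add_right_cancel hbl).symm
  rw [hH2, add_zero] at hH1
  exact one_ne_zero hH1

/-- Step 5: a normal form without vectors vanishes. -/
lemma hor_zero {W : Finset (N.Ax ℓ)} {j : Fin k} (hW : W.card ≤ k)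
    (hocc : ∀ i, i ≠ j → ∃ x ∈ W, row x = i)
    {y : N.Ed ℓ → Fin k → (Fin k → N.Λ) → ZMod 2}
    (hf : (∑ x ∈ (∅ : Finset (N.Ax ℓ)), N.vec ℓ x + ∑ E, N.horVec ℓ E (y E)) ∈ N.VW ℓ W)
    (hy : ∀ E, N.IsZ (y E) ∧ ∀ a, y E j a = 0) (E : N.Ed ℓ) (m : Fin k) (a : Fin k → N.Λ) :
    y E m a = 0 := by
  have hemp : ∀ m : Fin k, ∀ x ∈ (∅ : Finset (N.Ax ℓ)), row x ≠ m := by
    intro m x hx
    exact absurd hx (Finset.notMem_empty x)
  by_cases hmj : m = j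
  · rw [hmj]; exact (hy E).2 a
  by_cases hu : ∀ u ∈ W, ∀ v ∈ W, row u = m → row v = m → u = v
  · exact row_zero hf hy hmj (hemp m) hu E a
  push Not at hu
  obtain ⟨u, hu, w, hw, hur, hwr, huw⟩ := hu
  have hinj := inj_erase hW hocc hu hw huw (hur.trans hwr.symm)
  have hW0 : ∀ p ∈ W, row p = m → p = u ∨ p = w := by
    intro p hp hpr
    by_cases hpw : p = w
    · exact Or.inr hpw
    · exact Or.inl (hinj p hp u hu hpw huw (hpr.trans hur.symm))
  have hW1 : ∀ m', m' ≠ m → ∀ p ∈ W, ∀ q ∈ W, row p = m' → row q = m' → p = q := by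
    intro m' hm' p hp q hq hpr hqr
    refine hinj p hp q hq ?_ ?_ (hpr.trans hqr.symm)
    · rintro rfl; exact hm' (hpr.symm.trans hwr)
    · rintro rfl; exact hm' (hqr.symm.trans hwr)
  have hrow : ∀ m', m' ≠ m → ∀ b, y E m' b = 0 := by
    intro m' hm' b
    by_cases hmj' : m' = j
    · rw [hmj']; exact (hy E).2 b
    · exact row_zero hf hy hmj' (hemp m') (hW1 m' hm') E b
  have key : ∀ b, y E m b ≠ 0 → ∃ p ∈ W, See p (N.hvar ℓ E m b) := by
    intro b hb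
    refine exists_see hf ?_
    rw [nf_hvar_zero y (fun x' hx' _ => hemp m x' hx' ((see_hvar_iff x' E m b).1 ‹_›).1)]
    exact hb
  have huniq : ∀ p : N.Ax ℓ, ∀ b b', See p (N.hvar ℓ E m b) → See p (N.hvar ℓ E m b') → b = b' := by
    intro p b b' h h'
    obtain ⟨_, σ1, i1, q1⟩ := (see_hvar_iff p E m b).1 h
    obtain ⟨_, σ2, i2, q2⟩ := (see_hvar_iff p E m b').1 h'
    rw [q1, q2, i1.unique i2]
  by_contra ha
  by_cases hex : ∃ a', a' ≠ a ∧ y E m a' ≠ 0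
  · obtain ⟨a', hne, ha'⟩ := hex
    obtain ⟨l, hl⟩ : ∃ l, a' l ≠ a l := by
      by_contra hcon
      push Not at hcon
      exact hne (funext hcon)
    have hlm : l ≠ m := by
      rintro rfl
      apply hl
      have h1 : a' l = 0 := by
        by_contra h
        exact ha' ((hy E).1.1 l a' h)
      have h2 : a l = 0 := by
        by_contra h
        exact ha ((hy E).1.1 l a h)
      rw [h1, h2]
    apply ha
    refine isZ_single (hy E).1 hlm.symm (hrow l hlm) ?_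
    intro b hb hbl
    by_contra hb0
    -- three different contents, two pebbles
    obtain ⟨p1, hp1, s1⟩ := key a ha
    obtain ⟨p2, hp2, s2⟩ := key a' ha'
    obtain ⟨p3, hp3, s3⟩ := key b hb0
    have hbne : b ≠ a' := by
      rintro rfl
      exact hl hbl
    have h12 : p1 ≠ p2 := by
      rintro rfl
      exact hne (huniq _ _ _ s2 s1)
    have h13 : p1 ≠ p3 := by
      rintro rfl
      exact hb (huniq _ _ _ s3 s1)
    have h23 : p2 ≠ p3 := by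
      rintro rfl
      exact hbne (huniq _ _ _ s3 s2)
    rcases hW0 p1 hp1 ((see_hvar_iff p1 E m a).1 s1).1 with r1 | r1 <;>
    rcases hW0 p2 hp2 ((see_hvar_iff p2 E m a').1 s2).1 with r2 | r2 <;>
    rcases hW0 p3 hp3 ((see_hvar_iff p3 E m b).1 s3).1 with r3 | r3
    · exact h12 (r1.trans r2.symm)
    · exact h12 (r1.trans r2.symm)
    · exact h13 (r1.trans r3.symm)
    · exact h23 (r2.trans r3.symm)
    · exact h23 (r2.trans r3.symm)
    · exact h13 (r1.trans r3.symm)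
    · exact h12 (r1.trans r2.symm)
    · exact h12 (r1.trans r2.symm)
  · push Not at hex
    apply ha
    exact isZ_single (hy E).1 hmj (hy E).2 (fun b hb _ => hex b hb)

lemma horVec_zero (E : N.Ed ℓ) {z : Fin k → (Fin k → N.Λ) → ZMod 2} (hz : ∀ m a, z m a = 0) :
    N.horVec ℓ E z = 0 := by
  funext v
  cases v with
  | none => rfl
  | some v =>
    unfold horVec
    dsimp only
    split_ifs
    · exact hz _ _
    · rfl

/-- The package P5b, from the normal form. -/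
theorem mem_span_of_norm (hℓ : 1 ≤ ℓ) (W : Finset (N.Ax ℓ))
    (hWv : ∀ y ∈ W, N.AxValid ℓ y) (hW : W.card ≤ k) (j : Fin k) (hj : N.FreeRow ℓ W j)
    (hocc : ∀ i, i ≠ j → ∃ x ∈ W, row x = i) (f : N.Form ℓ) (hf : f ∈ N.VW ℓ W)
    (S : Finset (N.Ax ℓ)) (y : N.Ed ℓ → Fin k → (Fin k → N.Λ) → ZMod 2)
    (hS : ∀ x ∈ S, N.AxValid ℓ x ∧ row x ≠ j ∧ (∃ w ∈ W, w.1 = x.1 ∧ w.2.1 = x.2.1) ∧
      ∃ w ∈ W, w.1 = x.1 ∧ w.2.2 = x.2.2)
    (hy : ∀ E, N.IsZ (y E) ∧ ∀ a, y E j a = 0)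
    (hfe : f = ∑ x ∈ S, N.vec ℓ x + ∑ E, N.horVec ℓ E (y E)) :
    f ∈ Submodule.span (ZMod 2) {g | ∃ x ∈ W, g = N.vec ℓ x} := by
  classical
  -- split off the members of `W`
  have hspl : ∑ x ∈ S, N.vec ℓ x = ∑ x ∈ S.filter (· ∈ W), N.vec ℓ x
      + ∑ x ∈ S.filter (· ∉ W), N.vec ℓ x := (Finset.sum_filter_add_sum_filter_not S _ _).symm
  set S' := S.filter (· ∉ W) with hS'
  have hin : ∑ x ∈ S.filter (· ∈ W), N.vec ℓ x ∈ N.VW ℓ W :=
    Submodule.sum_mem _ fun x hx => vec_mem_VW (Finset.mem_filter.1 hx).2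
  have hf' : (∑ x ∈ S', N.vec ℓ x + ∑ E, N.horVec ℓ E (y E)) ∈ N.VW ℓ W := by
    have h1 : ∑ x ∈ S', N.vec ℓ x + ∑ E, N.horVec ℓ E (y E)
        = f - ∑ x ∈ S.filter (· ∈ W), N.vec ℓ x := by
      rw [hfe, hspl]; abel
    rw [h1]
    exact Submodule.sub_mem _ hf hin
  have hSj : ∀ x ∈ S', row x ≠ j := fun x hx => (hS x (Finset.mem_filter.1 hx).1).2.1
  have hSW : ∀ x ∈ S', x ∉ W := fun x hx => (Finset.mem_filter.1 hx).2
  have hcl : ∀ x ∈ S', ∃ w ∈ W, w.1 = x.1 ∧ w.2.2 = x.2.2 :=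
    fun x hx => (hS x (Finset.mem_filter.1 hx).1).2.2.2
  have hemp : S' = ∅ := by
    by_contra hne
    obtain ⟨x, hx⟩ := Finset.nonempty_iff_ne_empty.2 hne
    obtain ⟨u, hu, hu1, hu2⟩ := hcl x hx
    have hur : row u = row x := congrArg Prod.fst hu2
    have hua : u.2.2.2 = x.2.2.2 := congrArg Prod.snd hu2
    have h1 : ∃ w ∈ W, w.1 = x.1 ∧ row w = row x ∧ w.2.2.2 j = x.2.2.2 j ∧
        w.2.2.2 ≠ x.2.2.2 := by
      by_contra hcon
      push Not at hcon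
      exact hSW x hx (mem_of_unique hj hf' hSj hcl hx hcon)
    obtain ⟨w, hw, hw1, hwr, hwj, hwa⟩ := h1
    have huw : u ≠ w := by
      rintro rfl
      exact hwa hua
    have hinj := inj_erase hW hocc hu hw huw (hur.trans hwr.symm)
    have hW0 : ∀ p ∈ W, row p = row x → p = u ∨ p = w := by
      intro p hp hpr
      by_cases hpw : p = w
      · exact Or.inr hpw
      · exact Or.inl (hinj p hp u hu hpw huw (hpr.trans hur.symm))
    have hW1 : ∀ m', m' ≠ row x → ∀ p ∈ W, ∀ q ∈ W, row p = m' → row q = m' → p = q := by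
      intro m' hm' p hp q hq hpr hqr
      refine hinj p hp q hq ?_ ?_ (hpr.trans hqr.symm)
      · rintro rfl; exact hm' (hpr.symm.trans hwr)
      · rintro rfl; exact hm' (hqr.symm.trans hwr)
    have hS2 : ∀ z ∈ S', row z = row x := by
      intro z hz
      by_contra hzr
      refine hSW z hz (mem_of_unique hj hf' hSj hcl hz ?_)
      intro p hp _ hpr _
      obtain ⟨q, hq, hq1, hq2⟩ := hcl z hz
      have hqr : row q = row z := congrArg Prod.fst hq2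
      rw [hW1 (row z) hzr p hp q hq hpr hqr]
      exact congrArg Prod.snd hq2
    have hS3 : ∀ z ∈ S', z ∉ W ∧ z.1 = x.1 ∧ row z = row x ∧
        (z.2.2.2 = x.2.2.2 ∨ z.2.2.2 = w.2.2.2) := by
      intro z hz
      refine ⟨hSW z hz, ?_, hS2 z hz, ?_⟩
      · obtain ⟨q, hq, hq1, hq2⟩ := hcl z hz
        have hqr : row q = row z := congrArg Prod.fst hq2
        rcases hW0 q hq (hqr.trans (hS2 z hz)) with h | h
        · rw [← hq1, h, hu1]
        · rw [← hq1, h, hw1]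
      · obtain ⟨q, hq, hq1, hq2⟩ := hcl z hz
        have hqr : row q = row z := congrArg Prod.fst hq2
        have hqa : q.2.2.2 = z.2.2.2 := congrArg Prod.snd hq2
        rcases hW0 q hq (hqr.trans (hS2 z hz)) with h | h
        · left; rw [← hqa, h, hua]
        · right; rw [← hqa, h]
    obtain ⟨l, hl⟩ : ∃ l, w.2.2.2 l ≠ x.2.2.2 l := by
      by_contra hcon
      push Not at hcon
      exact hwa (funext hcon)
    have hlx : l ≠ row x := by
      rintro rfl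
      apply hl
      have h2 := (hS x (Finset.mem_filter.1 hx).1).1.2.2.1
      have h3 := (hWv w hw).2.2.1
      have h4 : w.2.2.2 (row w) = 0 := h3
      rw [hwr] at h4
      rw [h4]
      exact h2.symm
    have hlj : l ≠ j := by
      rintro rfl
      exact hl hwj
    exact no_bad hℓ hj hWv hf' hy (hSj x hx) hS3 hu hw ⟨hu1, hur, hua⟩
      ⟨hw1, hwr, rfl⟩ hlx hlj (fun h => hl h.symm) hW0 (hW1 l hlx) hx rfl
  rw [hemp] at hf'
  have hy0 := hor_zero hW hocc hf' hy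
  rw [hfe, hspl, hemp, Finset.sum_empty, add_zero,
    Finset.sum_eq_zero (fun E _ => horVec_zero E (hy0 E)), add_zero]
  exact Submodule.sum_mem _ fun x hx =>
    Submodule.subset_span ⟨x, (Finset.mem_filter.1 hx).2, rfl⟩

end P5b

end Net

end Vale.Agent.P310
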