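import Vale.Agent.P310.Defs

/-!
# P310: the axiom system of a network
-/

namespace Vale.Agent.P310

namespace Net

variable {k : ℕ} (N : Net k)

theorem axSlot_inj (ℓ : ℕ) (x : N.Ax ℓ) (b b' : Fin (k + 7))
    (h : N.axSlot ℓ x b = N.axSlot ℓ x b') (hne : N.axSlot ℓ x b ≠ none) : b = b' := by
  obtain ⟨c, ⟨l, s⟩, i, a⟩ := x
  unfold axSlot at h hne
  dsimp only at h hne
  have hbl := b.2
  have hbl' := b'.2
  apply Fin.ext
  by_cases h1 : (b : ℕ) < k
  · rw [dif_pos h1] at h hne
    by_cases h2 : (⟨b, h1⟩ : Fin k) = i
    · rw [if_pos h2] at hne; exact absurd rfl hne
    rw [if_neg h2] at h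
    by_cases h1' : (b' : ℕ) < k
    · rw [dif_pos h1'] at h
      by_cases h2' : (⟨b', h1'⟩ : Fin k) = i
      · rw [if_pos h2'] at h; cases h
      rw [if_neg h2'] at h
      have h3 := Option.some.inj h
      injection h3 with _ _ _ he _
      have := Sym2.congr_right.mp he
      exact Fin.mk.inj_iff.mp this
    · rw [dif_neg h1'] at h
      split_ifs at h
      · have h3 := Option.some.inj h; cases h3
      · have h3 := Option.some.inj h; cases h3
      · have h3 := Option.some.inj h; cases h3
      · have h3 := Option.some.inj h; cases h3
  · rw [dif_neg h1] at h hne
    by_cases h1' : (b' : ℕ) < k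
    · rw [dif_pos h1'] at h
      by_cases h2' : (⟨b', h1'⟩ : Fin k) = i
      · rw [if_pos h2'] at h; exact absurd h hne
      rw [if_neg h2'] at h
      split_ifs at h
      · have h3 := Option.some.inj h; cases h3
      · have h3 := Option.some.inj h; cases h3
      · have h3 := Option.some.inj h; cases h3
      · have h3 := Option.some.inj h; cases h3
    · rw [dif_neg h1'] at h
      by_cases hs : (s : ℕ) = 0
      · rw [if_pos hs] at h hne
        rw [if_pos hs] at h
        split_ifs at h hne with h4 h5
        · have h3 := Option.some.inj h
          injection h3 with _ he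
          have := congrArg Fin.val he
          simp only at this
          omega
        · exact absurd rfl hne
      · rw [if_neg hs] at h hne
        rw [if_neg hs] at h
        by_cases e0 : (b : ℕ) - k = 0
        · rw [if_pos e0] at h
          by_cases e0' : (b' : ℕ) - k = 0
          · omega
          rw [if_neg e0'] at h
          split_ifs at h with h5 h6
          · have h3 := Option.some.inj h
            injection h3 with _ _ he
            have := congrArg Fin.val he
            simp only at this
            omega
          · have h3 := Option.some.inj h; cases h3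
        · rw [if_neg e0] at h hne
          by_cases e0' : (b' : ℕ) - k = 0
          · rw [if_pos e0'] at h
            split_ifs at h with h5 h6
            · have h3 := Option.some.inj h
              injection h3 with _ _ he
              have := congrArg Fin.val he
              simp only at this
              omega
            · have h3 := Option.some.inj h; cases h3
          · rw [if_neg e0'] at h
            by_cases e1 : (b : ℕ) - k = 1
            · by_cases e1' : (b' : ℕ) - k = 1
              · omega
              · rw [if_neg e1'] at h; rw [h] at hne; exact absurd rfl hne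
            · rw [if_neg e1] at hne; exact absurd rfl hne

/-- The axiom system of a network; `ix` is an injective numbering of the axioms. -/
def sys (ℓ : ℕ) (ix : N.Ax ℓ → ℕ) (hix : Function.Injective ix) (M : ℕ)
    (hM : ∀ x, ix x + 2 ≤ M) : ASys where
  X := N.Ax ℓ
  Var := N.Vr ℓ
  σ := k + 7
  valid := N.AxValid ℓ
  slot := N.axSlot ℓ
  slot_inj := N.axSlot_inj ℓ
  idx := ix
  idx_inj := hix
  M := M
  idx_lt := hM

end Net

end Vale.Agent.P310
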