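import Vale.Agent.P310.Defs

/-!
# P310, package P1: Weisfeiler–Leman equivalence and back-and-forth systems
-/

namespace Vale.Agent.P310

open Finset

/-- Two functions with the same multiset of values differ by a bijection. -/
theorem P1_exists_equiv {α β γ : Type} [Fintype α] [Fintype β] {f : α → γ} {g : β → γ}
    (h : (univ : Finset α).val.map f = (univ : Finset β).val.map g) :
    ∃ e : α ≃ β, ∀ a, g (e a) = f a := by
  classical
  have key : ∀ c : γ, Fintype.card {a // f a = c} = Fintype.card {b // g b = c} := by
    intro c
    have h1 := congrArg (Multiset.count c) h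
    rw [Multiset.count_map, Multiset.count_map] at h1
    rw [Fintype.card_subtype, Fintype.card_subtype]
    have e1 : (univ.filter fun a => f a = c) = (univ.filter fun a => c = f a) := by
      ext a; simp [eq_comm]
    have e2 : (univ.filter fun b => g b = c) = (univ.filter fun b => c = g b) := by
      ext a; simp [eq_comm]
    rw [e1, e2]
    exact h1
  refine ⟨Equiv.ofFiberEquiv (fun c => Fintype.equivOfCardEq (key c)), fun a => ?_⟩
  exact Equiv.ofFiberEquiv_map _ a

/-- Transport of a multiset of values along a bijection. -/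
theorem P1_map_univ_equiv {α β γ : Type} [Fintype α] [Fintype β] (e : α ≃ β) {f : α → γ} {g : β → γ}
    (h : ∀ a, f a = g (e a)) :
    (univ : Finset α).val.map f = (univ : Finset β).val.map g := by
  have h1 : f = g ∘ e := funext h
  rw [h1, ← Multiset.map_map, Multiset.map_univ_val_equiv]

theorem BF.col_eq {k : ℕ} {V W : Type} [Fintype V] [DecidableEq V] [Fintype W]
    [DecidableEq W] {G : SimpleGraph V} {H : SimpleGraph W}
    {R : (Fin k → V) → (Fin k → W) → Prop} (hR : BF k G H R) (r : ℕ) :
    ∀ x y, R x y → col k G r x = col k H r y := by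
  induction r with
  | zero =>
    intro x y h
    refine Prod.ext ?_ ?_
    · funext i j
      exact propext (hR.eq_iff x y h i j)
    · funext i j
      exact propext (hR.adj_iff x y h i j)
  | succ r ih =>
    intro x y h
    obtain ⟨f, hf⟩ := hR.ext x y h
    refine Prod.ext (ih x y h) ?_
    refine P1_map_univ_equiv f (fun u => ?_)
    funext i
    exact ih _ _ (hf u i)

/-- The tuples that agree with `x` outside `S`. -/
def P1_agr {k : ℕ} {V : Type} [Fintype V] [DecidableEq V] (S : Finset (Fin k)) (x : Fin k → V) :
    Finset (Fin k → V) := univ.filter fun z => ∀ i, i ∉ S → z i = x i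

theorem P1_agr_insert {k : ℕ} {V : Type} [Fintype V] [DecidableEq V] (S : Finset (Fin k))
    (i : Fin k) (hi : i ∉ S) (x : Fin k → V) (u : V) :
    (P1_agr (insert i S) x).filter (fun z => z i = u) = P1_agr S (Function.update x i u) := by
  ext z
  simp only [P1_agr, mem_filter, mem_univ, true_and, mem_insert, not_or]
  constructor
  · rintro ⟨h1, h2⟩ j hj
    by_cases hji : j = i
    · subst hji
      rw [Function.update_self]
      exact h2
    · rw [Function.update_of_ne hji]
      exact h1 j ⟨hji, hj⟩
  · intro h
    refine ⟨fun j hj => ?_, ?_⟩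
    · rw [h j hj.2, Function.update_of_ne hj.1]
    · rw [h i hi, Function.update_self]

theorem BF.sum_eq {k : ℕ} {V W : Type} [Fintype V] [DecidableEq V] [Fintype W]
    [DecidableEq W] {G : SimpleGraph V} {H : SimpleGraph W}
    {R : (Fin k → V) → (Fin k → W) → Prop} (hR : BF k G H R) (r : ℕ) (S : Finset (Fin k)) :
    ∀ x y, R x y → ∑ z ∈ P1_agr S x, ({col k G r z} : Multiset (Col k r)) =
      ∑ z ∈ P1_agr S y, ({col k H r z} : Multiset (Col k r)) := by
  induction S using Finset.induction_on with
  | empty =>
    intro x y h
    have h1 : P1_agr (∅ : Finset (Fin k)) x = {x} := by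
      ext z
      simp only [P1_agr, mem_filter, mem_univ, true_and, notMem_empty, not_false_iff,
        true_implies, mem_singleton]
      exact ⟨fun h => funext h, fun h i => congrFun h i⟩
    have h2 : P1_agr (∅ : Finset (Fin k)) y = {y} := by
      ext z
      simp only [P1_agr, mem_filter, mem_univ, true_and, notMem_empty, not_false_iff,
        true_implies, mem_singleton]
      exact ⟨fun h => funext h, fun h i => congrFun h i⟩
    rw [h1, h2, sum_singleton, sum_singleton, hR.col_eq r x y h]
  | insert i S hi ih =>
    intro x y h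
    obtain ⟨f, hf⟩ := hR.ext x y h
    rw [← Finset.sum_fiberwise (P1_agr (insert i S) x) (fun z => z i),
      ← Finset.sum_fiberwise (P1_agr (insert i S) y) (fun z => z i)]
    refine Fintype.sum_equiv f _ _ (fun u => ?_)
    rw [P1_agr_insert S i hi, P1_agr_insert S i hi]
    exact ih _ _ (hf u i)

theorem P1_sum_singleton {α β : Type} [Fintype α] (f : α → β) :
    (univ : Finset α).val.map f = ∑ z, ({f z} : Multiset β) := by
  have h1 := Multiset.map_map (fun b : β => ({b} : Multiset β)) f (univ : Finset α).val
  have h2 : ((univ : Finset α).val.map (fun z => ({f z} : Multiset β))) =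
      (univ : Finset α).val.map ((fun b : β => ({b} : Multiset β)) ∘ f) := rfl
  rw [Finset.sum, h2, ← h1]
  exact (Multiset.sum_map_singleton _).symm

theorem WLEquiv.of_BF {k : ℕ} (_hk : 1 ≤ k) {V W : Type} [Fintype V] [DecidableEq V] [Fintype W]
    [DecidableEq W] {G : SimpleGraph V} {H : SimpleGraph W}
    {R : (Fin k → V) → (Fin k → W) → Prop} (hR : BF k G H R) {x : Fin k → V} {y : Fin k → W}
    (h : R x y) : WLEquiv k G H := by
  intro r
  have h1 := hR.sum_eq r univ x y h
  have h2 : P1_agr (univ : Finset (Fin k)) x = univ := by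
    ext z; simp [P1_agr]
  have h3 : P1_agr (univ : Finset (Fin k)) y = univ := by
    ext z; simp [P1_agr]
  rw [h2, h3] at h1
  rw [P1_sum_singleton, P1_sum_singleton]
  exact h1

/-- Pigeonhole: an antitone family of nonempty subsets of a finite type has a common element. -/
theorem P1_pigeon {α : Type} [Finite α] (P : ℕ → α → Prop) (hP : ∀ r a, P (r + 1) a → P r a)
    (h : ∀ r, ∃ a, P r a) : ∃ a, ∀ r, P r a := by
  by_contra hcon
  push Not at hcon
  choose n hn using hcon
  have hfin : (Set.range n).Finite := Set.finite_range n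
  obtain ⟨N, hN⟩ := hfin.bddAbove
  obtain ⟨a, ha⟩ := h N
  have hmono : ∀ d r, P (r + d) a → P r a := by
    intro d
    induction d with
    | zero => intro r h; exact h
    | succ d ih => intro r h; exact ih r (hP _ _ h)
  have hle : n a ≤ N := hN ⟨a, rfl⟩
  obtain ⟨d, hd⟩ := Nat.exists_eq_add_of_le hle
  rw [hd] at ha
  exact hn a (hmono d _ ha)

theorem WLEquiv.exists_BF {k : ℕ} {V W : Type} [Fintype V] [DecidableEq V] [Fintype W]
    [DecidableEq W] {G : SimpleGraph V} {H : SimpleGraph W} (h : WLEquiv k G H) :
    ∃ R : (Fin k → V) → (Fin k → W) → Prop, BF k G H R ∧ ∀ x, ∃ y, R x y := by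
  refine ⟨fun x y => ∀ r, col k G r x = col k H r y, ⟨?_, ?_, ?_⟩, ?_⟩
  · intro x y hxy i j
    have h0 := congrArg (fun c : Col k 0 => c.1 i j) (hxy 0)
    exact iff_of_eq h0
  · intro x y hxy i j
    have h0 := congrArg (fun c : Col k 0 => c.2 i j) (hxy 0)
    exact iff_of_eq h0
  · intro x y hxy
    have h1 : ∃ f : V ≃ W, ∀ r, ∀ u, (fun i => col k G r (Function.update x i u)) =
        fun i => col k H r (Function.update y i (f u)) := by
      refine P1_pigeon (fun r (f : V ≃ W) => ∀ u, (fun i => col k G r (Function.update x i u)) =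
        fun i => col k H r (Function.update y i (f u))) ?_ ?_
      · intro r f hf u
        funext i
        have h2 := congrFun (hf u) i
        exact congrArg Prod.fst h2
      · intro r
        have h2 : (univ : Finset V).val.map (fun u => fun i => col k G r (Function.update x i u)) =
          (univ : Finset W).val.map (fun u => fun i => col k H r (Function.update y i u)) :=
            congrArg Prod.snd (hxy (r + 1))
        obtain ⟨e, he⟩ := P1_exists_equiv h2
        exact ⟨e, fun u => (he u).symm⟩
    obtain ⟨f, hf⟩ := h1
    exact ⟨f, fun u i r => congrFun (hf r u) i⟩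
  · intro x
    refine P1_pigeon (fun r y => col k G r x = col k H r y) ?_ ?_
    · intro r y hy
      exact congrArg Prod.fst hy
    · intro r
      have h1 : col k G r x ∈ (univ : Finset (Fin k → W)).val.map (col k H r) := by
        rw [← h r]
        exact Multiset.mem_map_of_mem _ (mem_univ x)
      obtain ⟨y, _, hy⟩ := Multiset.mem_map.mp h1
      exact ⟨y, hy.symm⟩

theorem P1_col_iso {k : ℕ} {V W : Type} [Fintype V] [DecidableEq V] [Fintype W]
    [DecidableEq W] {G : SimpleGraph V} {H : SimpleGraph W} (e : G ≃g H) (r : ℕ)
    (x : Fin k → V) : col k G r x = col k H r (fun i => e (x i)) := by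
  have hBF : BF k G H (fun x y => y = fun i => e (x i)) := by
    refine ⟨?_, ?_, ?_⟩
    · rintro x y rfl i j
      exact (e.injective.eq_iff).symm
    · rintro x y rfl i j
      exact e.map_adj_iff.symm
    · rintro x y rfl
      refine ⟨e.toEquiv, fun u i => ?_⟩
      funext j
      by_cases hj : j = i
      · subst hj
        rw [Function.update_self, Function.update_self]
        rfl
      · rw [Function.update_of_ne hj, Function.update_of_ne hj]
  exact hBF.col_eq r x _ rfl

theorem P1_map_iso {k : ℕ} {V W : Type} [Fintype V] [DecidableEq V] [Fintype W]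
    [DecidableEq W] {G : SimpleGraph V} {H : SimpleGraph W} (e : G ≃g H) (r : ℕ) :
    (univ : Finset (Fin k → V)).val.map (col k G r) =
      (univ : Finset (Fin k → W)).val.map (col k H r) :=
  P1_map_univ_equiv (Equiv.arrowCongr (Equiv.refl _) e.toEquiv) (fun x => P1_col_iso e r x)

/-- Invariance under isomorphism. -/
theorem WLEquiv.congr {k : ℕ} {V W V' W' : Type} [Fintype V] [DecidableEq V] [Fintype W]
    [DecidableEq W] [Fintype V'] [DecidableEq V'] [Fintype W'] [DecidableEq W']
    {G : SimpleGraph V} {H : SimpleGraph W} {G' : SimpleGraph V'} {H' : SimpleGraph W'}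
    (e : G ≃g G') (e' : H ≃g H') : WLEquiv k G H ↔ WLEquiv k G' H' := by
  constructor
  · intro h r
    rw [← P1_map_iso e r, ← P1_map_iso e' r]
    exact h r
  · intro h r
    rw [P1_map_iso e r, P1_map_iso e' r]
    exact h r

end Vale.Agent.P310
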