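import Mathlib

/-!
# P310: Weisfeiler–Leman equivalence
-/

namespace Vale.Agent.P310

open Finset

/-! ## Weisfeiler–Leman -/

/-- The type of colours after `r` rounds of `k`-dimensional (joint-update) refinement: the colours
are the data themselves. -/
def Col (k : ℕ) : ℕ → Type
  | 0 => (Fin k → Fin k → Prop) × (Fin k → Fin k → Prop)
  | r + 1 => Col k r × Multiset (Fin k → Col k r)

/-- The colour `C_r(x)` of a `k`-tuple `x` of vertices of `G`. -/
noncomputable def col (k : ℕ) {V : Type} [Fintype V] [DecidableEq V] (G : SimpleGraph V) :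
    (r : ℕ) → (Fin k → V) → Col k r
  | 0, x => (fun i j => x i = x j, fun i j => G.Adj (x i) (x j))
  | r + 1, x =>
    (col k G r x, (univ : Finset V).val.map (fun y => fun i => col k G r (Function.update x i y)))

/-- `k`-WL equivalence. -/
def WLEquiv (k : ℕ) {V W : Type} [Fintype V] [DecidableEq V] [Fintype W] [DecidableEq W]
    (G : SimpleGraph V) (H : SimpleGraph W) : Prop :=
  ∀ r : ℕ, (univ : Finset (Fin k → V)).val.map (col k G r) =
    (univ : Finset (Fin k → W)).val.map (col k H r)

end Vale.Agent.P310
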